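import Vale.Agent.P183.H238.Gluing

/-!
The level over `t` built from compatible families of saturated sets.
-/

set_option linter.all false

namespace Vale.Agent.P183.H238

open Vale.Agent.P183 Vale.Agent.P183.H330 Vale.Agent.P183.H330G

variable {L K : Type} [Lattice L] [Lattice K] {f : LatticeHom L K} {lo hi : K → L}

theorem xor_cancel (P Q : Prop) : Xor' P (Xor' P Q) ↔ Q := by
  by_cases hP : P <;> by_cases hQ : Q <;> simp [Xor', hP, hQ]

theorem xor_right {P Q X Y : Prop} (h : Xor' P (Xor' X Y) ↔ Xor' Q (Xor' X Y)) : P ↔ Q := by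
  by_cases hP : P <;> by_cases hQ : Q <;> by_cases hX : X <;> by_cases hY : Y <;>
    simp [Xor', hP, hQ, hX, hY] at h ⊢

/-- The blocks. -/
abbrev Blk (L : Type) {K : Type} [Lattice K] (t : K) (X : {r : K // r < t} → Type) (A : Type) :
    Type := (∀ r, Set (X r)) × (A → T5) × (K → L)

section

variable {S : ∀ t, Sp f lo t} {B : ∀ t, Subgroup (Equiv.Perm (S t).X)}
  (J : ∀ t r, (S r).X → (S t).X) {t : K} (D : Dl f t)

/-- Admissible blocks. -/
def Ad (φ : Blk L t (fun r => (S r.1).X) D.A) : Prop :=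
  CF f t φ.2.2 ∧
  (∀ q z, q < t → f z = q → z ≤ φ.2.2 q ∨
    ∀ x y, D.κ (z ⊔ lo t) x y → φ.2.1 x = φ.2.1 y) ∧
  (∀ q (hq : q < t) (a b : (S q).X), (S q).d a b ≤ φ.2.2 q →
    (a ∈ φ.1 ⟨q, hq⟩ ↔ b ∈ φ.1 ⟨q, hq⟩)) ∧
  ∀ p q (hpq : p ≤ q) (hq : q < t) (a : (S p).X),
    (J q p a ∈ φ.1 ⟨q, hq⟩ ↔ a ∈ φ.1 ⟨p, hpq.trans_lt hq⟩)

open Classical in
/-- The image of a point of a lower space. -/
noncomputable def val (r : K) (hr : r < t) (a : (S r).X) :
    D.A × Blk L t (fun r => (S r.1).X) D.A → T5 := fun z =>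
  if Ad J D z.2 ∧ a ∈ z.2.1 ⟨r, hr⟩ then z.2.2.1 z.1 else 1

variable {J} (hlo : ∀ k l, k ≤ f l → lo k ≤ l) (hflo : ∀ k, f (lo k) = k) {N : Set K}
  (hJ : ∀ r, r < t → GoodN N S B r J)

include hlo hflo hJ

theorem val_comp {p q : K} (hpq : p ≤ q) (hq : q < t) (a : (S p).X) :
    val J D q hq (J q p a) = val J D p (hpq.trans_lt hq) a := by
  classical
  funext z
  unfold val
  by_cases h : Ad J D z.2
  · have h1 := h.2.2.2 p q hpq hq a
    simp only [h, true_and, h1]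
  · simp only [h, false_and]

/-- Separation by blocks. -/
theorem sepr [Finite L] {u : K → L} (hu : CF f t u) {d l : L} (hd : f d = t) (hl : f l = t)
    (hdl : ¬ d ≤ l) (hu3 : ∀ q z, q < t → f z = q → z ≤ u q ∨ ∀ w, f w = t → z ≤ w → d ≤ w)
    {r r' : K} (hr : r < t) (hr' : r' < t) (a : (S r).X) (a' : (S r').X)
    (h : BE (D.κ l) (val J D r hr a) (val J D r' hr' a')) :
    ∃ e : (S (r ⊓ r')).X, (S r).d a (J r (r ⊓ r') e) ≤ u r ∧
      (S r').d (J r' (r ⊓ r') e) a' ≤ u r' := by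
  classical
  obtain ⟨t0, ht0⟩ := exists_ne (1 : T5)
  obtain ⟨U, hU1, hU2, hU3⟩ := exists_ball hlo hJ hu hr a
  have hκ : ¬ D.κ l ≤ D.κ d := fun h => hdl ((D.anti l d hl hd).1 h)
  obtain ⟨x0, y0, hxy, hxy'⟩ : ∃ a b, D.κ l a b ∧ ¬ D.κ d a b := by
    by_contra hcon
    push Not at hcon
    exact hκ (fun x y hxy => hcon x y hxy)
  let φ : Blk L t (fun r => (S r.1).X) D.A := (U, (fun x => if D.κ d x0 x then t0 else 1), u)
  have hAd : Ad J D φ := by
    refine ⟨hu, ?_, hU1, hU2⟩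
    intro q z hq hz
    rcases hu3 q z hq hz with h1 | h1
    · exact Or.inl h1
    · right
      intro x y hxy
      have hft : f (z ⊔ lo t) = t := by rw [map_sup, hz, hflo, sup_eq_right.2 hq.le]
      have h2 : d ≤ z ⊔ lo t := h1 _ hft le_sup_left
      have h3 : D.κ d x y := (D.anti _ _ hft hd).2 h2 hxy
      have h4 : (D.κ d x0 x) ↔ (D.κ d x0 y) :=
        ⟨fun h => (D.κ d).trans' h h3, fun h => (D.κ d).trans' h ((D.κ d).symm' h3)⟩
      show (if D.κ d x0 x then t0 else 1) = if D.κ d x0 y then t0 else 1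
      simp only [h4]
  by_contra hno
  have ha : a ∈ φ.1 ⟨r, hr⟩ := by
    rw [show φ.1 = U from rfl, hU3 r hr a]
    refine ⟨J (r ⊓ r) r a, ?_, ?_⟩
    · rw [(hJ r hr).comp _ _ (le_inf le_rfl le_rfl) inf_le_left, (hJ r hr).refl,
        ((S r).self _ _).2 rfl]
      exact hlo _ _ (hu.1 r hr).ge
    · rw [(hJ r hr).comp _ _ (le_inf le_rfl le_rfl) inf_le_left, (hJ r hr).refl,
        ((S r).self _ _).2 rfl]
      exact hlo _ _ (hu.1 r hr).ge
  have ha' : ¬ a' ∈ φ.1 ⟨r', hr'⟩ := by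
    rw [show φ.1 = U from rfl, hU3 r' hr' a']
    exact hno
  have h1 := h φ x0 y0 hxy
  have e1 : ∀ x, val J D r hr a (x, φ) = φ.2.1 x := fun x => if_pos ⟨hAd, ha⟩
  have e2 : ∀ x, val J D r' hr' a' (x, φ) = 1 := fun x => if_neg (fun h => ha' h.2)
  rw [e1, e1, e2, e2, mul_one, mul_one] at h1
  have h2 : φ.2.1 x0 = φ.2.1 y0 := inv_injective h1
  have h3 : φ.2.1 x0 = t0 := if_pos ((D.κ d).refl' x0)
  have h4 : φ.2.1 y0 = 1 := if_neg hxy'
  rw [h3, h4] at h2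
  exact ht0 h2

/-- The maps are isometric. -/
theorem val_isom [Finite L] [Finite K] (hCT : CompatTight f t) {r : K} (hr : r < t)
    (a a' : (S r).X) {l : L} (hl : f l = t) :
    BE (D.κ l) (val J D r hr a) (val J D r hr a') ↔ (S r).d a a' ≤ l := by
  classical
  constructor
  · intro h
    by_contra hc
    obtain ⟨u, d, hd, hdl, hxu, hu, hu3⟩ := hCT.lt hflo hlo hr ((S r).fd a a') hl hc
    obtain ⟨e, h1, h2⟩ := sepr D hlo hflo hJ hu hd hl hdl hu3 hr hr a a' h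
    exact hxu (((S r).tri _ _ _).trans (sup_le h1 h2))
  · intro h φ x y hxy
    unfold val
    by_cases hA : Ad J D φ
    · rcases hA.2.1 r ((S r).d a a') hr ((S r).fd _ _) with h1 | h1
      · have h2 := hA.2.2.1 r hr a a' h1
        simp only [hA, true_and, h2]
        by_cases h3 : a' ∈ φ.1 ⟨r, hr⟩
        · simp only [h3, if_true, inv_mul_cancel]
        · simp only [h3, if_false]
      · have hft : f ((S r).d a a' ⊔ lo t) = t := by
          rw [map_sup, (S r).fd, hflo, sup_eq_right.2 hr.le]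
        have h2 : D.κ ((S r).d a a' ⊔ lo t) x y :=
          (D.anti _ _ hl hft).2 (sup_le h (hlo _ _ hl.ge)) hxy
        have h3 : φ.2.1 x = φ.2.1 y := h1 x y h2
        simp only [hA, true_and, h3]
    · simp only [hA, false_and, if_false]

/-- Families of permutations extend. -/
theorem val_ext [Finite L] [Finite K] (hB : ∀ s, B s ≤ isoSub (S s)) {s : K}
    {g : ∀ r, Equiv.Perm (S r).X} (hg : CompatB S B J s t g) :
    ∃ π : Equiv.Perm (Blk L t (fun r => (S r.1).X) D.A), ∀ r (hr : r < t), s ≤ r → ∀ a x φ,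
      val J D r hr a (x, π φ) = val J D r hr (g r a) (x, φ) := by
  classical
  have hXf : ∀ r, Finite (S r).X := fun r => (S r).fin
  have hAf := D.fin
  let gV : (∀ r : {r : K // r < t}, Set (S r.1).X) → ∀ r : {r : K // r < t}, Set (S r.1).X :=
    fun V r => {a | g r.1 a ∈ V r}
  have hSat : ∀ φ : Blk L t (fun r => (S r.1).X) D.A, Ad J D φ → SatC J t φ.2.2 s φ.1 :=
    fun φ h => ⟨fun q hq _ => h.2.2.1 q hq, fun p q hpq hq _ => h.2.2.2 p q hpq hq⟩
  have hgSat : ∀ φ : Blk L t (fun r => (S r.1).X) D.A, Ad J D φ →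
      SatC J t φ.2.2 s (gV φ.1) := by
    intro φ h
    constructor
    · intro q hq hsq a b hab
      refine h.2.2.1 q hq _ _ ?_
      rw [hB q (hg q hsq hq).1]
      exact hab
    · intro p q hpq hq hsp a
      show g q (J q p a) ∈ φ.1 ⟨q, hq⟩ ↔ g p a ∈ φ.1 ⟨p, _⟩
      rw [(hg q (hsp.trans hpq) hq).2 p hsp hpq]
      exact h.2.2.2 p q hpq hq _
  let U' : Blk L t (fun r => (S r.1).X) D.A → ∀ r : {r : K // r < t}, Set (S r.1).X :=
    fun φ r => {a | Xor' (a ∈ φ.1 r) (Xor' (a ∈ exV J t φ.2.2 s φ.1 r)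
      (a ∈ exV J t φ.2.2 s (gV φ.1) r))}
  have hU' : ∀ φ r a, a ∈ U' φ r ↔ Xor' (a ∈ φ.1 r) (Xor' (a ∈ exV J t φ.2.2 s φ.1 r)
      (a ∈ exV J t φ.2.2 s (gV φ.1) r)) := fun _ _ _ => Iff.rfl
  let T : Blk L t (fun r => (S r.1).X) D.A → Blk L t (fun r => (S r.1).X) D.A := fun φ =>
    if Ad J D φ then (U' φ, φ.2.1, φ.2.2) else φ
  have hT1 : ∀ φ, Ad J D φ → T φ = (U' φ, φ.2.1, φ.2.2) := fun φ h => if_pos h
  have hT2 : ∀ φ, ¬ Ad J D φ → T φ = φ := fun φ h => if_neg h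
  have hAd : ∀ φ, Ad J D φ → Ad J D (U' φ, φ.2.1, φ.2.2) := by
    intro φ h
    refine ⟨h.1, h.2.1, ?_, ?_⟩
    · intro q hq a b hab
      show a ∈ U' φ ⟨q, hq⟩ ↔ b ∈ U' φ ⟨q, hq⟩
      rw [hU', hU', h.2.2.1 q hq a b hab, exV_sat hlo hJ h.1 φ.1 q hq a b hab,
        exV_sat hlo hJ h.1 (gV φ.1) q hq a b hab]
    · intro p q hpq hq a
      show J q p a ∈ U' φ ⟨q, hq⟩ ↔ a ∈ U' φ ⟨p, _⟩
      rw [hU', hU', h.2.2.2 p q hpq hq a, exV_compat hlo hJ h.1 (hSat φ h) p q hpq hq a,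
        exV_compat hlo hJ h.1 (hgSat φ h) p q hpq hq a]
  have hres : ∀ φ, Ad J D φ → ∀ q (hq : q < t), s ≤ q → ∀ a,
      (a ∈ U' φ ⟨q, hq⟩ ↔ g q a ∈ φ.1 ⟨q, hq⟩) := by
    intro φ h q hq hsq a
    rw [hU', exV_eq hlo hJ h.1 (hSat φ h) q hq hsq, exV_eq hlo hJ h.1 (hgSat φ h) q hq hsq]
    have : a ∈ gV φ.1 ⟨q, hq⟩ ↔ g q a ∈ φ.1 ⟨q, hq⟩ := Iff.rfl
    rw [this]
    exact xor_cancel _ _
  have hinj : Function.Injective T := by
    intro φ ψ hφψ
    by_cases h1 : Ad J D φ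
    · by_cases h2 : Ad J D ψ
      · rw [hT1 φ h1, hT1 ψ h2] at hφψ
        have e1 : U' φ = U' ψ := congrArg Prod.fst hφψ
        have e2 : φ.2.1 = ψ.2.1 := congrArg (fun z => z.2.1) hφψ
        have e3 : φ.2.2 = ψ.2.2 := congrArg (fun z => z.2.2) hφψ
        have e4 : ∀ q (hq : q < t), s ≤ q → φ.1 ⟨q, hq⟩ = ψ.1 ⟨q, hq⟩ := by
          intro q hq hsq
          ext a
          obtain ⟨b, rfl⟩ := (g q).surjective a
          rw [← hres φ h1 q hq hsq, ← hres ψ h2 q hq hsq, e1]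
        have e5 : exV J t φ.2.2 s φ.1 = exV J t ψ.2.2 s ψ.1 := by
          rw [e3]
          exact exV_congr (fun r hr hsr => e4 r hr hsr)
        have e6 : exV J t φ.2.2 s (gV φ.1) = exV J t ψ.2.2 s (gV ψ.1) := by
          rw [e3]
          refine exV_congr (fun r hr hsr => ?_)
          ext a
          show g r a ∈ φ.1 ⟨r, hr⟩ ↔ g r a ∈ ψ.1 ⟨r, hr⟩
          rw [e4 r hr hsr]
        have e7 : φ.1 = ψ.1 := by
          funext r
          ext a
          have h3 : a ∈ U' φ r ↔ a ∈ U' ψ r := by rw [e1]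
          rw [hU', hU', e5, e6] at h3
          exact xor_right h3
        exact Prod.ext e7 (Prod.ext e2 e3)
      · rw [hT1 φ h1, hT2 ψ h2] at hφψ
        exact absurd (by rw [← hφψ]; exact hAd φ h1) h2
    · by_cases h2 : Ad J D ψ
      · rw [hT2 φ h1, hT1 ψ h2] at hφψ
        exact absurd (by rw [hφψ]; exact hAd ψ h2) h1
      · rwa [hT2 φ h1, hT2 ψ h2] at hφψ
  have hfin : Finite (Blk L t (fun r => (S r.1).X) D.A) := by
    have h1 : ∀ r : {r : K // r < t}, Finite (Set (S r.1).X) := fun r => inferInstance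
    exact inferInstanceAs (Finite ((∀ r : {r : K // r < t}, Set (S r.1).X) ×
      (D.A → T5) × (K → L)))
  let π : Equiv.Perm (Blk L t (fun r => (S r.1).X) D.A) :=
    Equiv.ofBijective T (Finite.injective_iff_bijective.1 hinj)
  refine ⟨π, ?_⟩
  intro r hr hsr a x φ
  have hπ : π φ = T φ := rfl
  rw [hπ]
  by_cases h : Ad J D φ
  · rw [hT1 φ h]
    have h1 := hres φ h r hr hsr a
    have h2 : Ad J D (U' φ, φ.2.1, φ.2.2) := hAd φ h
    unfold val
    simp only [h, h2, true_and, h1]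
  · rw [hT2 φ h]
    unfold val
    simp only [h, false_and, if_false]

end

end Vale.Agent.P183.H238
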