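import Vale.Agent.P183.H238.Link
import Vale.Agent.P183.H330.Core
import Mathlib.Order.Atoms

/-!
From a system of linked levels to a representation.
-/

set_option linter.all false

namespace Vale.Agent.P183.H238

open Vale.Agent.P183

variable {L K : Type} [Lattice L] [Lattice K] {f : LatticeHom L K}

theorem Lv.int1 {t : K} (S : Lv f t) (lo : L) (hlo : f lo = t) (ω : S.X)
    (W : Subgroup (Equiv.Perm S.X)) (hW : W ≤ Sy f t S.E)
    (hst : ∀ g ∈ Sy f t S.E, S.E lo (g ω) ω → g ∈ W) :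
    ∃ c, f c = t ∧ ∀ g ∈ Sy f t S.E, (g ∈ W ↔ S.E c (g ω) ω) := by
  have happ : ∀ (g : Equiv.Perm S.X) a, g (g⁻¹ a) = a := fun g a => g.apply_symm_apply a
  have happ' : ∀ (g : Equiv.Perm S.X) a, g⁻¹ (g a) = a := fun g a => g.symm_apply_apply a
  have hst' : ∀ g ∈ Sy f t S.E, g ω = ω → g ∈ W := by
    intro g hg h
    refine hst g hg ?_
    rw [h]
  have hmv : ∀ g ∈ Sy f t S.E, ∀ h ∈ Sy f t S.E, g ω = h ω → g⁻¹ * h ∈ W := by
    intro g hg h hh he
    refine hst' _ ((Sy f t S.E).mul_mem ((Sy f t S.E).inv_mem hg) hh) ?_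
    show g⁻¹ (h ω) = ω
    rw [← he, happ']
  let ρ : Setoid S.X :=
    { r := fun x y => ∃ g ∈ Sy f t S.E, ∃ h ∈ Sy f t S.E, g ω = x ∧ h ω = y ∧ g⁻¹ * h ∈ W
      iseqv := by
        refine ⟨fun x => ?_, ?_, ?_⟩
        · obtain ⟨g, hg, hgx⟩ := S.trans ω x
          exact ⟨g, hg, g, hg, hgx, hgx, by rw [inv_mul_cancel]; exact W.one_mem⟩
        · rintro x y ⟨g, hg, h, hh, h1, h2, h3⟩
          exact ⟨h, hh, g, hg, h2, h1, by
            have := W.inv_mem h3
            rwa [mul_inv_rev, inv_inv] at this⟩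
        · rintro x y z ⟨g, hg, h, hh, h1, h2, h3⟩ ⟨g', hg', h', hh', h1', h2', h3'⟩
          refine ⟨g, hg, h', hh', h1, h2', ?_⟩
          have h4 := hmv h hh g' hg' (h2.trans h1'.symm)
          have h5 := W.mul_mem (W.mul_mem h3 h4) h3'
          have h6 : g⁻¹ * h * (h⁻¹ * g') * (g'⁻¹ * h') = g⁻¹ * h' := by group
          rwa [h6] at h5 }
  have hρ : ∀ x y, ρ x y ↔ ∃ g ∈ Sy f t S.E, ∃ h ∈ Sy f t S.E, g ω = x ∧ h ω = y ∧ g⁻¹ * h ∈ W :=
    fun _ _ => Iff.rfl
  obtain ⟨c, hc, hρc⟩ := S.closed ρ lo hlo (by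
    intro x y hxy
    obtain ⟨g, hg, hgx⟩ := S.trans ω x
    obtain ⟨h, hh, hhy⟩ := S.trans ω y
    refine ⟨g, hg, h, hh, hgx, hhy, ?_⟩
    have h1 : g⁻¹ * h ∈ Sy f t S.E := (Sy f t S.E).mul_mem ((Sy f t S.E).inv_mem hg) hh
    refine hst _ h1 ?_
    show S.E lo (g⁻¹ (h ω)) ω
    rw [← hg lo hlo, happ, hhy, hgx]
    exact (S.E lo).symm' hxy) (by
    rintro k hk x y ⟨g, hg, h, hh, h1, h2, h3⟩
    refine ⟨k * g, (Sy f t S.E).mul_mem hk hg, k * h, (Sy f t S.E).mul_mem hk hh, ?_, ?_, ?_⟩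
    · show k (g ω) = k x
      rw [h1]
    · show k (h ω) = k y
      rw [h2]
    · have h4 : (k * g)⁻¹ * (k * h) = g⁻¹ * h := by group
      rw [h4]
      exact h3)
  refine ⟨c, hc, fun g hg => ?_⟩
  rw [← hρc]
  constructor
  · intro hgW
    refine ρ.symm' ⟨1, (Sy f t S.E).one_mem, g, hg, rfl, rfl, ?_⟩
    rw [inv_one, one_mul]
    exact hgW
  · intro h
    obtain ⟨g1, hg1, h1, hh1, e1, e2, e3⟩ := (hρ _ _).1 (ρ.symm' h)
    have h4 : g1 ∈ W := hst' g1 hg1 e1
    have h5 := hmv h1 hh1 g hg e2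
    have h6 := W.mul_mem (W.mul_mem h4 e3) h5
    have h7 : g1 * (g1⁻¹ * h1) * (h1⁻¹ * g) = g := by group
    rwa [h7] at h6

theorem Lv.int2 {t : K} (S : Lv f t) (ω : S.X) {a b : L} (ha : f a = t) (hb : f b = t)
    (h : ∀ g ∈ Sy f t S.E, S.E a (g ω) ω → S.E b (g ω) ω) : a ≤ b := by
  have happ' : ∀ (g : Equiv.Perm S.X) a, g⁻¹ (g a) = a := fun g a => g.symm_apply_apply a
  rw [← S.mono a b ha hb]
  intro x y hxy
  obtain ⟨k, hk, hky⟩ := S.trans ω y
  obtain ⟨g, hg, hgx⟩ := S.trans ω x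
  have hkg : k⁻¹ * g ∈ Sy f t S.E := (Sy f t S.E).mul_mem ((Sy f t S.E).inv_mem hk) hg
  have h1 : S.E a ((k⁻¹ * g) ω) ω := by
    show S.E a (k⁻¹ (g ω)) ω
    rw [← hk a ha, show k (k⁻¹ (g ω)) = g ω from k.apply_symm_apply _, hgx, hky]
    exact hxy
  have h2 := h _ hkg h1
  have h3 : S.E b (k⁻¹ (g ω)) ω := h2
  rw [← hk b hb, show k (k⁻¹ (g ω)) = g ω from k.apply_symm_apply _, hgx, hky] at h3
  exact h3

section

open Classical in
/-- Points of the product over the lower covers which differ from the base point in one place. -/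
noncomputable def upd (F : ∀ t, Lv f t) (ω : ∀ t, (F t).X) (t : K) (r : {r : K // r ⋖ t})
    (a : (F r.1).X) : ∀ r : {r : K // r ⋖ t}, (F r.1).X :=
  Function.update (fun r' => ω r'.1) r a

open Classical in
theorem upd_self (F : ∀ t, Lv f t) (ω : ∀ t, (F t).X) (t : K) (r : {r : K // r ⋖ t})
    (a : (F r.1).X) : upd F ω t r a r = a := Function.update_self _ _ _

open Classical in
theorem upd_ne (F : ∀ t, Lv f t) (ω : ∀ t, (F t).X) (t : K) {r r' : {r : K // r ⋖ t}}
    (a : (F r.1).X) (h : r' ≠ r) : upd F ω t r a r' = ω r'.1 := Function.update_of_ne h _ _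

open Classical in
theorem upd_base (F : ∀ t, Lv f t) (ω : ∀ t, (F t).X) (t : K) (r : {r : K // r ⋖ t}) :
    upd F ω t r (ω r.1) = fun r' : {r : K // r ⋖ t} => ω r'.1 := Function.update_eq_self _ _

variable (lo : K → L) (F : ∀ t, Lv f t) (ω : ∀ t, (F t).X)
  (J : ∀ t, (∀ r : {r : K // r ⋖ t}, (F r.1).X) → (F t).X)

/-- Compatible families above `s`. -/
def QQ (hflo : ∀ k, f (lo k) = k) (s : K) : Subgroup (∀ t, Equiv.Perm (F t).X) where
  carrier := {x | (∀ t, s ≤ t → x t ∈ Sy f t (F t).E) ∧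
    ∀ t (r : {r : K // r ⋖ t}), s ≤ r.1 → ∀ a,
      (F t).E (lo t) (x t (J t (upd F ω t r a))) (J t (upd F ω t r (x r.1 a)))}
  one_mem' := ⟨fun t _ => (Sy f t (F t).E).one_mem, fun t r _ a => ((F t).E (lo t)).refl' _⟩
  mul_mem' := by
    rintro x y hx hy
    refine ⟨fun t ht => (Sy f t (F t).E).mul_mem (hx.1 t ht) (hy.1 t ht), fun t r hr a => ?_⟩
    show (F t).E (lo t) (x t (y t (J t (upd F ω t r a)))) (J t (upd F ω t r (x r.1 (y r.1 a))))
    refine ((F t).E (lo t)).trans' ?_ (hx.2 t r hr (y r.1 a))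
    exact (hx.1 t (hr.trans r.2.le) (lo t) (hflo t) _ _).2 (hy.2 t r hr a)
  inv_mem' := by
    rintro x hx
    refine ⟨fun t ht => (Sy f t (F t).E).inv_mem (hx.1 t ht), fun t r hr a => ?_⟩
    show (F t).E (lo t) ((x t)⁻¹ (J t (upd F ω t r a))) (J t (upd F ω t r ((x r.1)⁻¹ a)))
    rw [← hx.1 t (hr.trans r.2.le) (lo t) (hflo t)]
    have h1 := hx.2 t r hr ((x r.1)⁻¹ a)
    rw [show x r.1 ((x r.1)⁻¹ a) = a from (x r.1).apply_symm_apply a] at h1
    rw [show x t ((x t)⁻¹ (J t (upd F ω t r a))) = J t (upd F ω t r a) from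
      (x t).apply_symm_apply _]
    exact ((F t).E (lo t)).symm' h1

/-- The subgroup attached to an element of the lattice. -/
def PP (hflo : ∀ k, f (lo k) = k) (l : L) : Subgroup (∀ t, Equiv.Perm (F t).X) where
  carrier := {x | x ∈ QQ lo F ω J hflo (f l) ∧
    (F (f l)).E l (x (f l) (ω (f l))) (ω (f l))}
  one_mem' := ⟨(QQ lo F ω J hflo (f l)).one_mem, ((F (f l)).E l).refl' _⟩
  mul_mem' := by
    rintro x y ⟨hx1, hx⟩ ⟨hy1, hy⟩
    refine ⟨(QQ lo F ω J hflo (f l)).mul_mem hx1 hy1, ?_⟩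
    show (F (f l)).E l (x (f l) (y (f l) (ω (f l)))) (ω (f l))
    exact ((F (f l)).E l).trans' ((hx1.1 (f l) le_rfl l rfl _ _).2 hy) hx
  inv_mem' := by
    rintro x ⟨hx1, hx⟩
    refine ⟨(QQ lo F ω J hflo (f l)).inv_mem hx1, ?_⟩
    show (F (f l)).E l ((x (f l))⁻¹ (ω (f l))) (ω (f l))
    rw [← hx1.1 (f l) le_rfl l rfl, show x (f l) ((x (f l))⁻¹ (ω (f l))) = ω (f l) from
      (x (f l)).apply_symm_apply _]
    exact ((F (f l)).E l).symm' hx

end

/-- **Core theorem.** -/
theorem core [Finite L] [Finite K] (hf : Function.Surjective f) {lo hi : K → L}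
    (hflo : ∀ k, f (lo k) = k) (hfhi : ∀ k, f (hi k) = k) (hlo : ∀ l, lo (f l) ≤ l)
    (hhi : ∀ l, l ≤ hi (f l)) (F : ∀ t, Lv f t)
    (J : ∀ t, (∀ r : {r : K // r ⋖ t}, (F r.1).X) → (F t).X)
    (hJ : ∀ t, LinkP hi (fun r => F r.1) (F t) (J t))
    (h3 : ∀ t (r r' : {r : K // r ⋖ t}), r ≠ r' → ∀ q, q ≤ r.1 → q ≤ r'.1 → hi q ≤ lo t)
    (hK : Representable K) : Representable L := by
  classical
  have hfin : ∀ t, Finite (F t).X := fun t => (F t).fin
  have hne : ∀ t, Nonempty (F t).X := fun t => (F t).ne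
  have hlo' : ∀ k l, k ≤ f l → lo k ≤ l := by
    intro k l h
    have h1 : f (lo k ⊓ l) = k := by rw [map_inf, hflo, inf_eq_left.2 h]
    have h3 := hlo (lo k ⊓ l)
    rw [h1] at h3
    exact h3.trans inf_le_right
  have hhi' : ∀ k l, f l ≤ k → l ≤ hi k := by
    intro k l h
    have h1 : f (hi k ⊔ l) = k := by rw [map_sup, hfhi, sup_eq_left.2 h]
    have h3 := hhi (hi k ⊔ l)
    rw [h1] at h3
    exact le_sup_right.trans h3
  have hmono : ∀ t a b, f a = t → f b = t → a ≤ b → ∀ x y, (F t).E a x y → (F t).E b x y :=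
    fun t a b ha hb hab x y h => ((F t).mono a b ha hb).2 hab h
  have hlot : ∀ t l, f l = t → ∀ x y, (F t).E (lo t) x y → (F t).E l x y :=
    fun t l hl => hmono t _ _ (hflo t) hl (hlo' _ _ hl.ge)
  have hcov : ∀ s t : K, s < t → ∃ r : {r : K // r ⋖ t}, s ≤ r.1 := by
    intro s t hst
    obtain ⟨r, hr, hmax⟩ := (Set.toFinite {r : K | s ≤ r ∧ r < t}).exists_maximal ⟨s, le_rfl, hst⟩
    refine ⟨⟨r, hr.2, fun c hrc hct => ?_⟩, hr.1⟩
    exact absurd (hmax ⟨hr.1.trans hrc.le, hct⟩ hrc.le) (not_le_of_gt hrc)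
  -- the base points
  obtain ⟨ω, hω⟩ : ∃ ω : ∀ t, (F t).X, ∀ t, ω t = J t (fun r => ω r.1) := by
    refine H330.exists_family (C := fun t => (F t).X) (fun t ω => ω t = J t (fun r => ω r.1)) ?_ ?_
    · intro t ω ω' h hg
      rw [← h t le_rfl, hg]
      congr 1
      funext r
      exact h r.1 r.2.le
    · intro t ω hprev
      refine ⟨Function.update ω t (J t (fun r => ω r.1)), fun r hr => Function.update_of_ne hr _ _,
        ?_⟩
      rw [Function.update_self]
      congr 1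
      funext r
      rw [Function.update_of_ne r.2.lt.ne]
  have hωu : ∀ t (r : {r : K // r ⋖ t}), J t (upd F ω t r (ω r.1)) = ω t := by
    intro t r
    rw [upd_base, ← hω]
  have hM : Representable (Subgroup (∀ t, Equiv.Perm (F t).X)) := H330.representable_subgroup _
  -- one step up
  have hstep : ∀ t (r : {r : K // r ⋖ t}) (l : L), f l = t → ∀ a,
      (F r.1).E (l ⊓ hi r.1) a (ω r.1) → (F t).E l (J t (upd F ω t r a)) (ω t) := by
    intro t r l hl a ha
    rw [← hωu t r, (hJ t).1 l hl]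
    intro r'
    by_cases h : r' = r
    · subst h
      rw [upd_self, upd_self]
      exact ha
    · rw [upd_ne _ _ _ _ h, upd_ne _ _ _ _ h]
  have hstep' : ∀ t (r : {r : K // r ⋖ t}) (l : L), f l = t → ∀ a,
      (F t).E l (J t (upd F ω t r a)) (ω t) → (F r.1).E (l ⊓ hi r.1) a (ω r.1) := by
    intro t r l hl a ha
    rw [← hωu t r, (hJ t).1 l hl] at ha
    have := ha r
    rwa [upd_self, upd_self] at this
  -- going up
  have hup : ∀ s (x : ∀ t, Equiv.Perm (F t).X), x ∈ QQ lo F ω J hflo s → ∀ l, f l = s →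
      (F s).E l (x s (ω s)) (ω s) → ∀ q, s ≤ q → (F q).E (l ⊔ lo q) (x q (ω q)) (ω q) := by
    intro s x hx l hl h0
    have wf : WellFounded (fun a b : K => a < b) := (inferInstance : WellFoundedLT K).wf
    intro q
    induction q using wf.induction with
    | _ q ih =>
      intro hsq
      have hfq : f (l ⊔ lo q) = q := by rw [map_sup, hl, hflo, sup_eq_right.2 hsq]
      rcases eq_or_lt_of_le hsq with rfl | hlt
      · exact hmono _ _ _ hl hfq le_sup_left _ _ h0
      · obtain ⟨r, hr⟩ := hcov s q hlt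
        have h1 := hx.2 q r hr (ω r.1)
        rw [hωu] at h1
        refine ((F q).E _).trans' (hlot q _ hfq _ _ h1) ?_
        refine hstep q r _ hfq _ ?_
        have h2 := ih r.1 r.2.lt hr
        refine hmono r.1 _ _ ?_ ?_ ?_ _ _ h2
        · rw [map_sup, hl, hflo, sup_eq_right.2 hr]
        · rw [map_inf, hfq, hfhi, inf_eq_right.2 r.2.le]
        · refine le_inf (sup_le_sup_left (hlo' _ _ (by rw [hflo]; exact r.2.le)) _) ?_
          refine hhi' _ _ ?_
          rw [map_sup, hl, hflo, sup_eq_right.2 hr]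
  -- going down
  have hdown : ∀ s (x : ∀ t, Equiv.Perm (F t).X), x ∈ QQ lo F ω J hflo s → ∀ t, s ≤ t → ∀ b,
      f b = t → (F t).E b (x t (ω t)) (ω t) → (F s).E (b ⊓ hi s) (x s (ω s)) (ω s) := by
    intro s x hx
    have wf : WellFounded (fun a b : K => a < b) := (inferInstance : WellFoundedLT K).wf
    intro t
    induction t using wf.induction with
    | _ t ih =>
      intro hst b hb h
      rcases eq_or_lt_of_le hst with rfl | hlt
      · refine hmono _ _ _ hb ?_ ?_ _ _ h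
        · rw [map_inf, hb, hfhi, inf_idem]
        · exact le_inf le_rfl (hhi' _ _ hb.le)
      · obtain ⟨r, hr⟩ := hcov s t hlt
        have h1 := hx.2 t r hr (ω r.1)
        rw [hωu] at h1
        have h2 : (F t).E b (J t (upd F ω t r (x r.1 (ω r.1)))) (ω t) :=
          ((F t).E b).trans' ((F t).E b |>.symm' (hlot t _ hb _ _ h1)) h
        have h4 := hstep' t r b hb _ h2
        have hfb : f (b ⊓ hi r.1) = r.1 := by rw [map_inf, hb, hfhi, inf_eq_right.2 r.2.le]
        have h5 := ih r.1 r.2.lt hr _ hfb h4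
        refine hmono s _ _ ?_ ?_ ?_ _ _ h5
        · rw [map_inf, hfb, hfhi, inf_eq_right.2 hr]
        · rw [map_inf, hb, hfhi, inf_eq_right.2 hst]
        · exact inf_le_inf_right _ inf_le_left
  -- extending
  have hext : ∀ s, ∀ g ∈ Sy f s (F s).E, ∃ x ∈ QQ lo F ω J hflo s, x s = g := by
    intro s g hg
    obtain ⟨x, hx⟩ := H330.exists_family (K := K) (C := fun t => Equiv.Perm (F t).X)
      (fun t x => s ≤ t → x s = g ∧ x t ∈ Sy f t (F t).E ∧
        (∀ (r : {r : K // r ⋖ t}), s ≤ r.1 → ∀ a,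
          (F t).E (lo t) (x t (J t (upd F ω t r a))) (J t (upd F ω t r (x r.1 a)))) ∧
        (F t).E (hi s ⊔ lo t) (x t (ω t)) (ω t)) (by
      intro t x x' h hx hst
      obtain ⟨h1, h2, h4, h5⟩ := hx hst
      refine ⟨by rw [← h s hst]; exact h1, by rw [← h t le_rfl]; exact h2, ?_, ?_⟩
      · intro r hr a
        rw [← h t le_rfl, ← h r.1 r.2.le]
        exact h4 r hr a
      · rw [← h t le_rfl]
        exact h5) (by
      intro t x hprev
      by_cases hst : s ≤ t
      swap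
      · exact ⟨x, fun _ _ => rfl, fun h => absurd h hst⟩
      rcases eq_or_lt_of_le hst with hst' | hlt
      · subst hst'
        refine ⟨Function.update x s g, fun r hr => Function.update_of_ne hr _ _, fun _ => ?_⟩
        rw [Function.update_self]
        refine ⟨rfl, hg, fun r hr a => absurd r.2.lt (not_lt_of_ge hr), ?_⟩
        have h1 : f (hi s ⊔ lo s) = s := by rw [map_sup, hfhi, hflo, sup_idem]
        exact (F s).top _ h1 (fun l hl => (hhi' _ _ hl.le).trans le_sup_left) _ _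
      · obtain ⟨γ, hγ, hγJ⟩ := (hJ t).2 (fun r => if s ≤ r.1 then x r.1 else 1) (by
          intro r
          by_cases h : s ≤ r.1
          · rw [if_pos h]
            exact (hprev r.1 r.2.lt h).2.1
          · rw [if_neg h]
            exact (Sy f r.1 (F r.1).E).one_mem)
        have hsne : s ≠ t := hlt.ne
        obtain ⟨r0, hr0⟩ := hcov s t hlt
        have hft : f (hi s ⊔ lo t) = t := by rw [map_sup, hfhi, hflo, sup_eq_right.2 hst]
        refine ⟨Function.update x t γ, fun r hr => Function.update_of_ne hr _ _, fun _ => ?_⟩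
        rw [Function.update_self, Function.update_of_ne hsne]
        refine ⟨(hprev r0.1 r0.2.lt hr0).1, hγ, ?_, ?_⟩
        · intro r hr a
          rw [Function.update_of_ne r.2.lt.ne, hγJ, (hJ t).1 _ (hflo t)]
          intro r'
          by_cases h : r' = r
          · subst h
            show (F r'.1).E _ ((if s ≤ r'.1 then x r'.1 else 1) (upd F ω t r' a r')) _
            rw [if_pos hr, upd_self, upd_self]
          · show (F r'.1).E _ ((if s ≤ r'.1 then x r'.1 else 1) (upd F ω t r a r')) _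
            rw [upd_ne _ _ _ _ h, upd_ne _ _ _ _ h]
            by_cases hsr : s ≤ r'.1
            · rw [if_pos hsr]
              have h1 := (hprev r'.1 r'.2.lt hsr).2.2.2
              refine hmono r'.1 _ _ ?_ ?_ ?_ _ _ h1
              · rw [map_sup, hfhi, hflo, sup_eq_right.2 hsr]
              · rw [map_inf, hflo, hfhi, inf_eq_right.2 r'.2.le]
              · have h2 := h3 t r r' (Ne.symm h) s hr hsr
                refine sup_le (le_inf h2 (hhi' _ _ (by rw [hfhi]; exact hsr))) (le_inf ?_ ?_)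
                · exact hlo' _ _ (by rw [hflo]; exact r'.2.le)
                · exact hlo' _ _ (by rw [hfhi])
            · rw [if_neg hsr]
              exact ((F r'.1).E _).refl' _
        · have h1 : γ (ω t) = J t (fun r => (if s ≤ r.1 then x r.1 else 1) (ω r.1)) := by
            rw [hω t, hγJ]
          rw [h1]
          conv_rhs => skip
          have h2 : (F t).E (hi s ⊔ lo t) (J t (fun r => (if s ≤ r.1 then x r.1 else 1) (ω r.1)))
              (J t (fun r => ω r.1)) := by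
            rw [(hJ t).1 _ hft]
            intro r
            by_cases hsr : s ≤ r.1
            · rw [if_pos hsr]
              have h4 := (hprev r.1 r.2.lt hsr).2.2.2
              refine hmono r.1 _ _ ?_ ?_ ?_ _ _ h4
              · rw [map_sup, hfhi, hflo, sup_eq_right.2 hsr]
              · rw [map_inf, hft, hfhi, inf_eq_right.2 r.2.le]
              · refine sup_le (le_inf le_sup_left (hhi' _ _ (by rw [hfhi]; exact hsr)))
                  (le_inf ?_ ?_)
                · exact (hlo' _ _ (by rw [hflo]; exact r.2.le)).trans le_sup_right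
                · exact hlo' _ _ (by rw [hfhi])
            · rw [if_neg hsr]
              exact ((F r.1).E _).refl' _
          rw [← hω t] at h2
          exact h2)
    exact ⟨x, ⟨fun t ht => (hx t ht).2.1, fun t r hr a => (hx t (hr.trans r.2.le)).2.2.1 r hr a⟩,
      (hx s le_rfl).1⟩
  refine Representable.master f hf (PP lo F ω J hflo) ?_ ?_ ?_ hK hM
  · -- monotone
    intro l l' hll x hx
    have hst : f l ≤ f l' := OrderHomClass.mono f hll
    obtain ⟨hx2, hx3⟩ := hx
    refine ⟨⟨fun t ht => hx2.1 t (hst.trans ht), fun t r hr => hx2.2 t r (hst.trans hr)⟩, ?_⟩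
    have h1 := hup _ x hx2 l rfl hx3 (f l') hst
    refine hmono _ _ _ ?_ rfl (sup_le hll (hlo l')) _ _ h1
    rw [map_sup, hflo, sup_eq_right.2 hst]
  · -- order embedding
    intro a b hab hP
    have hb' : f (b ⊓ hi (f a)) = f a := by rw [map_inf, hfhi, inf_eq_right.2 hab]
    refine ((F (f a)).int2 (ω (f a)) rfl hb' ?_).trans inf_le_left
    intro g hg hga
    obtain ⟨x, hx1, hx2⟩ := hext (f a) g hg
    have hx : x ∈ PP lo F ω J hflo a := ⟨hx1, by rw [hx2]; exact hga⟩
    obtain ⟨_, hx4⟩ := hP hx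
    have h1 := hdown _ x hx1 (f b) hab b rfl hx4
    rwa [hx2] at h1
  · -- intervals
    intro a b m hab hm1 hm2
    let W : Subgroup (Equiv.Perm (F (f a)).X) :=
      m.map (Pi.evalMonoidHom (fun t => Equiv.Perm (F t).X) (f a))
    have hQ : ∀ x ∈ m, x ∈ QQ lo F ω J hflo (f a) := by
      intro x hx
      have := (hm2 hx).1
      rwa [← hab] at this
    have hW : ∀ g, g ∈ W ↔ ∃ x ∈ m, x (f a) = g := fun g => Subgroup.mem_map
    obtain ⟨c, hc, hcW⟩ := (F (f a)).int1 (lo (f a)) (hflo _) (ω (f a)) W (by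
      intro g hg
      obtain ⟨x, hx, rfl⟩ := (hW g).1 hg
      exact (hQ x hx).1 (f a) le_rfl) (by
      intro g hg hgω
      obtain ⟨x, hx1, hx2⟩ := hext (f a) g hg
      refine (hW g).2 ⟨x, hm1 ⟨hx1, ?_⟩, hx2⟩
      rw [hx2]
      exact hlot _ _ rfl _ _ hgω)
    refine ⟨c, hc, ?_⟩
    ext x
    have hcm : x ∈ PP lo F ω J hflo c ↔ x ∈ QQ lo F ω J hflo (f a) ∧
        (F (f a)).E c (x (f a) (ω (f a))) (ω (f a)) := by
      rw [← hc]; exact Iff.rfl
    rw [hcm]
    constructor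
    · rintro ⟨h1, h2⟩
      obtain ⟨y, hy, hyx⟩ := (hW _).1 ((hcW _ (h1.1 (f a) le_rfl)).2 h2)
      have h4 : y⁻¹ * x ∈ m := by
        refine hm1 ⟨(QQ lo F ω J hflo (f a)).mul_mem
          ((QQ lo F ω J hflo (f a)).inv_mem (hQ y hy)) h1, ?_⟩
        show (F (f a)).E a ((y (f a))⁻¹ (x (f a) (ω (f a)))) (ω (f a))
        rw [hyx, show (x (f a))⁻¹ (x (f a) (ω (f a))) = ω (f a) from
          (x (f a)).symm_apply_apply _]
      have := m.mul_mem hy h4
      rwa [mul_inv_cancel_left] at this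
    · intro hx
      exact ⟨hQ x hx, (hcW _ ((hQ x hx).1 (f a) le_rfl)).1 ((hW _).2 ⟨x, hx, rfl⟩)⟩

end Vale.Agent.P183.H238
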