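import Vale.Agent.P183.H238.Gluing
import Vale.Agent.P183.H330G.Core

/-!
From a system of spaces to a representation (after H330G/Core.lean, with weaker conditions on the
maps).
-/

set_option linter.all false

namespace Vale.Agent.P183.H238

open Vale.Agent.P183 Vale.Agent.P183.H330 Vale.Agent.P183.H330G

variable {L K : Type} [Lattice L] [Lattice K] {f : LatticeHom L K} {lo hi : K → L}

/-- Every element of `B s` extends to a compatible family above `s`. -/
theorem exists_extN [Finite K] {S : ∀ t, Sp f lo t} {B : ∀ t, Subgroup (Equiv.Perm (S t).X)}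
    {J : ∀ t r, (S r).X → (S t).X} {N : Set K} (hJ : ∀ t, GoodN N S B t J) (s : K) (g0 : Equiv.Perm (S s).X)
    (hg0 : g0 ∈ B s) :
    ∃ g : ∀ t, Equiv.Perm (S t).X, g s = g0 ∧ ∀ t, s ≤ t → g t ∈ B t ∧
      ∀ r, s ≤ r → r ≤ t → ∀ a, g t (J t r a) = J t r (g r a) := by
  classical
  obtain ⟨g, hg⟩ := exists_family (K := K) (C := fun t => Equiv.Perm (S t).X)
    (fun t g => s ≤ t → g s = g0 ∧ g t ∈ B t ∧
      ∀ r, s ≤ r → r ≤ t → ∀ a, g t (J t r a) = J t r (g r a)) (by
    intro t g g' h hg hst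
    obtain ⟨h1, h2, h3⟩ := hg hst
    refine ⟨by rw [← h s hst]; exact h1, by rw [← h t le_rfl]; exact h2, ?_⟩
    intro r hsr hrt a
    rw [← h t le_rfl, ← h r hrt]
    exact h3 r hsr hrt a) (by
    intro t g hprev
    by_cases hst : s ≤ t
    swap
    · exact ⟨g, fun _ _ => rfl, fun h => absurd h hst⟩
    rcases eq_or_lt_of_le hst with hst' | hst'
    · subst hst'
      refine ⟨Function.update g s g0, fun r hr => Function.update_of_ne hr _ _, fun _ => ?_⟩
      rw [Function.update_self]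
      refine ⟨rfl, hg0, fun r hsr hrs a => ?_⟩
      have : s = r := le_antisymm hsr hrs
      subst this
      rw [Function.update_self, (hJ s).refl, (hJ s).refl]
    · have hprev' : CompatB S B J s t g := fun r hsr hrt => (hprev r hrt hsr).2
      obtain ⟨γ, hγ1, hγ2⟩ := (hJ t).ext s g hprev'
      refine ⟨Function.update g t γ, fun r hr => Function.update_of_ne hr _ _, fun _ => ?_⟩
      have hsne : s ≠ t := hst'.ne
      rw [Function.update_self, Function.update_of_ne hsne]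
      refine ⟨(hprev s hst' le_rfl).1, hγ1, fun r hsr hrt a => ?_⟩
      rcases eq_or_lt_of_le hrt with hrt' | hrt'
      · subst hrt'
        rw [Function.update_self, (hJ r).refl, (hJ r).refl]
      · rw [Function.update_of_ne hrt'.ne]
        exact hγ2 r hsr hrt' a)
  refine ⟨g, (hg s le_rfl).1, fun t ht => (hg t ht).2⟩

/-- **Core theorem.** A system of spaces represents the lattice. -/
theorem coreN [Finite K] (hf : Function.Surjective f) (S : ∀ t, Sp f lo t)
    (J : ∀ t r, (S r).X → (S t).X) (B : ∀ s, Subgroup (Equiv.Perm (S s).X)) (ω : ∀ s, (S s).X)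
    (hlo0 : ∀ l, lo (f l) ≤ l) (hfhi : ∀ k, f (hi k) = k)
    (hhi : ∀ l, l ≤ hi (f l)) {N : Set K} (hJ : ∀ t, GoodN N S B t J) (hB : ∀ s, B s ≤ isoSub (S s))
    (hω : ∀ r t, r ≤ t → J t r (ω r) = ω t) (hI : ∀ s, IntOK (S s) (B s) (ω s))
    (hK : Representable K) : Representable L := by
  classical
  have hfin : ∀ t, Finite (S t).X := fun t => (S t).fin
  have hM : Representable (Subgroup (∀ t, Equiv.Perm (S t).X)) := representable_subgroup _
  have hext : ∀ s, ∀ g0 ∈ B s, ∃ x ∈ QQ3 S J B s, x s = g0 := by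
    intro s g0 hg0
    obtain ⟨x, hx1, hx2⟩ := exists_extN hJ s g0 hg0
    exact ⟨x, hx2, hx1⟩
  refine Representable.master f hf (PP3 S J B ω hB hlo0) ?_ ?_ ?_ hK hM
  · -- monotone
    intro l l' hll x hx
    have hst : f l ≤ f l' := OrderHomClass.mono f hll
    obtain ⟨hx2, hx3⟩ := hx
    refine ⟨fun t ht => ⟨(hx2 t (hst.trans ht)).1,
      fun r hr hrt => (hx2 t (hst.trans ht)).2 r (hst.trans hr) hrt⟩, ?_⟩
    show (S (f l')).d (x (f l') (ω (f l'))) (ω (f l')) ≤ l'
    rw [← hω _ _ hst, (hx2 _ hst).2 _ le_rfl hst, (hJ _).isom _ hst]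
    exact sup_le (hx3.trans hll) (hlo0 l')
  · -- order embedding
    intro a b hab hP
    have hb' : f (b ⊓ hi (f a)) = f a := by rw [map_inf, hfhi, inf_eq_right.2 hab]
    refine ((hI (f a)).2 a (b ⊓ hi (f a)) rfl hb' ?_).trans inf_le_left
    intro g hg hga
    obtain ⟨x, hx1, hx2⟩ := hext (f a) g hg
    have hx : x ∈ PP3 S J B ω hB hlo0 a := ⟨hx1, by rw [hx2]; exact hga⟩
    obtain ⟨_, hx4⟩ := hP hx
    rw [← hω _ _ hab, (hx1 _ hab).2 _ le_rfl hab, (hJ _).isom _ hab, hx2] at hx4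
    refine le_inf (le_sup_left.trans hx4) ?_
    have := hhi ((S (f a)).d (g (ω (f a))) (ω (f a)))
    rwa [(S (f a)).fd] at this
  · -- intervals
    intro a b m hab hm1 hm2
    let W : Subgroup (Equiv.Perm (S (f a)).X) :=
      m.map (Pi.evalMonoidHom (fun t => Equiv.Perm (S t).X) (f a))
    have hQ : ∀ x ∈ m, x ∈ QQ3 S J B (f a) := by
      intro x hx
      have := (hm2 hx).1
      rwa [← hab] at this
    have hW : ∀ g, g ∈ W ↔ ∃ x ∈ m, x (f a) = g := fun g => Subgroup.mem_map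
    obtain ⟨c, hc, hcW⟩ := (hI (f a)).1 W (by
      intro g hg
      obtain ⟨x, hx, rfl⟩ := (hW g).1 hg
      exact (hQ x hx (f a) le_rfl).1) (by
      intro g hg hgω
      obtain ⟨x, hx1, hx2⟩ := hext (f a) g hg
      refine (hW g).2 ⟨x, hm1 ⟨hx1, ?_⟩, hx2⟩
      rw [hx2, hgω, ((S _).self _ _).2 rfl]
      exact hlo0 a)
    refine ⟨c, hc, ?_⟩
    ext x
    have hcm : x ∈ PP3 S J B ω hB hlo0 c ↔ x ∈ QQ3 S J B (f a) ∧
        (S (f a)).d (x (f a) (ω (f a))) (ω (f a)) ≤ c := by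
      rw [← hc]; exact Iff.rfl
    rw [hcm]
    constructor
    · rintro ⟨h1, h2⟩
      obtain ⟨y, hy, hyx⟩ := (hW _).1 ((hcW _ (h1 (f a) le_rfl).1).2 h2)
      have h3 : y⁻¹ * x ∈ m := by
        refine hm1 ⟨(QQ3 S J B (f a)).mul_mem ((QQ3 S J B (f a)).inv_mem (hQ y hy)) h1, ?_⟩
        show (S (f a)).d ((y (f a))⁻¹ (x (f a) (ω (f a)))) (ω (f a)) ≤ a
        rw [hyx]
        have : (x (f a))⁻¹ (x (f a) (ω (f a))) = ω (f a) := (x (f a)).symm_apply_apply _
        rw [this, ((S _).self _ _).2 rfl]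
        exact hlo0 a
      have := m.mul_mem hy h3
      rwa [mul_inv_cancel_left] at this
    · intro hx
      exact ⟨hQ x hx, (hcW _ (hQ x hx (f a) le_rfl).1).1 ((hW _).2 ⟨x, hx, rfl⟩)⟩

end Vale.Agent.P183.H238
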