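import Vale.Agent.P183.H238.Link
import Vale.Agent.P183.H330D.Spc
import Vale.Agent.P183.H330M.Final

/-!
Distributive fibres: they are group intervals, and the links which begin or end in them are tight.
-/

set_option linter.all false

namespace Vale.Agent.P183.H238

open Vale.Agent.P183 Vale.Agent.P183.H330 Vale.Agent.P183.H330G Vale.Agent.P183.H330D
open Vale.Agent.P183.H330M (DistribOver)

variable {L K : Type} [Lattice L] [Lattice K] {f : LatticeHom L K} {lo hi : K → L} {t : K}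

/-- From a space with a group to a group interval. -/
theorem groupInterval_of_int (hflo : f (lo t) = t) (hlo' : ∀ l, f l = t → lo t ≤ l) {S : Sp f lo t}
    {B : Subgroup (Equiv.Perm S.X)} (hB : B ≤ isoSub S) (ω : S.X) (h : IntOK S B ω) :
    IsGroupInterval {l : L // f l = t} := by
  classical
  have := S.fin
  have hωω : S.d ω ω = lo t := (S.self ω ω).2 rfl
  let V : {l : L // f l = t} → Subgroup B := fun l =>
    { carrier := {g | S.d (g.1 ω) ω ≤ l.1}
      one_mem' := by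
        show S.d ω ω ≤ l.1
        rw [hωω]
        exact hlo' _ l.2
      mul_mem' := by
        intro g h hg hh
        show S.d (g.1 (h.1 ω)) ω ≤ l.1
        refine (S.tri _ (g.1 ω) _).trans (sup_le ?_ hg)
        have h1 : S.d (g.1 (h.1 ω)) (g.1 ω) = S.d (h.1 ω) ω := hB g.2 _ _
        rw [h1]
        exact hh
      inv_mem' := by
        intro g hg
        show S.d (g.1⁻¹ ω) ω ≤ l.1
        have h1 : S.d (g.1⁻¹ ω) ω = S.d (g.1 (g.1⁻¹ ω)) (g.1 ω) := (hB g.2 _ _).symm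
        rw [h1, show g.1 (g.1⁻¹ ω) = ω from g.1.apply_symm_apply ω, S.symm]
        exact hg }
  have hV : ∀ l g, g ∈ V l ↔ S.d (g.1 ω) ω ≤ l.1 := fun _ _ => Iff.rfl
  let H : Subgroup B := V ⟨lo t, hflo⟩
  have hH : ∀ l, H ≤ V l := fun l g hg => ((hV _ _).1 hg).trans (hlo' _ l.2)
  refine ⟨B, inferInstance, inferInstance, H, ⟨RelIso.ofSurjective
    (OrderEmbedding.ofMapLEIff (fun l => (⟨V l, hH l⟩ : {W : Subgroup B // H ≤ W})) ?_) ?_⟩⟩
  · intro a b
    constructor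
    · intro hab
      refine h.2 a.1 b.1 a.2 b.2 (fun g hg hga => ?_)
      exact (hV b ⟨g, hg⟩).1 (hab ((hV a ⟨g, hg⟩).2 hga))
    · intro hab g hg
      exact ((hV _ _).1 hg).trans hab
  · rintro ⟨W, hW⟩
    obtain ⟨c, hc, hcW⟩ := h.1 (W.map B.subtype) (by
      rintro g hg
      obtain ⟨x, hx, rfl⟩ := Subgroup.mem_map.1 hg
      exact x.2) (by
      intro g hg hgω
      refine Subgroup.mem_map.2 ⟨⟨g, hg⟩, hW ((hV _ _).2 ?_), rfl⟩
      show S.d (g ω) ω ≤ lo t
      rw [hgω, hωω])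
    refine ⟨⟨c, hc⟩, ?_⟩
    apply Subtype.ext
    show V ⟨c, hc⟩ = W
    ext g
    rw [hV]
    show S.d (g.1 ω) ω ≤ c ↔ _
    rw [← hcW g.1 g.2]
    constructor
    · intro h1
      obtain ⟨x, hx, hxg⟩ := Subgroup.mem_map.1 h1
      have : x = g := Subtype.ext hxg
      rwa [this] at hx
    · intro h1
      exact Subgroup.mem_map.2 ⟨g, h1, rfl⟩

/-- **Distributive fibres are group intervals.** -/
theorem groupInterval_of_distrib [Finite L] (hflo : f (lo t) = t) (hfhi : f (hi t) = t)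
    (hlo' : ∀ l, f l = t → lo t ≤ l) (hhi' : ∀ l, f l = t → l ≤ hi t) (hd : DistribOver f t) :
    IsGroupInterval {l : L // f l = t} := by
  obtain ⟨S, mk, B, _, _, _, hB, hint, _⟩ := exists_grp hflo hfhi hlo' hhi' hd PUnit T5
    alternatingFive_noncomm
  obtain ⟨ω⟩ := S.ne
  exact groupInterval_of_int hflo hlo' hB ω (hint ω)

/-- A criterion for tight links. -/
theorem tight_of_prime [Finite L] {r : K} (hrt : r ≤ t) (hflo : ∀ k, f (lo k) = k)
    (hlo : ∀ l, lo (f l) ≤ l)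
    (h : ∀ x y, f x = r → f y = t → ¬ x ≤ y → ∃ p, f p = t ∧ p ≤ x ⊔ lo t ∧ ¬ p ≤ y ∧
      ∀ a b, f a = r → f b = r → p ≤ (a ⊔ lo t) ⊔ (b ⊔ lo t) → p ≤ a ⊔ lo t ∨ p ≤ b ⊔ lo t) :
    TightLink f r t := by
  have hlo' : ∀ k l, f l = k → lo k ≤ l := fun k l h => by rw [← h]; exact hlo l
  intro x y hx hy hxy
  obtain ⟨p, hp, hp1, hp2, hp3⟩ := h x y hx hy hxy
  obtain ⟨u, ⟨hu1, hu2⟩, hmax⟩ :=
    (Set.toFinite {z : L | f z = r ∧ ¬ p ≤ z ⊔ lo t}).exists_maximal ⟨lo r, hflo r, fun h => by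
      have h1 : lo r ≤ lo t := by
        have h2 : f (lo r ⊓ lo t) = r := by rw [map_inf, hflo, hflo, inf_eq_left.2 hrt]
        exact (hlo' _ _ h2).trans inf_le_right
      rw [sup_eq_right.2 h1] at h
      exact hp2 (h.trans (hlo' _ _ hy))⟩
  refine ⟨u, p, hu1, hp, fun h => hu2 (hp1.trans (sup_le_sup_right h _)), hp2,
    fun z hz => ?_⟩
  by_cases hpz : p ≤ z ⊔ lo t
  · right
    intro w hw hzw
    exact hpz.trans (sup_le hzw (hlo' t w hw))
  · left
    have h1 : u ⊔ z ∈ {z : L | f z = r ∧ ¬ p ≤ z ⊔ lo t} := by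
      refine ⟨by rw [map_sup, hu1, hz, sup_idem], fun h => ?_⟩
      have h2 : u ⊔ z ⊔ lo t = (u ⊔ lo t) ⊔ (z ⊔ lo t) := sup_sup_distrib_right u z (lo t)
      rw [h2] at h
      rcases hp3 _ _ hu1 hz h with h | h
      · exact hu2 h
      · exact hpz h
    exact le_sup_right.trans (hmax h1 le_sup_left)

/-- A link whose upper end is distributive is tight. -/
theorem tight_of_upper [Finite L] {r : K} (hrt : r ≤ t) (hflo : ∀ k, f (lo k) = k)
    (hlo : ∀ l, lo (f l) ≤ l) (hd : DistribOver f t) : TightLink f r t := by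
  have hlo' : ∀ k l, f l = k → lo k ≤ l := fun k l h => by rw [← h]; exact hlo l
  have hup : ∀ z, f z = r → f (z ⊔ lo t) = t := fun z hz => by
    rw [map_sup, hz, hflo, sup_eq_right.2 hrt]
  refine tight_of_prime hrt hflo hlo (fun x y hx hy hxy => ?_)
  obtain ⟨p, hp1, hp2⟩ : ∃ p : JP f lo t, p.1 ≤ x ⊔ lo t ∧ ¬ p.1 ≤ y := by
    by_contra hc
    push Not at hc
    exact hxy (le_sup_left.trans (jsep (lo := lo) (hlo' t) hd (hup x hx) hy hc))
  exact ⟨p.1, p.2.1, hp1, hp2, fun a b ha hb h => p.2.2.2 _ _ (hup a ha) (hup b hb) h⟩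

/-- A link whose trace on the upper fibre has at most four elements is tight. -/
theorem tight_of_four [Finite L] {r : K} (hrt : r ≤ t) (hflo : ∀ k, f (lo k) = k)
    (hlo : ∀ l, lo (f l) ≤ l) (hc : {w : L | ∃ z, f z = r ∧ z ⊔ lo t = w}.ncard ≤ 4) :
    TightLink f r t := by
  classical
  have hlo' : ∀ k l, f l = k → lo k ≤ l := fun k l h => by rw [← h]; exact hlo l
  have hup : ∀ z, f z = r → f (z ⊔ lo t) = t := fun z hz => by
    rw [map_sup, hz, hflo, sup_eq_right.2 hrt]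
  have hrt' : lo r ≤ lo t := by
    have h2 : f (lo r ⊓ lo t) = r := by rw [map_inf, hflo, hflo, inf_eq_left.2 hrt]
    exact (hlo' _ _ h2).trans inf_le_right
  have hI0 : lo t ∈ {w : L | ∃ z, f z = r ∧ z ⊔ lo t = w} := ⟨lo r, hflo r, sup_eq_right.2 hrt'⟩
  have hIf : ∀ w ∈ {w : L | ∃ z, f z = r ∧ z ⊔ lo t = w}, f w = t := by
    rintro w ⟨z, hz, rfl⟩
    exact hup z hz
  have hIs : ∀ v ∈ {w : L | ∃ z, f z = r ∧ z ⊔ lo t = w},
      ∀ w ∈ {w : L | ∃ z, f z = r ∧ z ⊔ lo t = w},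
      v ⊔ w ∈ {w : L | ∃ z, f z = r ∧ z ⊔ lo t = w} := by
    rintro v ⟨z, hz, rfl⟩ w ⟨z', hz', rfl⟩
    exact ⟨z ⊔ z', by rw [map_sup, hz, hz', sup_idem], sup_sup_distrib_right z z' (lo t)⟩
  refine tight_of_prime hrt hflo hlo (fun x y hx hy hxy => ?_)
  obtain ⟨p, ⟨hpI, hpx, hpy⟩, hmin⟩ := (Set.toFinite {p : L |
    (∃ z, f z = r ∧ z ⊔ lo t = p) ∧ p ≤ x ⊔ lo t ∧ ¬ p ≤ y}).exists_minimal
    ⟨x ⊔ lo t, ⟨x, hx, rfl⟩, le_rfl, fun h => hxy (le_sup_left.trans h)⟩
  refine ⟨p, hIf p hpI, hpx, hpy, ?_⟩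
  have key : ∀ a b, (∃ z, f z = r ∧ z ⊔ lo t = a) → (∃ z, f z = r ∧ z ⊔ lo t = b) →
      p ≤ a ⊔ b → p ≤ a ∨ p ≤ b := by
    intro a b ha hb hab
    by_contra hcon
    push Not at hcon
    obtain ⟨hpa, hpb⟩ := hcon
    have hty : lo t ≤ y := hlo' _ _ hy
    have n1 : lo t ≠ p := fun h => hpy (by rw [← h]; exact hty)
    have la : lo t ≤ a := hlo' _ _ (hIf a ha)
    have lb : lo t ≤ b := hlo' _ _ (hIf b hb)
    have n2 : lo t ≠ a := by
      intro h
      rw [← h, sup_eq_right.2 lb] at hab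
      exact hpb hab
    have n3 : lo t ≠ b := by
      intro h
      rw [← h, sup_eq_left.2 la] at hab
      exact hpa hab
    have n4 : lo t ≠ a ⊔ b := fun h => hpy (by rw [← h] at hab; exact hab.trans hty)
    have n5 : p ≠ a := fun h => hpa h.le
    have n6 : p ≠ b := fun h => hpb h.le
    have n7 : p ≠ a ⊔ b := by
      intro h
      have h1 : a ≤ y := by
        by_contra hay
        have hap : a ≤ p := by rw [h]; exact le_sup_left
        exact hpa (hmin ⟨ha, hap.trans hpx, hay⟩ hap)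
      have h2 : b ≤ y := by
        by_contra hby
        have hbp : b ≤ p := by rw [h]; exact le_sup_right
        exact hpb (hmin ⟨hb, hbp.trans hpx, hby⟩ hbp)
      exact hpy (by rw [h]; exact sup_le h1 h2)
    have n8 : a ≠ b := by
      intro h
      rw [← h, sup_idem] at hab
      exact hpa hab
    have n9 : a ≠ a ⊔ b := fun h => hpa (by rw [← h] at hab; exact hab)
    have n10 : b ≠ a ⊔ b := fun h => hpb (by rw [← h] at hab; exact hab)
    have hsub : (({lo t, p, a, b, a ⊔ b} : Finset L) : Set L) ⊆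
        {w : L | ∃ z, f z = r ∧ z ⊔ lo t = w} := by
      intro w hw
      simp only [Finset.coe_insert, Finset.coe_singleton, Set.mem_insert_iff,
        Set.mem_singleton_iff] at hw
      rcases hw with rfl | rfl | rfl | rfl | rfl
      · exact hI0
      · exact hpI
      · exact ha
      · exact hb
      · exact hIs a ha b hb
    have h5 : ({lo t, p, a, b, a ⊔ b} : Finset L).card = 5 := by
      rw [Finset.card_insert_of_notMem, Finset.card_insert_of_notMem,
        Finset.card_insert_of_notMem, Finset.card_insert_of_notMem, Finset.card_singleton]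
      · simp [n10]
      · simp [n8, n9]
      · simp [n5, n6, n7]
      · simp [n1, n2, n3, n4]
    have h6 := Set.ncard_le_ncard hsub (Set.toFinite _)
    rw [Set.ncard_coe_finset, h5] at h6
    omega
  intro a b ha hb hab
  exact key _ _ ⟨a, ha, rfl⟩ ⟨b, hb, rfl⟩ hab

/-- A link which is a bijection is transposed. -/
theorem transposed_of_bij {r : K} (hrt : r ≤ t) (hflo : ∀ k, f (lo k) = k)
    (hfhi : ∀ k, f (hi k) = k) (hlo : ∀ l, lo (f l) ≤ l) (hhi : ∀ l, l ≤ hi (f l))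
    (h1 : ∀ w, f w = t → ∃ z, f z = r ∧ z ⊔ lo t = w)
    (h2 : ∀ z z', f z = r → f z' = r → z ⊔ lo t = z' ⊔ lo t → z = z') :
    TransposedLink f r t := by
  have hlo' : ∀ k l, f l = k → lo k ≤ l := fun k l h => by rw [← h]; exact hlo l
  have hhi' : ∀ k l, f l = k → l ≤ hi k := fun k l h => by rw [← h]; exact hhi l
  have hdn : ∀ y, f y = t → f (y ⊓ hi r) = r := fun y hy => by
    rw [map_inf, hy, hfhi, inf_eq_right.2 hrt]
  refine ⟨hi r, hfhi r, hhi' r, ?_, ?_⟩
  · intro y y' hy hy' hyy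
    obtain ⟨z, hz, rfl⟩ := h1 y hy
    exact sup_le ((le_inf le_sup_left (hhi' _ _ hz)).trans hyy) (hlo' _ _ hy')
  · intro x y hx hy _
    have hxt : f (x ⊔ lo t) = t := by rw [map_sup, hx, hflo, sup_eq_right.2 hrt]
    refine ⟨x ⊔ lo t, hxt, ?_⟩
    refine h2 _ _ (hdn _ hxt) hx (le_antisymm (sup_le inf_le_left le_sup_right) ?_)
    exact sup_le_sup_right (le_inf le_sup_left (hhi' _ _ hx)) _

/-- A link whose lower end is distributive is tight. -/
theorem tight_of_lower [Finite L] {r : K} (hrt : r ≤ t) (hflo : ∀ k, f (lo k) = k)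
    (hfhi : ∀ k, f (hi k) = k) (hlo : ∀ l, lo (f l) ≤ l) (hhi : ∀ l, l ≤ hi (f l))
    (hd : DistribOver f r) : TightLink f r t := by
  have hlo' : ∀ k l, f l = k → lo k ≤ l := fun k l h => by rw [← h]; exact hlo l
  have hhi' : ∀ k l, f l = k → l ≤ hi k := fun k l h => by rw [← h]; exact hhi l
  intro x y hx hy hxy
  have hy' : f (y ⊓ hi r) = r := by rw [map_inf, hy, hfhi, inf_eq_right.2 hrt]
  obtain ⟨p, hp1, hp2⟩ : ∃ p : JP f lo r, p.1 ≤ x ∧ ¬ p.1 ≤ y ⊓ hi r := by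
    by_contra hc
    push Not at hc
    exact hxy ((jsep (lo := lo) (hlo' r) hd hx hy' hc).trans inf_le_left)
  obtain ⟨u, ⟨hu1, hu2⟩, hmax⟩ :=
    (Set.toFinite {z : L | f z = r ∧ ¬ p.1 ≤ z}).exists_maximal ⟨lo r, hflo r, p.2.2.1⟩
  have hpd : f (p.1 ⊔ lo t) = t := by rw [map_sup, p.2.1, hflo, sup_eq_right.2 hrt]
  refine ⟨u, p.1 ⊔ lo t, hu1, hpd, fun h => hu2 (hp1.trans h),
    fun h => hp2 (le_inf (le_sup_left.trans h) (hhi' _ _ p.2.1)), fun z hz => ?_⟩
  by_cases hpz : p.1 ≤ z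
  · right
    intro w hw hzw
    exact sup_le (hpz.trans hzw) (hlo' t w hw)
  · left
    have h1 : u ⊔ z ∈ {z : L | f z = r ∧ ¬ p.1 ≤ z} := by
      refine ⟨by rw [map_sup, hu1, hz, sup_idem], fun h => ?_⟩
      rcases p.2.2.2 _ _ hu1 hz h with h | h
      · exact hu2 h
      · exact hpz h
    exact le_sup_right.trans (hmax h1 le_sup_left)

end Vale.Agent.P183.H238
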