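import Vale.Agent.P183.H238.Core
import Vale.Agent.P183.H238.Dist
import Vale.Agent.P183.H330D.Reduce
import Vale.Agent.P183.H330M.Reduce

/-!
Extensions whose fibres are distributive or group intervals and whose links are tight.
-/

set_option linter.all false

namespace Vale.Agent.P183.H238

open Vale.Agent.P183 Vale.Agent.P183.H330 Vale.Agent.P183.H330G Vale.Agent.P183.H330D
open Vale.Agent.P183.H330M (DistribOver)

/-- Tight fibres: (i) every fibre is distributive or an interval `[H, G]` in the subgroup lattice of
a finite group; (ii) for every cover `r ⋖ t` in the quotient one of the two fibres is distributive,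
or the link from the fibre over `r` to the fibre over `t` is tight, or this link is transposed and
`t` has no other lower cover; (iii) if `r` and `r'` are different lower covers of `t`, every element
over `r ⊓ r'` is below every element over `t`. -/
def TightFibres {L K : Type} [Lattice L] [Lattice K] (f : LatticeHom L K) : Prop :=
  (∀ t, DistribOver f t ∨ IsGroupInterval {l : L // f l = t}) ∧
  (∀ r t, r ⋖ t → DistribOver f r ∨ DistribOver f t ∨ TightLink f r t ∨
    (TransposedLink f r t ∧ ∀ r', r' ⋖ t → r' = r)) ∧
  ∀ r r' t, r ⋖ t → r' ⋖ t → r ≠ r' → ∀ x y, f x = r ⊓ r' → f y = t → x ≤ y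

variable {L K : Type} [Lattice L] [Lattice K]

/-- **Extensions with tight fibres.** -/
theorem ext_tight [Finite L] (f : LatticeHom L K) (hf : Function.Surjective f)
    (hK : Representable K) (h : TightFibres f) : Representable L := by
  classical
  have hKf : Finite K := Finite.of_surjective f hf
  obtain ⟨lo, hi, hflo, hfhi, hlo, hhi⟩ := exists_lo_hi_fin f hf
  have hlo' : ∀ k l, f l = k → lo k ≤ l := fun k l h => by rw [← h]; exact hlo l
  have hhi' : ∀ k l, f l = k → l ≤ hi k := fun k l h => by rw [← h]; exact hhi l
  obtain ⟨h1, h2, h3⟩ := h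
  obtain ⟨F, hF⟩ := exists_rec (K := K) (C := fun t => Lv f t)
    (fun t prev S => ∃ J : (∀ r : {r : K // r ⋖ t}, (prev r.1 r.2.lt).X) → S.X,
      LinkP hi (fun r => prev r.1 r.2.lt) S J) (by
    intro t prev
    have hD : IsGroupInterval {l : L // f l = t} := by
      rcases h1 t with h | h
      · exact groupInterval_of_distrib (hflo t) (hfhi t) (hlo' t) (hhi' t) h
      · exact h
    obtain ⟨D⟩ := exists_dl hD
    by_cases ht : ∀ r, r ⋖ t → TightLink f r t
    · exact exists_tight hflo hfhi hlo hhi D ht (fun r => prev r.1 r.2.lt)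
    · push Not at ht
      obtain ⟨r, hrt, hr⟩ := ht
      rcases h2 r t hrt with h | h | h | h
      · exact absurd (tight_of_lower hrt.le hflo hfhi hlo hhi h) hr
      · exact absurd (tight_of_upper hrt.le hflo hlo h) hr
      · exact absurd h hr
      · exact exists_transposed hfhi hhi hrt h.2 h.1 (fun r => prev r.1 r.2.lt))
  choose J hJ using hF
  refine core hf hflo hfhi hlo hhi F J hJ ?_ hK
  intro t r r' hne q hq hq'
  have h4 : hi q ≤ hi (r.1 ⊓ r'.1) := by
    have h5 : f (hi (r.1 ⊓ r'.1) ⊔ hi q) = r.1 ⊓ r'.1 := by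
      rw [map_sup, hfhi, hfhi, sup_eq_left.2 (le_inf hq hq')]
    exact le_sup_right.trans (hhi' _ _ h5)
  exact h4.trans (h3 r.1 r'.1 t r.2 r'.2 (fun h => hne (Subtype.ext h)) _ _ (hfhi _) (hflo _))

/-- The dual of the extension theorem. -/
theorem ext_tight_dual [Finite L] (f : LatticeHom L K) (hf : Function.Surjective f)
    (hK : Representable K) (h : TightFibres (LatticeHom.dual f)) : Representable L := by
  have hLf : Finite Lᵒᵈ := inferInstanceAs (Finite L)
  have h1 : Representable Lᵒᵈ := ext_tight (LatticeHom.dual f) (by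
    intro k
    obtain ⟨l, hl⟩ := hf (OrderDual.ofDual k)
    exact ⟨OrderDual.toDual l, congrArg OrderDual.toDual hl⟩) hK.dual h
  exact h1.dual

/-- **Fibres over a chain.** -/
theorem over_chain [Finite L] [Nonempty L] (f : LatticeHom L K) (hf : Function.Surjective f)
    (hch : ∀ p q : K, p ≤ q ∨ q ≤ p)
    (h1 : ∀ t, DistribOver f t ∨ IsGroupInterval {l : L // f l = t})
    (h2 : ∀ r t, r ⋖ t → DistribOver f r ∨ DistribOver f t ∨ TightLink f r t ∨
      TransposedLink f r t) : Representable L := by
  have hKf : Finite K := Finite.of_surjective f hf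
  have hKn : Nonempty K := ⟨f (Classical.arbitrary L)⟩
  have hu : ∀ r r' t : K, r ⋖ t → r' ⋖ t → r' = r := by
    intro r r' t hr hr'
    rcases hch r r' with h | h
    · rcases eq_or_lt_of_le h with h | h
      · exact h.symm
      · exact absurd hr'.lt (hr.2 h)
    · rcases eq_or_lt_of_le h with h | h
      · exact h
      · exact absurd hr.lt (hr'.2 h)
  refine ext_tight f hf (H330.representable_chain K hch) ⟨h1, fun r t hrt => ?_, ?_⟩
  · rcases h2 r t hrt with h | h | h | h
    · exact Or.inl h
    · exact Or.inr (Or.inl h)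
    · exact Or.inr (Or.inr (Or.inl h))
    · exact Or.inr (Or.inr (Or.inr ⟨h, fun r' hr' => hu r r' t hrt hr'⟩))
  · intro r r' t hr hr' hne
    exact absurd (hu r' r t hr' hr) hne

end Vale.Agent.P183.H238
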