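import Vale.Agent.P183.H238.Sp
import Vale.Agent.P183.H330G.Core

/-!
Compatible families of saturated sets in a system of spaces, and their extensions.
-/

set_option linter.all false

namespace Vale.Agent.P183.H238

open Vale.Agent.P183 Vale.Agent.P183.H330 Vale.Agent.P183.H330G

variable {L K : Type} [Lattice L] [Lattice K] {f : LatticeHom L K} {lo hi : K → L}

/-- The conditions on the maps into the space over `t`; gates are required outside `N`, and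
interpolants when `t` is not maximal. -/
structure GoodN (N : Set K) (S : ∀ t, Sp f lo t) (B : ∀ t, Subgroup (Equiv.Perm (S t).X)) (t : K)
    (J : ∀ t r, (S r).X → (S t).X) : Prop where
  refl : ∀ a, J t t a = a
  comp : ∀ q r, q ≤ r → r ≤ t → ∀ a, J t r (J r q a) = J t q a
  isom : ∀ r, r ≤ t → ∀ a a', (S t).d (J t r a) (J t r a') = (S r).d a a' ⊔ lo t
  interp : ¬ IsMax t → ∀ r r', r ≤ t → r' ≤ t → ∀ (a : (S r).X) (a' : (S r').X) l, f l = t →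
    (S t).d (J t r a) (J t r' a') ≤ l →
    ∃ e : (S (r ⊓ r')).X, (S t).d (J t r a) (J t (r ⊓ r') e) ≤ l ∧
      (S t).d (J t (r ⊓ r') e) (J t r' a') ≤ l
  gate : t ∉ N → ∀ r r', r ≤ t → r' ≤ t → ∀ (x : (S t).X) (a : (S r).X) (a' : (S r').X) l l',
    f l = t → f l' = t → (S t).d x (J t r a) ≤ l → (S t).d x (J t r' a') ≤ l' →
    (∃ c : (S r).X, (S t).d x (J t r c) ≤ l ⊓ l') ∨
      ∃ c : (S r').X, (S t).d x (J t r' c) ≤ l ⊓ l'
  ext : ∀ s g, CompatB S B J s t g → ∃ γ ∈ B t, ∀ r, s ≤ r → r < t → ∀ a,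
    γ (J t r a) = J t r (g r a)

theorem GoodN.local {N : Set K} {S : ∀ t, Sp f lo t} {B : ∀ t, Subgroup (Equiv.Perm (S t).X)}
    {t : K} {J J' : ∀ t r, (S r).X → (S t).X} (h : ∀ r, r ≤ t → J r = J' r)
    (hg : GoodN N S B t J) : GoodN N S B t J' := by
  constructor
  · intro a
    rw [← h t le_rfl]; exact hg.refl a
  · intro q r hqr hrt a
    rw [← h t le_rfl, ← h r hrt]; exact hg.comp q r hqr hrt a
  · intro r hrt a a'
    rw [← h t le_rfl]; exact hg.isom r hrt a a'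
  · rw [← h t le_rfl]; exact hg.interp
  · rw [← h t le_rfl]; exact hg.gate
  · intro s g hc
    rw [← h t le_rfl]
    refine hg.ext s g ?_
    intro r hr1 hr2
    refine ⟨(hc r hr1 hr2).1, fun q hq1 hq2 a => ?_⟩
    rw [h r hr2.le]
    exact (hc r hr1 hr2).2 q hq1 hq2 a

theorem GoodN.to3 {N : Set K} {S : ∀ t, Sp f lo t} {B : ∀ t, Subgroup (Equiv.Perm (S t).X)}
    {t : K} {J : ∀ t r, (S r).X → (S t).X} (h : GoodN N S B t J) (ht : t ∉ N)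
    (hm : ¬ IsMax t) : Good3 S B t J :=
  ⟨h.refl, h.comp, h.isom, h.interp hm, h.gate ht, h.ext⟩

theorem GoodN.of3 {N : Set K} {S : ∀ t, Sp f lo t} {B : ∀ t, Subgroup (Equiv.Perm (S t).X)}
    {t : K} {J : ∀ t r, (S r).X → (S t).X} (h : Good3 S B t J) : GoodN N S B t J :=
  ⟨h.refl, h.comp, h.isom, fun _ => h.interp, fun _ => h.gate, h.ext⟩

/-- A compatible family of elements below `t`. -/
def CF (f : LatticeHom L K) (t : K) (u : K → L) : Prop :=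
  (∀ q, q < t → f (u q) = q) ∧ ∀ p q z, p ≤ q → q < t → f z = p → (z ≤ u q ↔ z ≤ u p)

theorem CompatTight.lt [Finite K] (hflo : ∀ k, f (lo k) = k) (hlo : ∀ k l, k ≤ f l → lo k ≤ l)
    {t : K} (h : CompatTight f t) {r : K} {x y : L} (hr : r < t) (hx : f x = r) (hy : f y = t)
    (hxy : ¬ x ≤ y) : ∃ (u : K → L) (d : L), f d = t ∧ ¬ d ≤ y ∧ ¬ x ≤ u r ∧ CF f t u ∧
      ∀ q z, q < t → f z = q → z ≤ u q ∨ ∀ w, f w = t → z ≤ w → d ≤ w := by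
  obtain ⟨c, ⟨hc1, hc2⟩, hmax⟩ := (Set.toFinite {c : K | r ≤ c ∧ c < t}).exists_maximal
    ⟨r, le_rfl, hr⟩
  have hcov : c ⋖ t := ⟨hc2, fun e h1 h2 => absurd (hmax ⟨hc1.trans h1.le, h2⟩ h1.le)
    (not_le_of_gt h1)⟩
  obtain ⟨u, d, hd, hdy, hxu, hu1, hu2, hu3⟩ := h c (x ⊔ lo c) y hcov
    (by rw [map_sup, hx, hflo, sup_eq_right.2 hc1]) hy (fun h => hxy (le_sup_left.trans h))
  refine ⟨u, d, hd, hdy, fun h => hxu (sup_le ?_ (hlo _ _ (hu1 c hc2).ge)), ⟨hu1, hu2⟩, hu3⟩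
  exact (hu2 r c x hc1 hc2 hx).2 h

section

variable {S : ∀ t, Sp f lo t} {B : ∀ t, Subgroup (Equiv.Perm (S t).X)}
  {J : ∀ t r, (S r).X → (S t).X} {t : K} {u : K → L} {s : K}

/-- `V` is saturated and compatible above `s`. -/
def SatC (J : ∀ t r, (S r).X → (S t).X) (t : K) (u : K → L) (s : K)
    (V : ∀ r : {r : K // r < t}, Set (S r.1).X) : Prop :=
  (∀ q (hq : q < t), s ≤ q → ∀ a b, (S q).d a b ≤ u q → (a ∈ V ⟨q, hq⟩ ↔ b ∈ V ⟨q, hq⟩)) ∧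
    ∀ p q (hpq : p ≤ q) (hq : q < t), s ≤ p → ∀ a : (S p).X,
      (J q p a ∈ V ⟨q, hq⟩ ↔ a ∈ V ⟨p, hpq.trans_lt hq⟩)

/-- The extension of a family from above `s`. -/
def exV (J : ∀ t r, (S r).X → (S t).X) (t : K) (u : K → L) (s : K)
    (V : ∀ r : {r : K // r < t}, Set (S r.1).X) (q : {r : K // r < t}) : Set (S q.1).X :=
  {a | ∃ (r : K) (hr : r < t) (e : (S (q.1 ⊓ r)).X), s ≤ r ∧
    (S q.1).d a (J q.1 (q.1 ⊓ r) e) ≤ u q.1 ∧ J r (q.1 ⊓ r) e ∈ V ⟨r, hr⟩}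

theorem exV_congr {V V' : ∀ r : {r : K // r < t}, Set (S r.1).X}
    (h : ∀ r (hr : r < t), s ≤ r → V ⟨r, hr⟩ = V' ⟨r, hr⟩) :
    exV J t u s V = exV J t u s V' := by
  funext q
  ext a
  constructor
  · rintro ⟨r, hr, e, h1, h2, h3⟩
    exact ⟨r, hr, e, h1, h2, by rw [← h r hr h1]; exact h3⟩
  · rintro ⟨r, hr, e, h1, h2, h3⟩
    exact ⟨r, hr, e, h1, h2, by rw [h r hr h1]; exact h3⟩

variable (hlo : ∀ k l, k ≤ f l → lo k ≤ l) {N : Set K}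
  (hJ : ∀ r, r < t → GoodN N S B r J) (hu : CF f t u)

include hlo hJ hu

theorem CF.mono' {p q : K} (hpq : p ≤ q) (hq : q < t) : u p ≤ u q :=
  (hu.2 p q (u p) hpq hq (hu.1 p (hpq.trans_lt hq))).2 le_rfl

/-- Going down. -/
theorem CF.down {p q : K} (hpq : p ≤ q) (hq : q < t) {a b : (S p).X}
    (h : (S q).d (J q p a) (J q p b) ≤ u q) : (S p).d a b ≤ u p := by
  rw [(hJ q hq).isom p hpq] at h
  exact (hu.2 p q _ hpq hq ((S p).fd a b)).1 (le_sup_left.trans h)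

/-- Going up. -/
theorem CF.up {p q : K} (hpq : p ≤ q) (hq : q < t) {a b : (S p).X}
    (h : (S p).d a b ≤ u p) : (S q).d (J q p a) (J q p b) ≤ u q := by
  rw [(hJ q hq).isom p hpq]
  exact sup_le ((hu.2 p q _ hpq hq ((S p).fd a b)).2 h) (hlo _ _ (hu.1 q hq).ge)

theorem exV_sat (V : ∀ r : {r : K // r < t}, Set (S r.1).X) (q : K) (hq : q < t) (a b : (S q).X)
    (h : (S q).d a b ≤ u q) : a ∈ exV J t u s V ⟨q, hq⟩ ↔ b ∈ exV J t u s V ⟨q, hq⟩ := by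
  constructor
  · rintro ⟨r, hr, e, h1, h2, h3⟩
    refine ⟨r, hr, e, h1, ?_, h3⟩
    exact ((S q).tri b a _).trans (sup_le (by rw [(S q).symm]; exact h) h2)
  · rintro ⟨r, hr, e, h1, h2, h3⟩
    refine ⟨r, hr, e, h1, ?_, h3⟩
    exact ((S q).tri a b _).trans (sup_le h h2)

theorem not_isMax {q : K} (hq : q < t) : ¬ IsMax q := fun h => absurd (h hq.le) (not_le_of_gt hq)

theorem exV_compat {V : ∀ r : {r : K // r < t}, Set (S r.1).X} (hV : SatC J t u s V)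
    (p q : K) (hpq : p ≤ q) (hq : q < t) (a : (S p).X) :
    J q p a ∈ exV J t u s V ⟨q, hq⟩ ↔ a ∈ exV J t u s V ⟨p, hpq.trans_lt hq⟩ := by
  have hp : p < t := hpq.trans_lt hq
  constructor
  · rintro ⟨r, hr, e, h1, h2, h3⟩
    have hqr : q ⊓ r < t := inf_le_left.trans_lt hq
    obtain ⟨g, hg1, hg2⟩ := (hJ q hq).interp (not_isMax hlo hJ hu hq) p (q ⊓ r) hpq inf_le_left
      a e (u q) (hu.1 q hq) h2
    have k1 : p ⊓ (q ⊓ r) ≤ p := inf_le_left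
    have k2 : p ⊓ (q ⊓ r) ≤ q ⊓ r := inf_le_right
    have k3 : p ⊓ (q ⊓ r) ≤ p ⊓ r := le_inf inf_le_left (inf_le_right.trans inf_le_right)
    refine ⟨r, hr, J (p ⊓ r) (p ⊓ (q ⊓ r)) g, h1, ?_, ?_⟩
    · show (S p).d a (J p (p ⊓ r) (J (p ⊓ r) (p ⊓ (q ⊓ r)) g)) ≤ u p
      rw [(hJ p hp).comp _ _ k3 inf_le_left]
      refine CF.down hlo hJ hu hpq hq ?_
      rw [(hJ q hq).comp _ _ k1 hpq]
      exact hg1
    · show J r (p ⊓ r) (J (p ⊓ r) (p ⊓ (q ⊓ r)) g) ∈ V ⟨r, hr⟩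
      rw [(hJ r hr).comp _ _ k3 inf_le_right]
      have h4 : (S (q ⊓ r)).d (J (q ⊓ r) (p ⊓ (q ⊓ r)) g) e ≤ u (q ⊓ r) := by
        refine CF.down hlo hJ hu inf_le_left hq ?_
        rw [(hJ q hq).comp _ _ k2 inf_le_left]
        exact hg2
      have h5 := CF.up hlo hJ hu (inf_le_right : q ⊓ r ≤ r) hr h4
      rw [(hJ r hr).comp _ _ k2 inf_le_right] at h5
      exact (hV.1 r hr h1 _ _ h5).2 h3
  · rintro ⟨r, hr, e, h1, h2, h3⟩
    have k : p ⊓ r ≤ q ⊓ r := inf_le_inf_right _ hpq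
    refine ⟨r, hr, J (q ⊓ r) (p ⊓ r) e, h1, ?_, ?_⟩
    · show (S q).d (J q p a) (J q (q ⊓ r) (J (q ⊓ r) (p ⊓ r) e)) ≤ u q
      rw [(hJ q hq).comp _ _ k inf_le_left, ← (hJ q hq).comp _ _ inf_le_left hpq]
      exact CF.up hlo hJ hu hpq hq h2
    · show J r (q ⊓ r) (J (q ⊓ r) (p ⊓ r) e) ∈ V ⟨r, hr⟩
      rw [(hJ r hr).comp _ _ k inf_le_right]
      exact h3

theorem exV_eq {V : ∀ r : {r : K // r < t}, Set (S r.1).X} (hV : SatC J t u s V)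
    (q : K) (hq : q < t) (hsq : s ≤ q) : exV J t u s V ⟨q, hq⟩ = V ⟨q, hq⟩ := by
  ext a
  constructor
  · rintro ⟨r, hr, e, h1, h2, h3⟩
    have h4 := (hV.2 (q ⊓ r) r inf_le_right hr (le_inf hsq h1) e).1 h3
    have h5 := (hV.2 (q ⊓ r) q inf_le_left hq (le_inf hsq h1) e).2 h4
    exact (hV.1 q hq hsq _ _ h2).2 h5
  · intro ha
    refine ⟨q, hq, J (q ⊓ q) q a, hsq, ?_, ?_⟩
    · show (S q).d a (J q (q ⊓ q) (J (q ⊓ q) q a)) ≤ u q
      rw [(hJ q hq).comp _ _ (le_inf le_rfl le_rfl) inf_le_left, (hJ q hq).refl,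
        ((S q).self _ _).2 rfl]
      exact hlo _ _ (hu.1 q hq).ge
    · show J q (q ⊓ q) (J (q ⊓ q) q a) ∈ V ⟨q, hq⟩
      rw [(hJ q hq).comp _ _ (le_inf le_rfl le_rfl) inf_le_left, (hJ q hq).refl]
      exact ha

/-- The family of the points near `a`. -/
theorem exists_ball [Finite L] {r : K} (hr : r < t) (a : (S r).X) :
    ∃ U : ∀ r : {r : K // r < t}, Set (S r.1).X,
      (∀ q (hq : q < t) (a b : (S q).X), (S q).d a b ≤ u q → (a ∈ U ⟨q, hq⟩ ↔ b ∈ U ⟨q, hq⟩)) ∧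
      (∀ p q (hpq : p ≤ q) (hq : q < t) (a : (S p).X),
        (J q p a ∈ U ⟨q, hq⟩ ↔ a ∈ U ⟨p, hpq.trans_lt hq⟩)) ∧
      ∀ q (hq : q < t) (b : (S q).X), b ∈ U ⟨q, hq⟩ ↔ ∃ e : (S (r ⊓ q)).X,
        (S r).d a (J r (r ⊓ q) e) ≤ u r ∧ (S q).d (J q (r ⊓ q) e) b ≤ u q := by
  let V : ∀ q : {r : K // r < t}, Set (S q.1).X := fun q =>
    {b | r ≤ q.1 ∧ (S q.1).d b (J q.1 r a) ≤ u q.1}
  have hV : SatC J t u r V := by
    constructor
    · intro q hq hrq b c hbc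
      constructor
      · rintro ⟨h1, h2⟩
        exact ⟨h1, ((S q).tri c b _).trans (sup_le (by rw [(S q).symm]; exact hbc) h2)⟩
      · rintro ⟨h1, h2⟩
        exact ⟨h1, ((S q).tri b c _).trans (sup_le hbc h2)⟩
    · intro p q hpq hq hrp b
      constructor
      · rintro ⟨h1, h2⟩
        refine ⟨hrp, CF.down hlo hJ hu hpq hq ?_⟩
        rw [(hJ q hq).comp _ _ hrp hpq]
        exact h2
      · rintro ⟨h1, h2⟩
        refine ⟨hrp.trans hpq, ?_⟩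
        show (S q).d (J q p b) (J q r a) ≤ u q
        rw [← (hJ q hq).comp _ _ hrp hpq]
        exact CF.up hlo hJ hu hpq hq h2
  refine ⟨exV J t u r V, fun q hq a b h => exV_sat hlo hJ hu V q hq a b h,
    fun p q hpq hq a => exV_compat hlo hJ hu hV p q hpq hq a, ?_⟩
  intro q hq b
  constructor
  · rintro ⟨ρ, hρ, e, hrρ, h2, -, h3⟩
    obtain ⟨g, hg1, hg2⟩ := (hJ ρ hρ).interp (not_isMax hlo hJ hu hρ) (q ⊓ ρ) r inf_le_right hrρ
      e a (u ρ) (hu.1 ρ hρ) h3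
    have k1 : (q ⊓ ρ) ⊓ r ≤ r := inf_le_right
    have k2 : (q ⊓ ρ) ⊓ r ≤ q ⊓ ρ := inf_le_left
    have k3 : (q ⊓ ρ) ⊓ r ≤ r ⊓ q := le_inf inf_le_right (inf_le_left.trans inf_le_left)
    refine ⟨J (r ⊓ q) ((q ⊓ ρ) ⊓ r) g, ?_, ?_⟩
    · rw [(hJ r hr).comp _ _ k3 inf_le_left]
      refine CF.down hlo hJ hu hrρ hρ ?_
      rw [(hJ ρ hρ).comp _ _ k1 hrρ, (S ρ).symm]
      exact hg2
    · rw [(hJ q hq).comp _ _ k3 inf_le_right]
      have h4 : (S (q ⊓ ρ)).d e (J (q ⊓ ρ) ((q ⊓ ρ) ⊓ r) g) ≤ u (q ⊓ ρ) := by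
        refine CF.down hlo hJ hu inf_le_right hρ ?_
        rw [(hJ ρ hρ).comp _ _ k2 inf_le_right]
        exact hg1
      have h5 := CF.up hlo hJ hu (inf_le_left : q ⊓ ρ ≤ q) hq h4
      rw [(hJ q hq).comp _ _ k2 inf_le_left] at h5
      refine ((S q).tri _ (J q (q ⊓ ρ) e) _).trans (sup_le (by rw [(S q).symm]; exact h5) ?_)
      rw [(S q).symm]
      exact h2
  · rintro ⟨e, h1, h2⟩
    have hmem : J r (q ⊓ r) (J (q ⊓ r) (r ⊓ q) e) ∈ V ⟨r, hr⟩ := by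
      refine ⟨le_rfl, ?_⟩
      show (S r).d (J r (q ⊓ r) (J (q ⊓ r) (r ⊓ q) e)) (J r r a) ≤ u r
      rw [(hJ r hr).comp _ _ (le_inf inf_le_right inf_le_left) inf_le_right, (hJ r hr).refl,
        (S r).symm]
      exact h1
    refine ⟨r, hr, J (q ⊓ r) (r ⊓ q) e, le_rfl, ?_, hmem⟩
    show (S q).d b (J q (q ⊓ r) (J (q ⊓ r) (r ⊓ q) e)) ≤ u q
    rw [(hJ q hq).comp _ _ (le_inf inf_le_right inf_le_left) inf_le_left, (S q).symm]
    exact h2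

end

end Vale.Agent.P183.H238
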