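import Vale.Agent.P183.H330D.Defs
import Vale.Agent.P183.H330.Maps
import Vale.Agent.P183.H996.Dual

/-!
Levels: a finite set with equivalence relations indexed by a fibre, all the relations which are
preserved by the symmetries. Construction from a group interval, with blocks.
-/

set_option linter.all false

namespace Vale.Agent.P183.H238

open Vale.Agent.P183

/-- The symmetries of a system of equivalence relations indexed by the fibre over `t`. -/
def Sy {L K X : Type} (f : L → K) (t : K) (E : L → Setoid X) : Subgroup (Equiv.Perm X) where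
  carrier := {g | ∀ l, f l = t → ∀ x y, E l (g x) (g y) ↔ E l x y}
  one_mem' := fun _ _ _ _ => Iff.rfl
  mul_mem' := fun {g h} hg hh l hl x y => (hg l hl (h x) (h y)).trans (hh l hl x y)
  inv_mem' := fun {g} hg l hl x y => by
    have h1 := hg l hl (g⁻¹ x) (g⁻¹ y)
    have h2 : ∀ a, g (g⁻¹ a) = a := fun a => g.apply_symm_apply a
    rw [h2, h2] at h1
    exact h1.symm

theorem mem_Sy {L K X : Type} {f : L → K} {t : K} {E : L → Setoid X} {g : Equiv.Perm X} :
    g ∈ Sy f t E ↔ ∀ l, f l = t → ∀ x y, E l (g x) (g y) ↔ E l x y := Iff.rfl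

/-- A level over `t`. -/
structure Lv {L K : Type} [LE L] (f : L → K) (t : K) where
  X : Type
  fin : Finite X
  ne : Nonempty X
  E : L → Setoid X
  mono : ∀ a b, f a = t → f b = t → (E a ≤ E b ↔ a ≤ b)
  trans : ∀ x y, ∃ g ∈ Sy f t E, g x = y
  closed : ∀ (ρ : Setoid X) (l : L), f l = t → E l ≤ ρ →
    (∀ g ∈ Sy f t E, ∀ x y, ρ x y → ρ (g x) (g y)) → ∃ c, f c = t ∧ ρ = E c

/-- A dual level over `t`. -/
structure Dl {L K : Type} [LE L] (f : L → K) (t : K) where
  A : Type
  fin : Finite A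
  κ : L → Setoid A
  anti : ∀ a b, f a = t → f b = t → (κ a ≤ κ b ↔ b ≤ a)
  closed : ∀ (θ : Setoid A), (∀ p ∈ Sy f t κ, ∀ x y, θ x y → θ (p x) (p y)) →
    ∃ c, f c = t ∧ θ = κ c

/-- Every group interval has a dual level. -/
theorem exists_dl {L K : Type} [LE L] {f : L → K} {t : K}
    (h : H330D.IsGroupInterval {l : L // f l = t}) : Nonempty (Dl f t) := by
  classical
  have h' : H996.GroupInterval {l : L // f l = t}ᵒᵈ := H996.GroupInterval.dual h
  obtain ⟨G, i1, i2, H, ⟨e⟩⟩ := h'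
  let κ : L → Setoid (G ⧸ H) := fun l =>
    if hl : f l = t then Setoid.ker (Subgroup.quotientMapOfLE (e (OrderDual.toDual ⟨l, hl⟩)).2)
    else ⊤
  have hκ : ∀ l (hl : f l = t) (a b : G), κ l (a : G ⧸ H) (b : G ⧸ H) ↔
      a⁻¹ * b ∈ (e (OrderDual.toDual ⟨l, hl⟩)).1 := by
    intro l hl a b
    have h1 : κ l = Setoid.ker (Subgroup.quotientMapOfLE (e (OrderDual.toDual ⟨l, hl⟩)).2) :=
      dif_pos hl
    rw [h1, Setoid.ker_def, Subgroup.quotientMapOfLE_apply_mk, Subgroup.quotientMapOfLE_apply_mk,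
      QuotientGroup.eq]
  have hAf : Finite (G ⧸ H) := inferInstance
  refine ⟨{ A := G ⧸ H, fin := hAf, κ := κ, anti := ?_, closed := ?_ }⟩
  · intro a b ha hb
    constructor
    · intro hab
      have h1 : e (OrderDual.toDual ⟨a, ha⟩) ≤ e (OrderDual.toDual ⟨b, hb⟩) := by
        intro s hs
        have h2 : κ a ((1 : G) : G ⧸ H) ((s : G) : G ⧸ H) := (hκ a ha 1 s).2 (by simpa using hs)
        have h3 := (hκ b hb 1 s).1 (hab h2)
        simpa using h3
      exact (e.le_iff_le.1 h1)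
    · intro hba
      have h1 : e (OrderDual.toDual ⟨a, ha⟩) ≤ e (OrderDual.toDual ⟨b, hb⟩) :=
        e.le_iff_le.2 (show (⟨b, hb⟩ : {l : L // f l = t}) ≤ ⟨a, ha⟩ from hba)
      intro x y hxy
      induction x using QuotientGroup.induction_on with
      | _ x =>
      induction y using QuotientGroup.induction_on with
      | _ y =>
      exact (hκ b hb x y).2 (h1 ((hκ a ha x y).1 hxy))
  · intro θ hθ
    have hinv : ∀ (g : G) (x y : G ⧸ H), θ x y → θ (g • x) (g • y) := by
      intro g x y hxy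
      refine hθ (MulAction.toPerm g) ?_ x y hxy
      intro l hl x y
      induction x using QuotientGroup.induction_on with
      | _ x =>
      induction y using QuotientGroup.induction_on with
      | _ y =>
      have h1 : (MulAction.toPerm g : Equiv.Perm (G ⧸ H)) (x : G ⧸ H) = ((g * x : G) : G ⧸ H) := rfl
      have h2 : (MulAction.toPerm g : Equiv.Perm (G ⧸ H)) (y : G ⧸ H) = ((g * y : G) : G ⧸ H) := rfl
      rw [h1, h2, hκ l hl, hκ l hl]
      have h3 : (g * x)⁻¹ * (g * y) = x⁻¹ * y := by group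
      rw [h3]
    have hinv' : ∀ (g a b : G), θ (a : G ⧸ H) (b : G ⧸ H) →
        θ ((g * a : G) : G ⧸ H) ((g * b : G) : G ⧸ H) := fun g a b hab => hinv g _ _ hab
    let S : Subgroup G :=
      { carrier := {s | θ ((1 : G) : G ⧸ H) ((s : G) : G ⧸ H)}
        one_mem' := θ.refl' _
        mul_mem' := by
          intro a b ha hb
          have h1 := hinv' a 1 b hb
          rw [mul_one] at h1
          exact θ.trans' ha h1
        inv_mem' := by
          intro a ha
          have h1 := hinv' a⁻¹ 1 a ha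
          rw [mul_one, inv_mul_cancel] at h1
          exact θ.symm' h1 }
    have hS : ∀ s, s ∈ S ↔ θ ((1 : G) : G ⧸ H) ((s : G) : G ⧸ H) := fun _ => Iff.rfl
    have hHS : H ≤ S := by
      intro s hs
      rw [hS]
      have h1 : (((1 : G) : G ⧸ H)) = ((s : G) : G ⧸ H) := by
        rw [QuotientGroup.eq, inv_one, one_mul]
        exact hs
      rw [← h1]
    obtain ⟨c, hc⟩ := e.surjective ⟨S, hHS⟩
    refine ⟨(OrderDual.ofDual c).1, (OrderDual.ofDual c).2, ?_⟩
    apply Setoid.ext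
    intro x y
    induction x using QuotientGroup.induction_on with
    | _ x =>
    induction y using QuotientGroup.induction_on with
    | _ y =>
    rw [hκ _ (OrderDual.ofDual c).2]
    have h1 : (e (OrderDual.toDual ⟨(OrderDual.ofDual c).1, (OrderDual.ofDual c).2⟩)).1 = S := by
      have : (OrderDual.toDual ⟨(OrderDual.ofDual c).1, (OrderDual.ofDual c).2⟩ :
        {l : L // f l = t}ᵒᵈ) = c := rfl
      rw [this, hc]
    rw [h1, hS]
    constructor
    · intro hxy
      have h2 := hinv' x⁻¹ x y hxy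
      rwa [inv_mul_cancel] at h2
    · intro hxy
      have h2 := hinv' x 1 _ hxy
      rwa [mul_one, mul_inv_cancel_left] at h2

/-- The simple group. -/
abbrev T5 : Type := alternatingGroup (Fin 5)

instance : IsSimpleGroup T5 := alternatingGroup.isSimpleGroup (by simp)
instance : Finite T5 := inferInstanceAs (Finite (alternatingGroup (Fin 5)))
instance : Nontrivial T5 := IsSimpleGroup.toNontrivial

/-- The relations on functions with blocks. -/
def BE {A Φ : Type} (κ : Setoid A) : Setoid (A × Φ → T5) where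
  r v w := ∀ φ x y, κ x y → (v (x, φ))⁻¹ * w (x, φ) = (v (y, φ))⁻¹ * w (y, φ)
  iseqv := by
    refine ⟨fun v φ x y _ => by rw [inv_mul_cancel, inv_mul_cancel], ?_, ?_⟩
    · intro v w h φ x y hxy
      have h1 := congrArg (·⁻¹) (h φ x y hxy)
      simpa using h1
    · intro u v w h h' φ x y hxy
      have h1 := h φ x y hxy
      have h2 := h' φ x y hxy
      have h3 : (u (x, φ))⁻¹ * w (x, φ) =
          ((u (x, φ))⁻¹ * v (x, φ)) * ((v (x, φ))⁻¹ * w (x, φ)) := by group
      have h4 : (u (y, φ))⁻¹ * w (y, φ) =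
          ((u (y, φ))⁻¹ * v (y, φ)) * ((v (y, φ))⁻¹ * w (y, φ)) := by group
      rw [h3, h4, h1, h2]

theorem BE_def {A Φ : Type} {κ : Setoid A} {v w : A × Φ → T5} : BE κ v w ↔
    ∀ φ x y, κ x y → (v (x, φ))⁻¹ * w (x, φ) = (v (y, φ))⁻¹ * w (y, φ) := Iff.rfl

section

variable {L K : Type} [LE L] {f : L → K} {t : K} (D : Dl f t) (Φ : Type)

/-- The relations of the level with blocks. -/
def EE (l : L) : Setoid (D.A × Φ → T5) := BE (D.κ l)

theorem mulL_mem (q : D.A × Φ → T5) : Equiv.mulLeft q ∈ Sy f t (EE D Φ) := by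
  intro l hl v w
  show BE (D.κ l) (q * v) (q * w) ↔ BE (D.κ l) v w
  rw [BE_def, BE_def]
  have h1 : ∀ z, ((q * v) z)⁻¹ * (q * w) z = (v z)⁻¹ * w z := by
    intro z
    rw [Pi.mul_apply, Pi.mul_apply]
    group
  simp only [h1]

/-- Reindexing. -/
def rei (p : Equiv.Perm D.A) (π : Equiv.Perm Φ) : Equiv.Perm (D.A × Φ → T5) where
  toFun v := fun z => v (p z.1, π z.2)
  invFun v := fun z => v (p.symm z.1, π.symm z.2)
  left_inv v := by funext z; simp
  right_inv v := by funext z; simp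

variable {D Φ}

theorem rei_apply (p : Equiv.Perm D.A) (π : Equiv.Perm Φ) (v : D.A × Φ → T5) (x : D.A) (φ : Φ) :
    rei D Φ p π v (x, φ) = v (p x, π φ) := rfl

theorem rei_mem {p : Equiv.Perm D.A} (hp : p ∈ Sy f t D.κ) (π : Equiv.Perm Φ) :
    rei D Φ p π ∈ Sy f t (EE D Φ) := by
  intro l hl v w
  show BE (D.κ l) (rei D Φ p π v) (rei D Φ p π w) ↔ BE (D.κ l) v w
  rw [BE_def, BE_def]
  constructor
  · intro h φ x y hxy
    have h1 := h (π.symm φ) (p.symm x) (p.symm y) (by
      rw [← hp l hl, p.apply_symm_apply, p.apply_symm_apply]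
      exact hxy)
    simpa [rei_apply] using h1
  · intro h φ x y hxy
    exact h (π φ) (p x) (p y) ((hp l hl x y).2 hxy)

theorem EE_le_iff [Nonempty Φ] {a b : L} (ha : f a = t) (hb : f b = t) :
    EE D Φ a ≤ EE D Φ b ↔ a ≤ b := by
  classical
  rw [← D.anti b a hb ha]
  constructor
  · intro h x0 y0 hxy
    by_contra hc
    obtain ⟨t0, ht0⟩ := exists_ne (1 : T5)
    obtain ⟨φ⟩ := ‹Nonempty Φ›
    have h1 : EE D Φ a 1 (fun z => if D.κ a x0 z.1 then t0 else 1) := by
      intro φ x y hxy'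
      have : (D.κ a x0 x) ↔ (D.κ a x0 y) :=
        ⟨fun h => (D.κ a).trans' h hxy', fun h => (D.κ a).trans' h ((D.κ a).symm' hxy')⟩
      simp [this]
    have h2 := h h1 φ x0 y0 hxy
    simp [(D.κ a).refl' x0, hc] at h2
    exact ht0 h2
  · intro h v w hvw φ x y hxy
    exact hvw φ x y (h hxy)

theorem EE_closed [Finite Φ] (ρ : Setoid (D.A × Φ → T5)) (l : L) (hl : f l = t)
    (hρl : EE D Φ l ≤ ρ) (hρ : ∀ g ∈ Sy f t (EE D Φ), ∀ x y, ρ x y → ρ (g x) (g y)) :
    ∃ c, f c = t ∧ ρ = EE D Φ c := by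
  classical
  have := D.fin
  have hS : ∃ a b : T5, a * b ≠ b * a := alternatingFive_noncomm
  obtain ⟨t0, ht0⟩ := exists_ne (1 : T5)
  have hmul : ∀ q v w, ρ v w → ρ (q * v) (q * w) := fun q v w h => hρ _ (mulL_mem D Φ q) v w h
  have hrei : ∀ p ∈ Sy f t D.κ, ∀ π v, ρ 1 v → ρ 1 (rei D Φ p π v) := by
    intro p hp π v h
    exact hρ _ (rei_mem hp π) 1 v h
  let U : Subgroup (D.A × Φ → T5) :=
    { carrier := {v | ρ 1 v}
      one_mem' := ρ.refl' _
      mul_mem' := by
        intro a b ha hb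
        have h1 := hmul a 1 b hb
        rw [mul_one] at h1
        exact ρ.trans' ha h1
      inv_mem' := by
        intro a ha
        have h1 := hmul a⁻¹ 1 a ha
        rw [mul_one, inv_mul_cancel] at h1
        exact ρ.symm' h1 }
  have hU : ∀ v, v ∈ U ↔ ρ 1 v := fun _ => Iff.rfl
  have hρU : ∀ v w, ρ v w ↔ v⁻¹ * w ∈ U := by
    intro v w
    rw [hU]
    constructor
    · intro h
      have h1 := hmul v⁻¹ v w h
      rwa [inv_mul_cancel] at h1
    · intro h
      have h1 := hmul v 1 _ h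
      rwa [mul_one, mul_inv_cancel_left] at h1
  have hblock : ∀ s : Φ → T5, (fun z : D.A × Φ => s z.2) ∈ U := by
    intro s
    rw [hU]
    exact hρl (fun φ x y _ => rfl)
  let θ : Setoid D.A :=
    { r := fun x y => ∀ ψ ∈ U, ∀ φ, ψ (x, φ) = ψ (y, φ)
      iseqv := ⟨fun x ψ _ φ => rfl, fun h ψ hψ φ => (h ψ hψ φ).symm,
        fun h h' ψ hψ φ => (h ψ hψ φ).trans (h' ψ hψ φ)⟩ }
  have hθ : ∀ x y, θ x y ↔ ∀ ψ ∈ U, ∀ φ, ψ (x, φ) = ψ (y, φ) := fun _ _ => Iff.rfl
  have key : ∀ (x y : D.A) (φ φ' : Φ), (∀ ψ ∈ U, ψ (x, φ) = ψ (y, φ')) → φ = φ' ∧ θ x y := by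
    intro x y φ φ' h
    have h1 : φ = φ' := by
      by_contra hne
      have h2 := h _ (hblock (fun φ'' => if φ'' = φ then t0 else 1))
      have h3 : ¬ φ' = φ := fun h => hne h.symm
      simp [h3] at h2
      exact ht0 h2
    subst h1
    refine ⟨rfl, ?_⟩
    intro ψ hψ φ''
    have h2 := h _ (hrei 1 (Sy f t D.κ).one_mem (Equiv.swap φ φ'') ψ hψ)
    simpa [rei_apply] using h2
  obtain ⟨c, hc, hθc⟩ := D.closed θ (by
    intro p hp x y hxy ψ hψ φ
    have h1 := hxy _ (hrei p hp 1 ψ hψ) φ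
    simpa [rei_apply] using h1)
  refine ⟨c, hc, ?_⟩
  apply Setoid.ext
  intro v w
  rw [hρU]
  constructor
  · intro h φ x y hxy
    rw [← hθc] at hxy
    exact hxy _ h φ
  · intro h
    refine mem_of_const_on_classes hS U (fun s => hblock (fun _ => s)) _ ?_
    rintro ⟨x, φ⟩ ⟨y, φ'⟩ hxy
    obtain ⟨h1, h2⟩ := key x y φ φ' hxy
    subst h1
    rw [hθc] at h2
    exact h φ x y h2

variable (D Φ)

/-- The level with blocks. -/
def mkLv [Finite Φ] [Nonempty Φ] : Lv f t where
  X := D.A × Φ → T5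
  fin := by
    have := D.fin
    exact inferInstance
  ne := ⟨1⟩
  E := EE D Φ
  mono := fun a b ha hb => EE_le_iff ha hb
  trans := fun v w => ⟨Equiv.mulLeft (w * v⁻¹), mulL_mem D Φ _, by
    show w * v⁻¹ * v = w
    group⟩
  closed := fun ρ l hl h1 h2 => EE_closed ρ l hl h1 h2

end

end Vale.Agent.P183.H238
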