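import Vale.Agent.P183.H238.Defs
import Vale.Agent.P183.H238.Level

/-!
Links between levels: tight links and transposed links.
-/

set_option linter.all false

namespace Vale.Agent.P183.H238

open Vale.Agent.P183

/-- The link from the fibre over `r` to the fibre over `t` is tight: whenever `x` in the lower
fibre is not below `y` in the upper fibre there are `u` in the lower fibre and `d` in the upper
fibre such that `x` is not below `u`, `d` is not below `y`, and every `z` in the lower fibre is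
below `u` or all the elements of the upper fibre above `z` are above `d`. -/
def TightLink {L K : Type} [Lattice L] [Lattice K] (f : LatticeHom L K) (r t : K) : Prop :=
  ∀ x y, f x = r → f y = t → ¬ x ≤ y → ∃ u d, f u = r ∧ f d = t ∧ ¬ x ≤ u ∧ ¬ d ≤ y ∧
    ∀ z, f z = r → z ≤ u ∨ ∀ w, f w = t → z ≤ w → d ≤ w

variable {L K : Type} [Lattice L] [Lattice K] {f : LatticeHom L K}

/-- The level `S` over `t` is linked to the product of the levels over the lower covers of `t`. -/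
def LinkP (hi : K → L) {t : K} (R : ∀ r : {r : K // r ⋖ t}, Lv f r.1) (S : Lv f t)
    (J : (∀ r, (R r).X) → S.X) : Prop :=
  (∀ l, f l = t → ∀ p p', S.E l (J p) (J p') ↔ ∀ r, (R r).E (l ⊓ hi r.1) (p r) (p' r)) ∧
    ∀ g : ∀ r, Equiv.Perm (R r).X, (∀ r, g r ∈ Sy f r.1 (R r).E) →
      ∃ γ ∈ Sy f t S.E, ∀ p, γ (J p) = J (fun r => g r (p r))

/-- The relations of a level are closed under intersections. -/
theorem Lv.inf {t : K} (S : Lv f t) (lo : L) (hlo : f lo = t) (hlo' : ∀ l, f l = t → lo ≤ l)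
    {a b : L} (ha : f a = t) (hb : f b = t) {x y : S.X} (h1 : S.E a x y) (h2 : S.E b x y) :
    S.E (a ⊓ b) x y := by
  obtain ⟨c, hc, hρ⟩ := S.closed (S.E a ⊓ S.E b) lo hlo
    (le_inf ((S.mono lo a hlo ha).2 (hlo' a ha)) ((S.mono lo b hlo hb).2 (hlo' b hb))) (by
    intro g hg x y hxy
    rw [Setoid.inf_iff_and] at hxy ⊢
    exact ⟨(hg a ha x y).2 hxy.1, (hg b hb x y).2 hxy.2⟩)
  have hca : c ≤ a := (S.mono c a hc ha).1 (by rw [← hρ]; exact inf_le_left)
  have hcb : c ≤ b := (S.mono c b hc hb).1 (by rw [← hρ]; exact inf_le_right)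
  have hab : f (a ⊓ b) = t := by rw [map_inf, ha, hb, inf_idem]
  have h3 : S.E c x y := by
    rw [← hρ, Setoid.inf_iff_and]
    exact ⟨h1, h2⟩
  exact (S.mono c (a ⊓ b) hc hab).2 (le_inf hca hcb) h3

/-- The greatest relation is the full one. -/
theorem Lv.top {t : K} (S : Lv f t) (hi : L) (hhi : f hi = t) (hhi' : ∀ l, f l = t → l ≤ hi)
    (x y : S.X) : S.E hi x y := by
  obtain ⟨c, hc, hρ⟩ := S.closed ⊤ hi hhi le_top (fun _ _ _ _ _ => trivial)
  have h1 : S.E c x y := by rw [← hρ]; trivial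
  exact (S.mono c hi hc hhi).2 (hhi' c hc) h1

/-- The least relation between two points. -/
theorem Lv.cg [Finite L] {t : K} (S : Lv f t) (lo hi : L) (hlo : f lo = t)
    (hlo' : ∀ l, f l = t → lo ≤ l) (hhi : f hi = t) (hhi' : ∀ l, f l = t → l ≤ hi) (x y : S.X) :
    ∃ z, f z = t ∧ S.E z x y ∧ ∀ l, f l = t → S.E l x y → z ≤ l := by
  obtain ⟨z, hz, hmin⟩ := (Set.toFinite {l : L | f l = t ∧ S.E l x y}).exists_minimal
    ⟨hi, hhi, S.top hi hhi hhi' x y⟩
  refine ⟨z, hz.1, hz.2, fun l hl h => ?_⟩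
  have h1 : z ⊓ l ∈ {l : L | f l = t ∧ S.E l x y} :=
    ⟨by rw [map_inf, hz.1, hl, inf_idem], S.inf lo hlo hlo' hz.1 hl hz.2 h⟩
  exact (hmin h1 inf_le_left).trans inf_le_right

/-- **Tight links**: a level over `t` linked to all the levels over the lower covers. -/
theorem exists_tight [Finite L] [Finite K] {lo hi : K → L} (hflo : ∀ k, f (lo k) = k)
    (hfhi : ∀ k, f (hi k) = k) (hlo : ∀ l, lo (f l) ≤ l) (hhi : ∀ l, l ≤ hi (f l)) {t : K}
    (D : Dl f t) (hs : ∀ r, r ⋖ t → TightLink f r t) (R : ∀ r : {r : K // r ⋖ t}, Lv f r.1) :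
    ∃ (S : Lv f t) (J : (∀ r, (R r).X) → S.X), LinkP hi R S J := by
  classical
  have hRf : ∀ r, Finite (R r).X := fun r => (R r).fin
  have hRn : ∀ r, Nonempty (R r).X := fun r => (R r).ne
  have := D.fin
  obtain ⟨t0, ht0⟩ := exists_ne (1 : T5)
  have hlo' : ∀ r l, f l = r → lo r ≤ l := fun r l h => by rw [← h]; exact hlo l
  have hhi' : ∀ r l, f l = r → l ≤ hi r := fun r l h => by rw [← h]; exact hhi l
  let Adm : ∀ r : {r : K // r ⋖ t}, Set (R r).X × (D.A → T5) → Prop := fun r q =>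
    ∀ z, f z = r.1 → (∃ a b, (R r).E z a b ∧ a ∈ q.1 ∧ b ∉ q.1) →
      ∀ x y, D.κ (z ⊔ lo t) x y → q.2 x = q.2 y
  let Φ : Type := Option (Σ r : {r : K // r ⋖ t}, {q : Set (R r).X × (D.A → T5) // Adm r q})
  have hΦf : Finite Φ := by
    have : ∀ r : {r : K // r ⋖ t}, Finite {q : Set (R r).X × (D.A → T5) // Adm r q} :=
      fun r => inferInstance
    exact inferInstanceAs
      (Finite (Option (Σ r : {r : K // r ⋖ t}, {q : Set (R r).X × (D.A → T5) // Adm r q})))
  have hΦn : Nonempty Φ := ⟨none⟩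
  let val : (∀ r, (R r).X) → D.A → Φ → T5 := fun p x φ =>
    match φ with
    | none => 1
    | some φ => if p φ.1 ∈ φ.2.1.1 then φ.2.1.2 x else 1
  let J : (∀ r, (R r).X) → (D.A × Φ → T5) := fun p z => val p z.1 z.2
  have hJ : ∀ p x (r : {r : K // r ⋖ t}) (φ : {q : Set (R r).X × (D.A → T5) // Adm r q}),
      J p (x, some ⟨r, φ⟩) = if p r ∈ φ.1.1 then φ.1.2 x else 1 := fun _ _ _ _ => rfl
  have hJn : ∀ p x, J p (x, none) = 1 := fun _ _ => rfl
  have hfl : ∀ l, f l = t → ∀ r : {r : K // r ⋖ t}, f (l ⊓ hi r.1) = r.1 := by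
    intro l hl r
    rw [map_inf, hl, hfhi, inf_eq_right.2 r.2.le]
  have hfz : ∀ z (r : {r : K // r ⋖ t}), f z = r.1 → f (z ⊔ lo t) = t := by
    intro z r hz
    rw [map_sup, hz, hflo, sup_eq_right.2 r.2.le]
  refine ⟨mkLv D Φ, J, ?_, ?_⟩
  · intro l hl p p'
    show BE (D.κ l) (J p) (J p') ↔ _
    constructor
    · intro hE r
      by_contra hR
      obtain ⟨x0, hx0, hx0E, hx0min⟩ := (R r).cg (lo r.1) (hi r.1) (hflo _) (hlo' _) (hfhi _)
        (hhi' _) (p r) (p' r)
      have hx0l : ¬ x0 ≤ l := by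
        intro hle
        exact hR (((R r).mono _ _ hx0 (hfl l hl r)).2 (le_inf hle (hhi' _ _ hx0)) hx0E)
      obtain ⟨u, d, hu, hd, hxu, hdl, hz⟩ := hs r.1 r.2 x0 l hx0 hl hx0l
      have hRu : ¬ (R r).E u (p r) (p' r) := fun h => hxu (hx0min u hu h)
      have hκ : ¬ D.κ l ≤ D.κ d := fun h => hdl ((D.anti l d hl hd).1 h)
      obtain ⟨a, b, hab, hab'⟩ : ∃ a b, D.κ l a b ∧ ¬ D.κ d a b := by
        by_contra hcon
        push Not at hcon
        exact hκ (fun x y hxy => hcon x y hxy)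
      let φ : {q : Set (R r).X × (D.A → T5) // Adm r q} :=
        ⟨({c | (R r).E u (p r) c}, fun x => if D.κ d a x then t0 else 1), by
        rintro z hzr ⟨b, b', hbb, hb, hb'⟩ x y hxy
        have hzu : ¬ z ≤ u := fun h =>
          hb' (((R r).E u).trans' hb (((R r).mono z u hzr hu).2 h hbb))
        have hdz : d ≤ z ⊔ lo t := by
          rcases hz z hzr with h | h
          · exact absurd h hzu
          · exact h _ (hfz z r hzr) le_sup_left
        have hxy' : D.κ d x y := (D.anti _ _ (hfz z r hzr) hd).2 hdz hxy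
        have : (D.κ d a x) ↔ (D.κ d a y) :=
          ⟨fun h => (D.κ d).trans' h hxy', fun h => (D.κ d).trans' h ((D.κ d).symm' hxy')⟩
        simp [this]⟩
      have ha : p r ∈ φ.1.1 := ((R r).E u).refl' (p r)
      have ha' : p' r ∉ φ.1.1 := hRu
      have h4 := hE (some ⟨r, φ⟩) a b hab
      rw [hJ, hJ, hJ, hJ, if_pos ha, if_neg ha', if_pos ha, if_neg ha'] at h4
      have h5 : φ.1.2 a = φ.1.2 b := by simpa using h4
      have h6 : φ.1.2 a = t0 := if_pos ((D.κ d).refl' a)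
      have h7 : φ.1.2 b = 1 := if_neg hab'
      rw [h6, h7] at h5
      exact ht0 h5
    · intro hR φ x y hxy
      match φ with
      | none => rfl
      | some ⟨r, φ⟩ =>
      have hle : (l ⊓ hi r.1) ⊔ lo t ≤ l := sup_le inf_le_left (hlo' t l hl)
      have hκ : D.κ ((l ⊓ hi r.1) ⊔ lo t) x y :=
        (D.anti l _ hl (hfz _ r (hfl l hl r))).2 hle hxy
      rw [hJ, hJ, hJ, hJ]
      by_cases ha : p r ∈ φ.1.1
      · by_cases ha' : p' r ∈ φ.1.1
        · simp [ha, ha']
        · have h5 := φ.2 _ (hfl l hl r) ⟨p r, p' r, hR r, ha, ha'⟩ x y hκ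
          simp [ha, ha', h5]
      · by_cases ha' : p' r ∈ φ.1.1
        · have h5 := φ.2 _ (hfl l hl r) ⟨p' r, p r, ((R r).E _).symm' (hR r), ha', ha⟩ x y hκ
          simp [ha, ha', h5]
        · simp [ha, ha']
  · intro g hg
    have hadm : ∀ r, ∀ g ∈ Sy f r.1 (R r).E, ∀ q, Adm r q → Adm r ({b | g b ∈ q.1}, q.2) := by
      rintro r g hg q hq z hz ⟨a, b, hab, ha, hb⟩
      exact hq z hz ⟨g a, g b, (hg z hz a b).2 hab, ha, hb⟩
    let π0 : ∀ r : {r : K // r ⋖ t}, Equiv.Perm {q : Set (R r).X × (D.A → T5) // Adm r q} :=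
      fun r =>
      { toFun := fun φ => ⟨_, hadm r (g r) (hg r) φ.1 φ.2⟩
        invFun := fun φ => ⟨_, hadm r (g r)⁻¹ ((Sy f r.1 (R r).E).inv_mem (hg r)) φ.1 φ.2⟩
        left_inv := by
          rintro ⟨⟨s, c⟩, hq⟩
          apply Subtype.ext
          refine Prod.ext ?_ rfl
          ext b
          show g r ((g r)⁻¹ b) ∈ s ↔ b ∈ s
          rw [show g r ((g r)⁻¹ b) = b from (g r).apply_symm_apply b]
        right_inv := by
          rintro ⟨⟨s, c⟩, hq⟩
          apply Subtype.ext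
          refine Prod.ext ?_ rfl
          ext b
          show (g r)⁻¹ (g r b) ∈ s ↔ b ∈ s
          rw [show (g r)⁻¹ (g r b) = b from (g r).symm_apply_apply b] }
    let π : Equiv.Perm Φ := Equiv.optionCongr (Equiv.sigmaCongrRight π0)
    refine ⟨rei D Φ 1 π, rei_mem (Sy f t D.κ).one_mem π, fun p => ?_⟩
    funext z
    obtain ⟨x, φ⟩ := z
    match φ with
    | none => rfl
    | some ⟨r, φ⟩ => rfl

/-- **Transposed links** exist from the level over the only lower cover. -/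
theorem exists_transposed {hi : K → L} (hfhi : ∀ k, f (hi k) = k) (hhi : ∀ l, l ≤ hi (f l))
    {r t : K} (hrt : r ⋖ t) (hu : ∀ r', r' ⋖ t → r' = r) (hs : TransposedLink f r t)
    (R : ∀ r : {r : K // r ⋖ t}, Lv f r.1) :
    ∃ (S : Lv f t) (J : (∀ r, (R r).X) → S.X), LinkP hi R S J := by
  obtain ⟨h, hh, hh', hs1, hs2⟩ := hs
  let r0 : {r : K // r ⋖ t} := ⟨r, hrt⟩
  have hr0 : ∀ r', r' = r0 := fun r' => Subtype.ext (hu r'.1 r'.2)
  have hhi : h = hi r := le_antisymm (by rw [← hh]; exact hhi h) (hh' _ (hfhi r))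
  have hf : ∀ l, f l = t → f (l ⊓ h) = r := by
    intro l hl
    rw [map_inf, hl, hh, inf_eq_right.2 hrt.le]
  have hSy : Sy f r (R r0).E ≤ Sy f t (fun l => (R r0).E (l ⊓ h)) := by
    intro g hg l hl x y
    exact hg _ (hf l hl) x y
  refine ⟨{ X := (R r0).X, fin := (R r0).fin, ne := (R r0).ne, E := fun l => (R r0).E (l ⊓ h),
            mono := ?_, trans := ?_, closed := ?_ }, fun p => p r0, ?_, ?_⟩
  · intro a b ha hb
    rw [(R r0).mono _ _ (hf a ha) (hf b hb)]
    constructor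
    · intro hab
      exact hs1 a b ha hb (hab.trans inf_le_left)
    · intro hab
      exact inf_le_inf_right _ hab
  · intro x y
    obtain ⟨g, hg, hgx⟩ := (R r0).trans x y
    exact ⟨g, hSy hg, hgx⟩
  · intro ρ l hl hlρ hinv
    obtain ⟨c, hc, hρ⟩ := (R r0).closed ρ _ (hf l hl) hlρ (fun g hg => hinv g (hSy hg))
    have hle : l ⊓ h ≤ c := ((R r0).mono _ _ (hf l hl) hc).1 (by rw [← hρ]; exact hlρ)
    obtain ⟨y', hy', hyc⟩ := hs2 c l hc hl hle
    exact ⟨y', hy', by rw [hρ, ← hyc]⟩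
  · intro l hl p p'
    constructor
    · intro h1 r'
      have := hr0 r'
      subst this
      show (R r0).E (l ⊓ hi r) (p r0) (p' r0)
      rw [← hhi]
      exact h1
    · intro h1
      have h2 := h1 r0
      show (R r0).E (l ⊓ h) (p r0) (p' r0)
      rw [hhi]
      exact h2
  · intro g hg
    exact ⟨g r0, hSy (hg r0), fun p => rfl⟩

end Vale.Agent.P183.H238
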