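import Vale.Agent.P183.H238.Final
import Vale.Agent.P183.H288.Code
import Vale.Agent.P183.H996.Eight
import Mathlib.Data.Set.Card
import Mathlib.Order.Hom.Lattice

/-!
Fibres with at most five elements over a chain.
-/

set_option linter.all false

namespace Vale.Agent.P183.H238

open Vale.Agent.P183 Vale.Agent.P183.H330 Vale.Agent.P183.H330D Vale.Agent.P183.H996
open Vale.Agent.P183.H330M (DistribOver)

theorem gi_M3 : GroupInterval (FO 5 0) :=
  FO.group_interval 4 100 [[1, 0, 3, 2], [2, 3, 0, 1]]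
    [[0, 1, 2, 3], [0, 0, 2, 2], [0, 1, 0, 1], [0, 1, 1, 0], [0, 0, 0, 0]] (by decide +kernel)

theorem gi_52 : GroupInterval (FO 5 2) :=
  FO.gi_dual [4, 2, 3, 1, 0] [4, 3, 1, 2, 0] (by decide +kernel) gi_N5

theorem gi_54 : GroupInterval (FO 5 4) :=
  FO.gi_dual [4, 3, 2, 1, 0] [4, 3, 2, 1, 0] (by decide +kernel) gi_N5

theorem small_chk : (allN 6 fun n => allN 8 fun b => impB (isLat n b)
    (distB n b 0 [0, 0, 0, 0, 0] || (n == 5 && (b == 0 || b == 1 || b == 2 || b == 4)))) = true := by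
  decide +kernel

theorem get_zero (x : ℕ) (hx : x < 6) : get [0, 0, 0, 0, 0] x = 0 := by
  have h : (allN 6 fun x => get [0, 0, 0, 0, 0] x == 0) = true := by decide +kernel
  simpa using allN_iff.1 h x hx

theorem distrib_FO {n b : ℕ} (hn : isLat n b = true) (hn6 : n < 6)
    (hd : distB n b 0 [0, 0, 0, 0, 0] = true) {X : Type} [Lattice X] (e : X ≃o FO n b)
    (x y z : X) : (x ⊓ y) ⊔ z = (x ⊔ z) ⊓ (y ⊔ z) := by
  let _ : Lattice (FO n b) := FO.lat hn
  have hsup : ∀ x y : FO n b, (x ⊔ y).v = jf n b x.v y.v := by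
    intro x y
    obtain ⟨h2, h3⟩ := isJn_jf hn x.v_lt y.v_lt
    simp only [isJn, Bool.and_eq_true] at h3
    have h4 : x ⊔ y ≤ FO.mk _ h2 := sup_le (a := x) (b := y) h3.1.1 h3.1.2
    have h5 : (FO.mk _ h2 : FO n b) ≤ x ⊔ y := by
      refine impB_iff.1 (allN_iff.1 h3.2 (x ⊔ y).v (x ⊔ y).v_lt) ?_
      rw [Bool.and_eq_true]
      exact ⟨le_sup_left (a := x) (b := y), le_sup_right (a := x) (b := y)⟩
    exact congrArg FO.v (le_antisymm h4 h5)
  have hinf : ∀ x y : FO n b, (x ⊓ y).v = mf n b x.v y.v := by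
    intro x y
    obtain ⟨h2, h3⟩ := isMt_mf hn x.v_lt y.v_lt
    simp only [isMt, Bool.and_eq_true] at h3
    have ha : (FO.mk _ h2 : FO n b) ≤ x := h3.1.1
    have hb : (FO.mk _ h2 : FO n b) ≤ y := h3.1.2
    have h4 : FO.mk _ h2 ≤ x ⊓ y := le_inf ha hb
    have h5 : x ⊓ y ≤ (FO.mk _ h2 : FO n b) := by
      refine impB_iff.1 (allN_iff.1 h3.2 (x ⊓ y).v (x ⊓ y).v_lt) ?_
      rw [Bool.and_eq_true]
      exact ⟨inf_le_left (a := x) (b := y), inf_le_right (a := x) (b := y)⟩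
    exact congrArg FO.v (le_antisymm h5 h4)
  have hF : ∀ x y z : FO n b, x ⊓ (y ⊔ z) ≤ (x ⊓ y) ⊔ (x ⊓ z) := by
    intro x y z
    have h2 := allN_iff.1 (allN_iff.1 (allN_iff.1 hd x.v x.v_lt) y.v y.v_lt) z.v z.v_lt
    have h3 := impB_iff.1 h2 (by
      have e1 : get [0, 0, 0, 0, 0] x.v = 0 := get_zero _ (x.v_lt.trans hn6)
      have e2 : get [0, 0, 0, 0, 0] y.v = 0 := get_zero _ (y.v_lt.trans hn6)
      have e3 : get [0, 0, 0, 0, 0] z.v = 0 := get_zero _ (z.v_lt.trans hn6)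
      simp [e1, e2, e3])
    rw [FO.le_def]
    simp only [hsup, hinf]
    exact h3
  have hX : ∀ x y z : X, x ⊓ (y ⊔ z) ≤ (x ⊓ y) ⊔ (x ⊓ z) := by
    intro x y z
    rw [← e.le_iff_le]
    have h1 : ∀ a b : X, e (a ⊔ b) = e a ⊔ e b := fun a b => OrderIso.map_sup e a b
    have h2 : ∀ a b : X, e (a ⊓ b) = e a ⊓ e b := fun a b => OrderIso.map_inf e a b
    rw [h1, h2, h2, h2, h1]
    exact hF _ _ _
  let _ : DistribLattice X := DistribLattice.ofInfSupLe hX
  exact sup_inf_right x y z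

/-- A lattice with at most five elements is distributive or a group interval. -/
theorem small_gi {X : Type} [Lattice X] [Finite X] [Nonempty X] (h : Nat.card X ≤ 5) :
    (∀ x y z : X, (x ⊓ y) ⊔ z = (x ⊔ z) ⊓ (y ⊔ z)) ∨ GroupInterval X := by
  obtain ⟨n, hn⟩ : ∃ n, Nat.card X = n := ⟨_, rfl⟩
  have hn5 : n ≤ 5 := by omega
  obtain ⟨b, hb, hl, ⟨e⟩⟩ := H288.exists_code8 (L := X) n (by omega) hn
  have hb8 : b < 8 := by
    refine lt_of_lt_of_le hb ?_
    interval_cases n <;> norm_num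
  have h1 := impB_iff.1 (allN_iff.1 (allN_iff.1 small_chk n (by omega)) b hb8) hl
  rw [Bool.or_eq_true] at h1
  rcases h1 with h1 | h1
  · exact Or.inl (distrib_FO hl (by omega) h1 e)
  · right
    simp only [Bool.and_eq_true, Bool.or_eq_true, beq_iff_eq] at h1
    obtain ⟨rfl, ((rfl | rfl) | rfl) | rfl⟩ := h1
    · exact GroupInterval.of_iso e gi_M3
    · exact GroupInterval.of_iso e gi_N5
    · exact GroupInterval.of_iso e gi_52
    · exact GroupInterval.of_iso e gi_54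

variable {L K : Type} [Lattice L] [Lattice K]

theorem fibre_five [Finite L] (f : LatticeHom L K) (hf : Function.Surjective f) (t : K)
    (h : {l : L | f l = t}.ncard ≤ 5) : DistribOver f t ∨ IsGroupInterval {l : L // f l = t} := by
  let _ : Lattice {l : L // f l = t} := Subtype.lattice
    (fun x y hx hy => by rw [map_sup, hx, hy, sup_idem])
    (fun x y hx hy => by rw [map_inf, hx, hy, inf_idem])
  have hne : Nonempty {l : L // f l = t} := by
    obtain ⟨l, hl⟩ := hf t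
    exact ⟨⟨l, hl⟩⟩
  rcases small_gi (X := {l : L // f l = t}) h with h1 | h1
  · exact Or.inl fun x y z hx hy hz => congrArg Subtype.val (h1 ⟨x, hx⟩ ⟨y, hy⟩ ⟨z, hz⟩)
  · exact Or.inr h1

/-- A link between fibres with at most five elements is tight or transposed. -/
theorem link_five [Finite L] {f : LatticeHom L K} {lo hi : K → L} (hflo : ∀ k, f (lo k) = k)
    (hfhi : ∀ k, f (hi k) = k) (hlo : ∀ l, lo (f l) ≤ l) (hhi : ∀ l, l ≤ hi (f l)) {r t : K}
    (hrt : r ≤ t) (hr : {l : L | f l = r}.ncard ≤ 5) (ht : {l : L | f l = t}.ncard ≤ 5) :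
    TightLink f r t ∨ TransposedLink f r t := by
  have hup : ∀ z, f z = r → f (z ⊔ lo t) = t := fun z hz => by
    rw [map_sup, hz, hflo, sup_eq_right.2 hrt]
  by_cases hc : {w : L | ∃ z, f z = r ∧ z ⊔ lo t = w}.ncard ≤ 4
  · exact Or.inl (tight_of_four hrt hflo hlo hc)
  right
  have himg : (fun z => z ⊔ lo t) '' {l : L | f l = r} =
      {w : L | ∃ z, f z = r ∧ z ⊔ lo t = w} := rfl
  have hsub : {w : L | ∃ z, f z = r ∧ z ⊔ lo t = w} ⊆ {l : L | f l = t} := by
    rintro w ⟨z, hz, rfl⟩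
    exact hup z hz
  have heq : {w : L | ∃ z, f z = r ∧ z ⊔ lo t = w} = {l : L | f l = t} :=
    Set.eq_of_subset_of_ncard_le hsub (by omega) (Set.toFinite _)
  have hle : ((fun z => z ⊔ lo t) '' {l : L | f l = r}).ncard ≤ {l : L | f l = r}.ncard :=
    Set.ncard_image_le (Set.toFinite _)
  have hinj : Set.InjOn (fun z => z ⊔ lo t) {l : L | f l = r} :=
    Set.injOn_of_ncard_image_eq (by rw [himg] at hle ⊢; omega) (Set.toFinite _)
  refine transposed_of_bij hrt hflo hfhi hlo hhi ?_ ?_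
  · intro w hw
    have : w ∈ {w : L | ∃ z, f z = r ∧ z ⊔ lo t = w} := by rw [heq]; exact hw
    exact this
  · intro z z' hz hz' h
    exact hinj hz hz' h

/-- **Fibres with at most five elements over a chain.** -/
theorem over_chain_five [Finite L] [Nonempty L] (f : LatticeHom L K) (hf : Function.Surjective f)
    (hch : ∀ p q : K, p ≤ q ∨ q ≤ p) (h5 : ∀ t, {l : L | f l = t}.ncard ≤ 5) :
    Representable L := by
  obtain ⟨lo, hi, hflo, hfhi, hlo, hhi⟩ := exists_lo_hi_fin f hf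
  exact over_chain f hf hch (fun t => fibre_five f hf t (h5 t)) (fun r t hrt =>
    Or.inr (Or.inr (link_five hflo hfhi hlo hhi hrt.le (h5 r) (h5 t))))

end Vale.Agent.P183.H238
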