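import Vale.Agent.P183.H238.Wide
import Vale.Agent.P183.H238.Small

/-!
Consequences of the extension theorem; reduction of the problem.
-/

set_option linter.all false

namespace Vale.Agent.P183.H238

open Vale.Agent.P183 Vale.Agent.P183.H330 Vale.Agent.P183.H330D
open Vale.Agent.P183.H330M (DistribOver)

variable {L K : Type} [Lattice L] [Lattice K]

/-- Tight fibres are tight above, with the up-set of all elements. -/
theorem above_of_tight [Finite L] {f : LatticeHom L K} (hf : Function.Surjective f)
    (h : TightFibres f) : TightAbove f := by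
  have hKf : Finite K := Finite.of_surjective f hf
  obtain ⟨lo, hi, hflo, hfhi, hlo, hhi⟩ := exists_lo_hi_fin f hf
  have hlo' : ∀ k l, k ≤ f l → lo k ≤ l := by
    intro k l h
    have h1 : f (lo k ⊓ l) = k := by rw [map_inf, hflo, inf_eq_left.2 h]
    have h3 := hlo (lo k ⊓ l)
    rw [h1] at h3
    exact h3.trans inf_le_right
  obtain ⟨h1, h2, h3⟩ := h
  have hhi2 : ∀ q z, f z = q → z ≤ hi q := fun q z hz => by rw [← hz]; exact hhi z
  have hhimono : ∀ p q, p ≤ q → hi p ≤ hi q := by
    intro p q hpq
    have h1 : f (hi p ⊔ hi q) = q := by rw [map_sup, hfhi, hfhi, sup_eq_right.2 hpq]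
    exact le_sup_left.trans (hhi2 _ _ h1)
  have hcov : ∀ s t : K, s < t → ∃ r, r ⋖ t ∧ s ≤ r := by
    intro s t hst
    obtain ⟨r, hr, hmax⟩ := (Set.toFinite {r : K | s ≤ r ∧ r < t}).exists_maximal ⟨s, le_rfl, hst⟩
    refine ⟨r, ⟨hr.2, fun c hrc hct => ?_⟩, hr.1⟩
    exact absurd (hmax ⟨hr.1.trans hrc.le, hct⟩ hrc.le) (not_le_of_gt hrc)
  refine ⟨Set.univ, fun _ _ _ _ => Set.mem_univ _, fun t ht => absurd (Set.mem_univ t) ht,
    fun t _ => ?_, fun t r r' _ _ hr hr' hn1 hn2 _ => Or.inl ?_⟩
  swap
  · intro x y hx hy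
    have hst : r ⊔ r' ≤ t := sup_le hr.le hr'.le
    have hrs : r < r ⊔ r' := lt_of_le_of_ne le_sup_left (fun h => hn2 (by
      have : r' ≤ r ⊔ r' := le_sup_right
      rwa [← h] at this))
    have hrs' : r' < r ⊔ r' := lt_of_le_of_ne le_sup_right (fun h => hn1 (by
      have : r ≤ r ⊔ r' := le_sup_left
      rwa [← h] at this))
    obtain ⟨c, hc, hrc⟩ := hcov r _ hrs
    obtain ⟨c', hc', hrc'⟩ := hcov r' _ hrs'
    have hne : c ≠ c' := by
      intro h
      subst h
      exact absurd (sup_le hrc hrc') (not_le_of_gt hc.lt)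
    have key : hi (c ⊓ c') ≤ lo (r ⊔ r') := h3 c c' _ hc hc' hne _ _ (hfhi _) (hflo _)
    refine (hhi2 _ _ hx).trans ((hhimono _ _ (inf_le_inf hrc hrc')).trans (key.trans ?_))
    exact hlo' _ _ (by rw [hy]; exact hst)
  rcases h1 t with hd | hg
  · exact Or.inl hd
  right
  refine ⟨hg, ?_⟩
  by_cases ht : ∀ r, r ⋖ t → TightLink f r t
  · exact Or.inl (compat_of_tight hflo hfhi hlo' hhi ht
      (fun r r' hr hr' hne => h3 r r' t hr hr' hne))
  · push Not at ht
    obtain ⟨r, hrt, hr⟩ := ht
    rcases h2 r t hrt with h | h | h | h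
    · exact absurd (tight_of_lower hrt.le hflo hfhi hlo hhi h) hr
    · exact absurd (tight_of_upper hrt.le hflo hlo h) hr
    · exact absurd h hr
    · exact Or.inr ⟨r, Set.mem_univ r, hrt, h.2, h.1⟩

/-- **Reduction of the problem.** -/
theorem reduction :
    (∀ (L : Type) [Lattice L] [Finite L] [Nonempty L], Representable L) ↔
      ∀ (L : Type) [Lattice L] [Finite L] [Nonempty L], TightIrreducible L → Representable L := by
  constructor
  · intro h L _ _ _ _
    exact h L
  intro H
  have key : ∀ n, ∀ (L : Type) [Lattice L] [Finite L] [Nonempty L], Nat.card L = n →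
      Representable L := by
    intro n
    induction n using Nat.strong_induction_on with
    | _ n ih =>
      intro L _ _ _ hn
      have hsm : ∀ (K : Type) (_ : Lattice K) (f : LatticeHom L K), Function.Surjective f →
          ¬ Function.Injective f → Representable K := by
        intro K _ f hs hf
        have hfin : Finite K := Finite.of_surjective _ hs
        have hnon : Nonempty K := ⟨f (Classical.arbitrary L)⟩
        refine ih _ ?_ K rfl
        rw [← hn]
        cases nonempty_fintype L
        cases nonempty_fintype K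
        rw [Nat.card_eq_fintype_card, Nat.card_eq_fintype_card]
        exact Fintype.card_lt_of_surjective_not_injective f hs hf
      have him : ∀ (K : Type) (_ : Lattice K) (f : LatticeHom L K), ¬ Function.Injective f →
          Representable (imS f) := by
        intro K _ f hf
        have hfin : Finite (imS f) := Finite.of_surjective _ (toIm_surj f)
        have hnon : Nonempty (imS f) := ⟨toIm f (Classical.arbitrary L)⟩
        exact ih _ (by rw [← hn]; exact card_im_lt f hf) (imS f) rfl
      by_cases h1 : SubdirectlyIrreducible L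
      · by_cases h2 : TightIrreducible L
        · exact H L h2
        · unfold TightIrreducible at h2
          push Not at h2
          obtain ⟨K, _, f, hs, hf, hd⟩ := h2 h1
          by_cases ht : TightAbove f
          · exact ext_above f hs (hsm K _ f hs hf) ht
          · exact ext_above_dual f hs (hsm K _ f hs hf) (hd ht)
      · apply representable_of_separated
        intro a b hab
        have h3 : ∃ (K : Type) (_ : Lattice K) (f : LatticeHom L K),
            ¬ Function.Injective f ∧ f a ≠ f b := by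
          by_contra hc
          push Not at hc
          exact h1 ⟨a, b, hab, hc⟩
        obtain ⟨K, _, f, hf, hne⟩ := h3
        refine ⟨imS f, inferInstance, toIm f, toIm_surj f, him K _ f hf, ?_⟩
        intro h
        exact hne (congrArg Subtype.val h)
  intro L _ _ _
  exact key _ L rfl

/-- The greatest fibre is a group interval with compatibly tight links, the other fibres are
distributive. -/
theorem above_of_top {f : LatticeHom L K} (m : K) (hm : ∀ k, k ≤ m)
    (hg : IsGroupInterval {l : L // f l = m}) (hc : CompatTight f m)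
    (hd : ∀ t, t ≠ m → DistribOver f t) : TightAbove f := by
  refine ⟨{m}, ?_, fun t ht => Or.inl (hd t ht), ?_, ?_⟩
  · intro a b hab ha
    have ha' : a = m := ha
    have : b = m := le_antisymm (hm b) (by rw [← ha']; exact hab)
    exact this
  · intro t ht
    have ht' : t = m := ht
    subst ht'
    exact Or.inr ⟨hg, Or.inl hc⟩
  · intro t r r' ht hmax
    have ht' : t = m := ht
    subst ht'
    exact absurd (fun k _ => hm k) hmax

/-- A fibre above chains is compatibly tight. -/
theorem compat_of_chain [Finite L] {f : LatticeHom L K} {lo hi : K → L}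
    (hflo : ∀ k, f (lo k) = k) (hlo : ∀ k l, k ≤ f l → lo k ≤ l) {t : K}
    (hc : ∀ q, q < t → ∀ x y, f x = q → f y = q → x ≤ y ∨ y ≤ x) : CompatTight f t := by
  classical
  intro r x y hr hx hy hxy
  have hft : ∀ q z, q ≤ t → f z = q → f (z ⊔ lo t) = t := fun q z hq hz => by
    rw [map_sup, hz, hflo, sup_eq_right.2 hq]
  have hmx : ∀ q, q < t → ∃ u, f u = q ∧ ∀ z, f z = q → (z ≤ u ↔ ¬ x ⊔ lo t ≤ z ⊔ lo t) := by
    intro q hq
    obtain ⟨u, ⟨hu1, hu2⟩, hmax⟩ :=
      (Set.toFinite {z : L | f z = q ∧ ¬ x ⊔ lo t ≤ z ⊔ lo t}).exists_maximal ⟨lo q, hflo q, by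
        have h1 : lo q ≤ lo t := hlo _ _ (by rw [hflo]; exact hq.le)
        rw [sup_eq_right.2 h1]
        exact fun h => hxy ((le_sup_left.trans h).trans (hlo _ _ hy.ge))⟩
    refine ⟨u, hu1, fun z hz => ⟨fun h h' => hu2 (h'.trans (sup_le_sup_right h _)), fun h => ?_⟩⟩
    rcases hc q hq u z hu1 hz with h1 | h1
    · exact hmax ⟨hz, h⟩ h1
    · exact h1
  have hLn : Nonempty L := ⟨x⟩
  choose! u hu1 hu2 using hmx
  refine ⟨u, x ⊔ lo t, hft r x hr.le hx, fun h => hxy (le_sup_left.trans h),
    fun h => (hu2 r hr.lt x hx).1 h le_rfl, hu1, ?_, ?_⟩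
  · intro s q z hsq hq hz
    have hs : s < t := hsq.trans_lt hq
    rw [hu2 s hs z hz]
    have h1 : z ≤ u q ↔ z ⊔ lo q ≤ u q :=
      ⟨fun h => sup_le h (hlo _ _ (hu1 q hq).ge), fun h => le_sup_left.trans h⟩
    have h2 : z ⊔ lo q ⊔ lo t = z ⊔ lo t := by
      rw [sup_assoc, sup_eq_right.2 (hlo _ _ (by rw [hflo]; exact hq.le) : lo q ≤ lo t)]
    rw [h1, hu2 q hq (z ⊔ lo q) (by rw [map_sup, hz, hflo, sup_eq_right.2 hsq]), h2]
  · intro q z hq hz
    by_cases h : x ⊔ lo t ≤ z ⊔ lo t
    · right
      intro w hw hzw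
      exact h.trans (sup_le hzw (hlo _ _ hw.ge))
    · exact Or.inl ((hu2 q hq z hz).2 h)

/-- The fibres over a set `T` are arbitrary group intervals, the other fibres are distributive;
below an element `t` of `T` all fibres are chains, or `t` has at most one lower cover, which is not
in `T`; above an element of `T` the fibre over an element `t` which is not maximal is a chain, or
the elements below `t` form a chain. -/
theorem above_of_set [Finite L] {f : LatticeHom L K} (hf : Function.Surjective f) (T : Set K)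
    (h1 : ∀ t ∈ T, (∀ q, q < t → ∀ x y, f x = q → f y = q → x ≤ y ∨ y ≤ x) ∨
      ∀ r r', r ⋖ t → r' ⋖ t → r = r' ∧ r ∉ T)
    (h2 : ∀ t ∈ T, IsGroupInterval {l : L // f l = t}) (h3 : ∀ t, t ∉ T → DistribOver f t)
    (h4 : ∀ s t, s ∈ T → s < t → ¬ IsMax t → (∀ x y, f x = t → f y = t → x ≤ y ∨ y ≤ x) ∨
      ∀ r r', r < t → r' < t → r ≤ r' ∨ r' ≤ r) : TightAbove f := by
  have hKf : Finite K := Finite.of_surjective f hf
  obtain ⟨lo, hi, hflo, hfhi, hlo, hhi⟩ := exists_lo_hi_fin f hf
  have hlo' : ∀ k l, k ≤ f l → lo k ≤ l := by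
    intro k l h
    have h1 : f (lo k ⊓ l) = k := by rw [map_inf, hflo, inf_eq_left.2 h]
    have h3 := hlo (lo k ⊓ l)
    rw [h1] at h3
    exact h3.trans inf_le_right
  refine ⟨{t | ∃ s ∈ T, s ≤ t}, ?_, ?_, ?_, ?_⟩
  · rintro a b hab ⟨s, hs, hsa⟩
    exact ⟨s, hs, hsa.trans hab⟩
  · intro t ht
    exact Or.inl (h3 t (fun h => ht ⟨t, h, le_rfl⟩))
  · intro t _
    by_cases htT : t ∈ T
    · refine Or.inr ⟨h2 t htT, Or.inl ?_⟩
      rcases h1 t htT with h | h
      · exact compat_of_chain (hi := hi) hflo hlo' h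
      · refine compat_of_tight hflo hfhi hlo' hhi (fun r hr => ?_) (fun r r' hr hr' hne => ?_)
        · exact tight_of_lower hr.le hflo hfhi hlo hhi (h3 r (h r r hr hr).2)
        · exact absurd (h r r' hr hr').1 hne
    · exact Or.inl (h3 t htT)
  · rintro t r r' _ hmax hr hr' hn1 hn2 ⟨s, hs, hsr⟩
    rcases h4 s t hs (hsr.trans_lt hr) hmax with h | h
    · right
      have hch : ∀ r, ChainTrace f r t := by
        intro r y y' hy hy'
        rcases h y y' hy hy' with h5 | h5
        · exact Or.inl fun x _ hx => hx.trans h5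
        · exact Or.inr fun x _ hx => hx.trans h5
      refine ⟨?_, hch r, fun _ => hch r'⟩
      intro x y z hx hy hz
      rcases h x y hx hy with h5 | h5
      · rw [inf_eq_left.2 h5, inf_eq_left.2 (sup_le_sup_right h5 z)]
      · rw [inf_eq_right.2 h5, inf_eq_right.2 (sup_le_sup_right h5 z)]
    · rcases h r r' hr hr' with h5 | h5
      · exact absurd h5 hn1
      · exact absurd h5 hn2

/-- **All fibres are chains except those over an antichain**, which are arbitrary group
intervals. -/
theorem above_of_antichain [Finite L] {f : LatticeHom L K} (hf : Function.Surjective f)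
    (T : Set K) (hT : IsAntichain (· ≤ ·) T) (h2 : ∀ t ∈ T, IsGroupInterval {l : L // f l = t})
    (h3 : ∀ t, t ∉ T → ∀ x y, f x = t → f y = t → x ≤ y ∨ y ≤ x) : TightAbove f := by
  have hd : ∀ t, t ∉ T → DistribOver f t := by
    intro t ht x y z hx hy hz
    rcases h3 t ht x y hx hy with h5 | h5
    · rw [inf_eq_left.2 h5, inf_eq_left.2 (sup_le_sup_right h5 z)]
    · rw [inf_eq_right.2 h5, inf_eq_right.2 (sup_le_sup_right h5 z)]
  refine above_of_set hf T (fun t ht => Or.inl fun q hq => h3 q (fun hqT => ?_)) h2 hd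
    (fun s t hs hst _ => Or.inl (h3 t fun htT => ?_))
  · exact hq.ne (hT.eq hqT ht hq.le)
  · exact hst.ne (hT.eq hs htT hst.le)

end Vale.Agent.P183.H238
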