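import Vale.Agent.P183.H238.Core
import Vale.Agent.P183.H330D.Spc

/-!
From levels to spaces with a distance.
-/

set_option linter.all false

namespace Vale.Agent.P183.H238

open Vale.Agent.P183 Vale.Agent.P183.H330 Vale.Agent.P183.H330G Vale.Agent.P183.H330D

variable {L K : Type} [Lattice L] [Lattice K] {f : LatticeHom L K} {lo hi : K → L} {t : K}

/-- The quotient of a level by its least relation. -/
theorem exists_quot (S : Lv f t) (hflo : f (lo t) = t) (hlo' : ∀ l, f l = t → lo t ≤ l) :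
    ∃ (T : Lv f t) (mk : S.X → T.X), Function.Surjective mk ∧
      (∀ l, f l = t → ∀ x y, T.E l (mk x) (mk y) ↔ S.E l x y) ∧
      ∀ x y, T.E (lo t) x y ↔ x = y := by
  classical
  have := S.fin
  let Q := Quotient (S.E (lo t))
  let mk : S.X → Q := Quotient.mk (S.E (lo t))
  have hmk : ∀ x y, mk x = mk y ↔ S.E (lo t) x y := fun x y => Quotient.eq
  have hsurj : Function.Surjective mk := Quotient.mk_surjective
  have hout : ∀ x, S.E (lo t) (mk x).out x := fun x => (hmk _ _).1 (Quotient.out_eq _)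
  have hE : ∀ l, f l = t → ∀ x y, S.E l (mk x).out (mk y).out ↔ S.E l x y := by
    intro l hl x y
    have h1 : S.E (lo t) ≤ S.E l := (S.mono _ _ hflo hl).2 (hlo' l hl)
    constructor
    · intro h
      exact (S.E l).trans' ((S.E l).symm' (h1 (hout x))) ((S.E l).trans' h (h1 (hout y)))
    · intro h
      exact (S.E l).trans' (h1 (hout x)) ((S.E l).trans' h ((S.E l).symm' (h1 (hout y))))
  let E : L → Setoid Q := fun l => Setoid.comap Quotient.out (S.E l)
  have hEd : ∀ l a b, E l a b ↔ S.E l a.out b.out := fun _ _ _ => Iff.rfl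
  have hperm : ∀ g ∈ Sy f t S.E, ∃ π ∈ Sy f t E, ∀ x, π (mk x) = mk (g x) := by
    intro g hg
    have hg' := (Sy f t S.E).inv_mem hg
    obtain ⟨π, hπ⟩ := exists_perm_mk mk hsurj (fun x => g x) (fun x => g⁻¹ x) (by
      intro x y h
      rw [hmk] at h ⊢
      exact (hg _ hflo _ _).2 h) (by
      intro x y h
      rw [hmk] at h ⊢
      exact (hg' _ hflo _ _).2 h) (fun x => g.symm_apply_apply x) (fun x => g.apply_symm_apply x)
    refine ⟨π, ?_, hπ⟩
    intro l hl a b
    obtain ⟨x, rfl⟩ := hsurj a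
    obtain ⟨y, rfl⟩ := hsurj b
    rw [hπ, hπ, hEd, hEd, hE l hl, hE l hl]
    exact hg l hl x y
  refine ⟨{ X := Q, fin := inferInstance, ne := ⟨mk S.ne.some⟩, E := E,
            mono := ?_, trans := ?_, closed := ?_ }, mk, hsurj, ?_, ?_⟩
  · intro a b ha hb
    rw [← S.mono a b ha hb]
    constructor
    · intro h x y hxy
      have h1 : E a (mk x) (mk y) := (hE a ha x y).2 hxy
      exact (hE b hb x y).1 (h h1)
    · intro h x y hxy
      exact h hxy
  · intro a b
    obtain ⟨x, rfl⟩ := hsurj a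
    obtain ⟨y, rfl⟩ := hsurj b
    obtain ⟨g, hg, hgx⟩ := S.trans x y
    obtain ⟨π, hπ, hπx⟩ := hperm g hg
    exact ⟨π, hπ, by rw [hπx, hgx]⟩
  · intro ρ l hl hlρ hinv
    obtain ⟨c, hc, hρ⟩ := S.closed (Setoid.comap mk ρ) l hl (by
      intro x y hxy
      exact hlρ ((hE l hl x y).2 hxy)) (by
      intro g hg x y hxy
      obtain ⟨π, hπ, hπx⟩ := hperm g hg
      have h1 := hinv π hπ _ _ hxy
      show ρ (mk (g x)) (mk (g y))
      rw [← hπx, ← hπx]
      exact h1)
    refine ⟨c, hc, ?_⟩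
    apply Setoid.ext
    intro a b
    obtain ⟨x, rfl⟩ := hsurj a
    obtain ⟨y, rfl⟩ := hsurj b
    rw [hEd, hE c hc, ← hρ]
    exact Iff.rfl
  · intro l hl x y
    exact hE l hl x y
  · intro a b
    obtain ⟨x, rfl⟩ := hsurj a
    obtain ⟨y, rfl⟩ := hsurj b
    rw [hmk]
    exact hE _ hflo x y

/-- A space which is a level. -/
def LvS (S : Sp f lo t) : Prop :=
  (∀ a b, f a = t → f b = t → (∀ x y, S.d x y ≤ a → S.d x y ≤ b) → a ≤ b) ∧
  (∀ x y, ∃ g ∈ isoSub S, g x = y) ∧
  ∀ (ρ : Setoid S.X) (l : L), f l = t → (∀ x y, S.d x y ≤ l → ρ x y) →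
    (∀ g ∈ isoSub S, ∀ x y, ρ x y → ρ (g x) (g y)) → ∃ c, f c = t ∧ ∀ x y, ρ x y ↔ S.d x y ≤ c

/-- From a space to a level. -/
theorem exists_lv (S : Sp f lo t) (hlo' : ∀ l, f l = t → lo t ≤ l) (h : LvS S) :
    ∃ (T : Lv f t) (e : S.X → T.X), Function.Surjective e ∧
      ∀ x y l, f l = t → (T.E l (e x) (e y) ↔ S.d x y ≤ l) := by
  let E : L → Setoid S.X := fun l =>
    { r := fun x y => f l = t → S.d x y ≤ l
      iseqv := ⟨fun x hl => by rw [(S.self x x).2 rfl]; exact hlo' l hl,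
        fun {x y} h hl => by rw [S.symm]; exact h hl,
        fun {x y z} h h' hl => (S.tri x y z).trans (sup_le (h hl) (h' hl))⟩ }
  have hE : ∀ l, f l = t → ∀ x y, E l x y ↔ S.d x y ≤ l := fun l hl x y =>
    ⟨fun h => h hl, fun h _ => h⟩
  have hSy : ∀ g, g ∈ Sy f t E ↔ g ∈ isoSub S := by
    intro g
    constructor
    · intro hg x y
      refine le_antisymm ?_ ?_
      · rw [← hE _ (S.fd x y), hg _ (S.fd x y), hE _ (S.fd x y)]
      · rw [← hE _ (S.fd _ _), ← hg _ (S.fd _ _), hE _ (S.fd _ _)]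
    · intro hg l hl x y
      have h1 : S.d (g x) (g y) = S.d x y := hg x y
      rw [hE l hl, hE l hl, h1]
  refine ⟨{ X := S.X, fin := S.fin, ne := S.ne, E := E, mono := ?_, trans := ?_, closed := ?_ },
    id, Function.surjective_id, fun x y l hl => hE l hl x y⟩
  · intro a b ha hb
    constructor
    · intro hab
      refine h.1 a b ha hb (fun x y hxy => ?_)
      exact (hE b hb x y).1 (hab ((hE a ha x y).2 hxy))
    · intro hab x y hxy
      exact (hE b hb x y).2 (((hE a ha x y).1 hxy).trans hab)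
  · intro x y
    obtain ⟨g, hg, hgx⟩ := h.2.1 x y
    exact ⟨g, (hSy g).2 hg, hgx⟩
  · intro ρ l hl hlρ hinv
    obtain ⟨c, hc, hρ⟩ := h.2.2 ρ l hl (fun x y hxy => hlρ ((hE l hl x y).2 hxy))
      (fun g hg => hinv g ((hSy g).2 hg))
    refine ⟨c, hc, ?_⟩
    apply Setoid.ext
    intro x y
    rw [hρ, hE c hc]

/-- From a level to a space with a distance. -/
theorem exists_sp [Finite L] (S : Lv f t) (hflo : f (lo t) = t) (hfhi : f (hi t) = t)
    (hlo' : ∀ l, f l = t → lo t ≤ l) (hhi' : ∀ l, f l = t → l ≤ hi t) :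
    ∃ (T : Sp f lo t) (mk : S.X → T.X), Function.Surjective mk ∧
      (∀ x y l, f l = t → (T.d (mk x) (mk y) ≤ l ↔ S.E l x y)) ∧
      (∀ ω, IntOK T (isoSub T) ω) ∧ LvS T := by
  classical
  obtain ⟨S', mk, hmk, hE, heq⟩ := exists_quot (lo := lo) S hflo hlo'
  choose d hd1 hd2 hd3 using fun x y => S'.cg (lo t) (hi t) hflo hlo' hfhi hhi' x y
  have hd : ∀ x y l, f l = t → (d x y ≤ l ↔ S'.E l x y) := fun x y l hl =>
    ⟨fun h => (S'.mono _ _ (hd1 x y) hl).2 h (hd2 x y), fun h => hd3 x y l hl h⟩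
  let T : Sp f lo t :=
    { X := S'.X
      fin := S'.fin
      ne := S'.ne
      d := d
      fd := hd1
      self := by
        intro x y
        rw [← heq, ← hd x y _ hflo]
        exact ⟨fun h => h.le, fun h => le_antisymm h (hlo' _ (hd1 x y))⟩
      symm := by
        have key : ∀ x y, d x y ≤ d y x := fun x y =>
          (hd x y _ (hd1 y x)).2 ((S'.E _).symm' (hd2 y x))
        exact fun x y => le_antisymm (key x y) (key y x)
      tri := by
        intro x y z
        have hfl : f (d x y ⊔ d y z) = t := by rw [map_sup, hd1, hd1, sup_idem]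
        rw [hd x z _ hfl]
        exact (S'.E _).trans' ((hd x y _ hfl).1 le_sup_left) ((hd y z _ hfl).1 le_sup_right) }
  have hiso : ∀ g : Equiv.Perm S'.X, g ∈ Sy f t S'.E ↔ g ∈ isoSub T := by
    intro g
    constructor
    · intro hg x y
      show d (g x) (g y) = d x y
      refine le_antisymm ?_ ?_
      · rw [hd _ _ _ (hd1 x y), hg _ (hd1 x y)]
        exact hd2 x y
      · rw [hd _ _ _ (hd1 _ _), ← hg _ (hd1 _ _)]
        exact hd2 _ _
    · intro hg l hl x y
      rw [← hd _ _ l hl, ← hd _ _ l hl]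
      have h1 : d (g x) (g y) = d x y := hg x y
      rw [h1]
  refine ⟨T, mk, hmk, ?_, ?_, ?_, ?_, ?_⟩
  · intro x y l hl
    show d (mk x) (mk y) ≤ l ↔ _
    rw [hd _ _ l hl, hE l hl]
  · intro ω
    constructor
    · intro W hW1 hW2
      obtain ⟨c, hc, hcW⟩ := S'.int1 (lo t) hflo ω W (fun g hg => (hiso g).2 (hW1 hg)) (by
        intro g hg h
        exact hW2 g ((hiso g).1 hg) ((heq _ _).1 h))
      refine ⟨c, hc, fun g hg => ?_⟩
      show g ∈ W ↔ d (g ω) ω ≤ c
      rw [hcW g ((hiso g).2 hg), hd _ _ c hc]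
    · intro a b ha hb hab
      refine S'.int2 ω ha hb (fun g hg h => ?_)
      rw [← hd _ _ b hb]
      exact hab g ((hiso g).1 hg) ((hd _ _ a ha).2 h)
  · intro a b ha hb hab
    rw [← S'.mono a b ha hb]
    intro x y hxy
    exact (hd x y b hb).1 (hab x y ((hd x y a ha).2 hxy))
  · intro x y
    obtain ⟨g, hg, hgx⟩ := S'.trans x y
    exact ⟨g, (hiso g).1 hg, hgx⟩
  · intro ρ l hl hlρ hinv
    obtain ⟨c, hc, hρ⟩ := S'.closed ρ l hl (by
      intro x y hxy
      exact hlρ x y ((hd x y l hl).2 hxy)) (fun g hg => hinv g ((hiso g).1 hg))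
    refine ⟨c, hc, fun x y => ?_⟩
    show ρ x y ↔ d x y ≤ c
    rw [hd x y c hc, hρ]

end Vale.Agent.P183.H238
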