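import Vale.Agent.P183.H238.Blocks

/-!
One step of the construction: a tight level.
-/

set_option linter.all false

namespace Vale.Agent.P183.H238

open Vale.Agent.P183 Vale.Agent.P183.H330 Vale.Agent.P183.H330G

variable {L K : Type} [Lattice L] [Lattice K] {f : LatticeHom L K} {lo hi : K → L}

/-- A nearest point in a lower space. -/
theorem exists_near [Finite L] {N : Set K} {S : ∀ t, Sp f lo t}
    {B : ∀ t, Subgroup (Equiv.Perm (S t).X)} {J : ∀ t r, (S r).X → (S t).X} {r : K}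
    (hJ : GoodN N S B r J) (hr : r ∉ N) {p : K} (hpr : p ≤ r) (a : (S r).X) :
    ∃ (m : L) (e : (S p).X), f m = r ∧ (S r).d a (J r p e) ≤ m ∧
      ∀ (e' : (S p).X) l', f l' = r → (S r).d a (J r p e') ≤ l' → m ≤ l' := by
  obtain ⟨e0⟩ := (S p).ne
  obtain ⟨m, ⟨hm1, e, hm2⟩, hmin⟩ := (Set.toFinite
    {l : L | f l = r ∧ ∃ e : (S p).X, (S r).d a (J r p e) ≤ l}).exists_minimal
    ⟨(S r).d a (J r p e0), (S r).fd _ _, e0, le_rfl⟩
  refine ⟨m, e, hm1, hm2, fun e' l' hl' h => ?_⟩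
  have h1 : m ⊓ l' ∈ {l : L | f l = r ∧ ∃ e : (S p).X, (S r).d a (J r p e) ≤ l} := by
    refine ⟨by rw [map_inf, hm1, hl', inf_idem], ?_⟩
    rcases hJ.gate hr p p hpr hpr a e e' m l' hm1 hl' hm2 h with h2 | h2
    · exact h2
    · exact h2
  exact (hmin h1 inf_le_left).trans inf_le_right

/-- A nearest point in a lower space, with respect to a set of compatible families. -/
theorem exists_nearP [Finite L] {N : Set K} {S : ∀ t, Sp f lo t}
    {B : ∀ t, Subgroup (Equiv.Perm (S t).X)} {J : ∀ t r, (S r).X → (S t).X} {r t : K}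
    {P : (K → L) → Prop} (hJ : GoodN N S B r J) (hrt : r < t)
    (hr : r ∉ N ∨ ∀ u u', P u → P u' → u r ≤ u' r ∨ u' r ≤ u r)
    {p : K} (hpr : p ≤ r) (a : (S r).X) :
    ∃ e : (S p).X, ∀ u, P u → CF f t u → (∃ e' : (S p).X, (S r).d a (J r p e') ≤ u r) →
      (S r).d a (J r p e) ≤ u r := by
  rcases hr with hr | hr
  · obtain ⟨m, e, hm, hme, hmin⟩ := exists_near hJ hr hpr a
    exact ⟨e, fun u _ hu ⟨e', he'⟩ => hme.trans (hmin e' _ (hu.1 r hrt) he')⟩
  · by_cases hne : {w : L | ∃ u, P u ∧ u r = w ∧ ∃ e' : (S p).X, (S r).d a (J r p e') ≤ w}.Nonempty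
    · obtain ⟨w, ⟨u0, hu0, hw, e, he⟩, hmin⟩ := (Set.toFinite
        {w : L | ∃ u, P u ∧ u r = w ∧ ∃ e' : (S p).X, (S r).d a (J r p e') ≤ w}).exists_minimal hne
      refine ⟨e, fun u hu _ he' => he.trans ?_⟩
      rcases hr u0 u hu0 hu with h | h
      · rw [← hw]; exact h
      · exact hmin ⟨u, hu, rfl, he'⟩ (by rw [← hw]; exact h)
    · obtain ⟨e⟩ := (S p).ne
      exact ⟨e, fun u hu _ he' => absurd ⟨u r, u, hu, rfl, he'⟩ hne⟩

/-- **One step.** -/
theorem exists_stepT [Finite L] [Finite K] {N : Set K} {S : ∀ t, Sp f lo t}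
    {B : ∀ t, Subgroup (Equiv.Perm (S t).X)} {J : ∀ t r, (S r).X → (S t).X}
    (hB : ∀ s, B s ≤ isoSub (S s)) (hlo : ∀ k l, k ≤ f l → lo k ≤ l)
    (hflo : ∀ k, f (lo k) = k) (hfhi : ∀ k, f (hi k) = k) (hhi : ∀ l, l ≤ hi (f l)) {t : K}
    (hJ : ∀ r, r < t → GoodN N S B r J) (D : Dl f t) (hCT : CompatTight f t)
    (mk : (D.A × Blk L t (fun r => (S r.1).X) D.A → T5) → (S t).X)
    (hmks : Function.Surjective mk)
    (hmk : ∀ v w l, f l = t → ((S t).d (mk v) (mk w) ≤ l ↔ BE (D.κ l) v w))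
    (hBt : B t = isoSub (S t)) (htN : t ∈ N) {P : (K → L) → Prop}
    (hCP : ∀ r x y, r < t → f x = r → f y = t → ¬ x ≤ y → ∃ (u : K → L) (d : L),
      f d = t ∧ ¬ d ≤ y ∧ ¬ x ≤ u r ∧ CF f t u ∧ P u ∧
        ∀ q z, q < t → f z = q → z ≤ u q ∨ ∀ w, f w = t → z ≤ w → d ≤ w)
    (hgl : ¬ IsMax t → ∀ r r', r < t → r' < t → ¬ r ≤ r' → ¬ r' ≤ r →
      ((r ∉ N ∨ ∀ u u', P u → P u' → u r ≤ u' r ∨ u' r ≤ u r) ∧
        (r' ∉ N ∨ ∀ u u', P u → P u' → u r' ≤ u' r' ∨ u' r' ≤ u r')) ∨ hi (r ⊓ r') ≤ lo t) :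
    ∃ J' : ∀ t r, (S r).X → (S t).X, (∀ r, r ≠ t → J' r = J r) ∧ GoodN N S B t J' := by
  classical
  have hne : Nonempty (S t).X := (S t).ne
  let new : ∀ r, (S r).X → (S t).X := fun r a =>
    if h : r < t then mk (val J D r h a) else if h' : r = t then h' ▸ a else Classical.arbitrary _
  have new_lt : ∀ r (h : r < t) a, new r a = mk (val J D r h a) := fun r h a => dif_pos h
  have new_self : ∀ a, new t a = a := by
    intro a
    show (if h : t < t then mk (val J D t h a) else if h' : t = t then h' ▸ a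
      else Classical.arbitrary _) = a
    rw [dif_neg (lt_irrefl t), dif_pos rfl]
  let J' : ∀ t r, (S r).X → (S t).X := Function.update J t new
  have hJt : J' t = new := Function.update_self _ _ _
  have hJr : ∀ r, r ≠ t → J' r = J r := fun r h => Function.update_of_ne h _ _
  have hcomp : ∀ q r, q ≤ r → r ≤ t → ∀ a, J' t r (J' r q a) = J' t q a := by
    intro q r hqr hrt a
    rcases eq_or_lt_of_le hrt with rfl | hr
    · rw [hJt, new_self]
    · have hq : q < t := hqr.trans_lt hr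
      rw [hJt, hJr r hr.ne, new_lt r hr, new_lt q hq, val_comp D hlo hflo hJ hqr hr a]
  have hisom : ∀ r, r ≤ t → ∀ a a', (S t).d (J' t r a) (J' t r a') = (S r).d a a' ⊔ lo t := by
    intro r hrt a a'
    rcases eq_or_lt_of_le hrt with rfl | hr
    · rw [hJt, new_self, new_self]
      exact (sup_eq_left.2 (hlo _ _ ((S _).fd _ _).ge)).symm
    · rw [hJt, new_lt r hr, new_lt r hr]
      have hft : f ((S r).d a a' ⊔ lo t) = t := by
        rw [map_sup, (S r).fd, hflo, sup_eq_right.2 hr.le]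
      refine le_antisymm ?_ (sup_le ?_ (hlo _ _ ((S t).fd _ _).ge))
      · rw [hmk _ _ _ hft, val_isom D hlo hflo hJ hCT hr a a' hft]
        exact le_sup_left
      · rw [← val_isom D hlo hflo hJ hCT hr a a' ((S t).fd _ _), ← hmk _ _ _ ((S t).fd _ _)]
  refine ⟨J', hJr, ⟨fun a => by rw [hJt]; exact new_self a, hcomp, hisom, ?_,
    fun h => absurd htN h, ?_⟩⟩
  · -- interpolation
    intro hmax r r' hr hr' a a' l hl h
    rcases eq_or_lt_of_le hr with hreq | hrlt
    · subst hreq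
      have hle : r' ≤ r ⊓ r' := le_inf hr' le_rfl
      refine ⟨J' (r ⊓ r') r' a', ?_, ?_⟩
      · rw [hcomp _ _ hle inf_le_left]; exact h
      · rw [hcomp _ _ hle inf_le_left, ((S _).self _ _).2 rfl]
        exact hlo _ _ hl.ge
    rcases eq_or_lt_of_le hr' with hreq | hrlt'
    · subst hreq
      have hle : r ≤ r ⊓ r' := le_inf le_rfl hr
      refine ⟨J' (r ⊓ r') r a, ?_, ?_⟩
      · rw [hcomp _ _ hle inf_le_right, ((S _).self _ _).2 rfl]
        exact hlo _ _ hl.ge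
      · rw [hcomp _ _ hle inf_le_right]; exact h
    by_cases hc1 : r ≤ r'
    · have hle : r ≤ r ⊓ r' := le_inf le_rfl hc1
      refine ⟨J' (r ⊓ r') r a, ?_, ?_⟩
      · rw [hcomp _ _ hle (inf_le_left.trans hr), ((S _).self _ _).2 rfl]
        exact hlo _ _ hl.ge
      · rw [hcomp _ _ hle (inf_le_left.trans hr)]; exact h
    by_cases hc2 : r' ≤ r
    · have hle : r' ≤ r ⊓ r' := le_inf hc2 le_rfl
      refine ⟨J' (r ⊓ r') r' a', ?_, ?_⟩
      · rw [hcomp _ _ hle (inf_le_left.trans hr)]; exact h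
      · rw [hcomp _ _ hle (inf_le_left.trans hr), ((S _).self _ _).2 rfl]
        exact hlo _ _ hl.ge
    have hlt : lo t ≤ l := hlo _ _ hl.ge
    have hp : r ⊓ r' < t := inf_le_left.trans_lt hrlt
    rw [hJt, new_lt r hrlt, new_lt r' hrlt', hmk _ _ l hl] at h
    suffices hs : ∃ e : (S (r ⊓ r')).X, (S r).d a (J r (r ⊓ r') e) ≤ l ∧
        (S r').d (J r' (r ⊓ r') e) a' ≤ l by
      obtain ⟨e, h1, h2⟩ := hs
      refine ⟨e, ?_, ?_⟩
      · rw [← hcomp _ _ inf_le_left hr, hisom r hr, hJr r hrlt.ne]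
        exact sup_le h1 hlt
      · rw [← hcomp _ _ inf_le_right hr', hisom r' hr', hJr r' hrlt'.ne]
        exact sup_le h2 hlt
    have key : ∀ (u : K → L) (d : L), CF f t u → f d = t → ¬ d ≤ l →
        (∀ q z, q < t → f z = q → z ≤ u q ∨ ∀ w, f w = t → z ≤ w → d ≤ w) →
        ∃ e : (S (r ⊓ r')).X, (S r).d a (J r (r ⊓ r') e) ≤ u r ∧
          (S r').d (J r' (r ⊓ r') e) a' ≤ u r' :=
      fun u d hu hd hdl hu3 => sepr D hlo hflo hJ hu hd hl hdl hu3 hrlt hrlt' a a' h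
    rcases hgl hmax r r' hrlt hrlt' hc1 hc2 with ⟨hN1, hN2⟩ | hF
    · -- gates
      obtain ⟨e, he⟩ := exists_nearP (hJ r hrlt) hrlt hN1 (inf_le_left : r ⊓ r' ≤ r) a
      obtain ⟨e', he'⟩ := exists_nearP (hJ r' hrlt') hrlt' hN2 (inf_le_right : r ⊓ r' ≤ r') a'
      have k1 : (S r).d a (J r (r ⊓ r') e) ≤ l := by
        by_contra hc
        obtain ⟨u, d, hd, hdl, hxu, hu, hPu, hu3⟩ := hCP _ _ _ hrlt ((S r).fd _ _) hl hc
        obtain ⟨eu, h1, h2⟩ := key u d hu hd hdl hu3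
        exact hxu (he u hPu hu ⟨eu, h1⟩)
      have k2 : (S r').d a' (J r' (r ⊓ r') e') ≤ l := by
        by_contra hc
        obtain ⟨u, d, hd, hdl, hxu, hu, hPu, hu3⟩ := hCP _ _ _ hrlt' ((S r').fd _ _) hl hc
        obtain ⟨eu, h1, h2⟩ := key u d hu hd hdl hu3
        rw [(S r').symm] at h2
        exact hxu (he' u hPu hu ⟨eu, h2⟩)
      have k3 : (S (r ⊓ r')).d e e' ≤ l := by
        by_contra hc
        obtain ⟨u, d, hd, hdl, hxu, hu, hPu, hu3⟩ := hCP _ _ _ hp ((S _).fd _ _) hl hc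
        obtain ⟨eu, h1, h2⟩ := key u d hu hd hdl hu3
        rw [(S r').symm] at h2
        have h3 := he u hPu hu ⟨eu, h1⟩
        have h4 := he' u hPu hu ⟨eu, h2⟩
        have h5 : (S (r ⊓ r')).d e eu ≤ u (r ⊓ r') := by
          refine CF.down hlo hJ hu inf_le_left hrlt ?_
          refine ((S r).tri _ a _).trans (sup_le ?_ h1)
          rw [(S r).symm]
          exact h3
        have h6 : (S (r ⊓ r')).d eu e' ≤ u (r ⊓ r') := by
          refine CF.down hlo hJ hu inf_le_right hrlt' ?_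
          refine ((S r').tri _ a' _).trans (sup_le ?_ h4)
          rw [(S r').symm]
          exact h2
        exact hxu (((S _).tri _ eu _).trans (sup_le h5 h6))
      refine ⟨e, k1, ?_⟩
      refine ((S r').tri _ (J r' (r ⊓ r') e') _).trans (sup_le ?_ ?_)
      · rw [(hJ r' hrlt').isom _ inf_le_right]
        exact sup_le k3 (hlo _ _ (by rw [hl]; exact hr'))
      · rw [(S r').symm]
        exact k2
    · -- the lower space is one point
      obtain ⟨e⟩ := (S (r ⊓ r')).ne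
      have hhip : ∀ x y : (S (r ⊓ r')).X, (S (r ⊓ r')).d x y ≤ hi (r ⊓ r') := by
        intro x y
        have := hhi ((S (r ⊓ r')).d x y)
        rwa [(S (r ⊓ r')).fd] at this
      have hup : ∀ (u : K → L) (d : L), CF f t u → f d = t → ¬ d ≤ l →
          (∀ q z, q < t → f z = q → z ≤ u q ∨ ∀ w, f w = t → z ≤ w → d ≤ w) →
          hi (r ⊓ r') ≤ u (r ⊓ r') := by
        intro u d hu hd hdl hu3
        rcases hu3 (r ⊓ r') (hi (r ⊓ r')) hp (hfhi _) with h1 | h1
        · exact h1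
        · exact absurd ((h1 (lo t) (hflo t) hF).trans hlt) hdl
      refine ⟨e, ?_, ?_⟩
      · by_contra hc
        obtain ⟨u, d, hd, hdl, hxu, hu, hu3⟩ := hCT.lt hflo hlo hrlt ((S r).fd _ _) hl hc
        obtain ⟨eu, h1, h2⟩ := key u d hu hd hdl hu3
        have h3 : (S r).d (J r (r ⊓ r') eu) (J r (r ⊓ r') e) ≤ u r :=
          CF.up hlo hJ hu inf_le_left hrlt ((hhip _ _).trans (hup u d hu hd hdl hu3))
        exact hxu (((S r).tri _ _ _).trans (sup_le h1 h3))
      · by_contra hc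
        obtain ⟨u, d, hd, hdl, hxu, hu, hu3⟩ := hCT.lt hflo hlo hrlt' ((S r').fd _ _) hl hc
        obtain ⟨eu, h1, h2⟩ := key u d hu hd hdl hu3
        have h3 : (S r').d (J r' (r ⊓ r') e) (J r' (r ⊓ r') eu) ≤ u r' :=
          CF.up hlo hJ hu inf_le_right hrlt' ((hhip _ _).trans (hup u d hu hd hdl hu3))
        exact hxu (((S r').tri _ _ _).trans (sup_le h3 h2))
  · -- extension
    intro s g hg
    have hg' : CompatB S B J s t g := by
      intro r hsr hrt
      refine ⟨(hg r hsr hrt).1, fun q hq1 hq2 a => ?_⟩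
      have := (hg r hsr hrt).2 q hq1 hq2 a
      rwa [hJr r hrt.ne] at this
    obtain ⟨π, hπ⟩ := val_ext D hlo hflo hJ hB hg'
    have hmem := rei_mem (D := D) (Φ := Blk L t (fun r => (S r.1).X) D.A)
      (Sy f t D.κ).one_mem π
    have hmem' := (Sy f t (EE D (Blk L t (fun r => (S r.1).X) D.A))).inv_mem hmem
    have heq : ∀ v w, mk v = mk w ↔ EE D (Blk L t (fun r => (S r.1).X) D.A) (lo t) v w := by
      intro v w
      rw [← (S t).self]
      constructor
      · intro h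
        exact (hmk v w _ (hflo t)).1 h.le
      · intro h
        exact le_antisymm ((hmk v w _ (hflo t)).2 h) (hlo _ _ ((S t).fd _ _).ge)
    obtain ⟨γ, hγ⟩ := H330D.exists_perm_mk mk hmks
      (fun v => rei D (Blk L t (fun r => (S r.1).X) D.A) 1 π v)
      (fun v => (rei D (Blk L t (fun r => (S r.1).X) D.A) 1 π)⁻¹ v) (by
      intro v w h
      rw [heq] at h ⊢
      exact (hmem _ (hflo t) _ _).2 h) (by
      intro v w h
      rw [heq] at h ⊢
      exact (hmem' _ (hflo t) _ _).2 h)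
      (fun v => (rei D (Blk L t (fun r => (S r.1).X) D.A) 1 π).symm_apply_apply v)
      (fun v => (rei D (Blk L t (fun r => (S r.1).X) D.A) 1 π).apply_symm_apply v)
    refine ⟨γ, ?_, ?_⟩
    · rw [hBt]
      intro x y
      obtain ⟨v, rfl⟩ := hmks x
      obtain ⟨w, rfl⟩ := hmks y
      rw [hγ, hγ]
      refine le_antisymm ?_ ?_
      · rw [hmk _ _ _ ((S t).fd _ _)]
        exact (hmem _ ((S t).fd _ _) _ _).2 ((hmk _ _ _ ((S t).fd _ _)).1 le_rfl)
      · rw [hmk _ _ _ ((S t).fd _ _)]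
        exact (hmem _ ((S t).fd _ _) _ _).1 ((hmk _ _ _ ((S t).fd _ _)).1 le_rfl)
    · intro r hsr hrt a
      rw [hJt, new_lt r hrt, new_lt r hrt, hγ]
      congr 1
      funext z
      obtain ⟨x, φ⟩ := z
      exact hπ r hrt hsr a x φ

end Vale.Agent.P183.H238
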