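import Vale.Agent.P183.H238.StepT

/-!
One step of the construction: a transposed level.
-/

set_option linter.all false

namespace Vale.Agent.P183.H238

open Vale.Agent.P183 Vale.Agent.P183.H330 Vale.Agent.P183.H330G

variable {L K : Type} [Lattice L] [Lattice K] {f : LatticeHom L K} {lo hi : K → L}

/-- The level at the upper end of a transposed link. -/
theorem exists_lvT {r t : K} (hrt : r ≤ t) (hs : TransposedLink f r t) (R : Lv f r)
    (hfhi : f (hi r) = r) (hhi : ∀ l, f l = r → l ≤ hi r) :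
    ∃ (S : Lv f t) (e : R.X → S.X), Function.Surjective e ∧
      ∀ x y l, f l = t → (S.E l (e x) (e y) ↔ R.E (l ⊓ hi r) x y) := by
  obtain ⟨h, hh, hh', hs1, hs2⟩ := hs
  have hhe : h = hi r := le_antisymm (hhi h hh) (hh' _ hfhi)
  subst hhe
  have hf : ∀ l, f l = t → f (l ⊓ hi r) = r := by
    intro l hl
    rw [map_inf, hl, hh, inf_eq_right.2 hrt]
  have hSy : Sy f r R.E ≤ Sy f t (fun l => R.E (l ⊓ hi r)) := by
    intro g hg l hl x y
    exact hg _ (hf l hl) x y
  refine ⟨{ X := R.X, fin := R.fin, ne := R.ne, E := fun l => R.E (l ⊓ hi r),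
            mono := ?_, trans := ?_, closed := ?_ }, id, Function.surjective_id,
            fun _ _ _ _ => Iff.rfl⟩
  · intro a b ha hb
    rw [R.mono _ _ (hf a ha) (hf b hb)]
    constructor
    · intro hab
      exact hs1 a b ha hb (hab.trans inf_le_left)
    · intro hab
      exact inf_le_inf_right _ hab
  · intro x y
    obtain ⟨g, hg, hgx⟩ := R.trans x y
    exact ⟨g, hSy hg, hgx⟩
  · intro ρ l hl hlρ hinv
    obtain ⟨c, hc, hρ⟩ := R.closed ρ _ (hf l hl) hlρ (fun g hg => hinv g (hSy hg))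
    have hle : l ⊓ hi r ≤ c := (R.mono _ _ (hf l hl) hc).1 (by rw [← hρ]; exact hlρ)
    obtain ⟨y', hy', hyc⟩ := hs2 c l hc hl hle
    exact ⟨y', hy', by rw [hρ, ← hyc]⟩

/-- **One step.** -/
theorem exists_stepU [Finite L] [Finite K] {N : Set K} {S : ∀ t, Sp f lo t}
    {B : ∀ t, Subgroup (Equiv.Perm (S t).X)} {J : ∀ t r, (S r).X → (S t).X}
    (hB : ∀ s, B s ≤ isoSub (S s)) (hlo : ∀ k l, k ≤ f l → lo k ≤ l)
    (hflo : ∀ k, f (lo k) = k) (hfhi : ∀ k, f (hi k) = k) (hhi : ∀ l, l ≤ hi (f l)) {t : K}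
    (hJ : ∀ r, r < t → GoodN N S B r J) {r0 : K} (hr0 : r0 < t) (hun : ∀ q, q < t → q ≤ r0)
    (mk : (S r0).X → (S t).X) (hmks : Function.Surjective mk)
    (hmk : ∀ x y l, f l = t → ((S t).d (mk x) (mk y) ≤ l ↔ (S r0).d x y ≤ l))
    (hBt : B t = isoSub (S t)) (htN : t ∈ N) :
    ∃ J' : ∀ t r, (S r).X → (S t).X, (∀ r, r ≠ t → J' r = J r) ∧ GoodN N S B t J' := by
  classical
  have hne : Nonempty (S t).X := (S t).ne
  have hmax0 : ¬ IsMax r0 := fun h => absurd (h hr0.le) (not_le_of_gt hr0)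
  let new : ∀ r, (S r).X → (S t).X := fun r a =>
    if h : r < t then mk (J r0 r a) else if h' : r = t then h' ▸ a else Classical.arbitrary _
  have new_lt : ∀ r (h : r < t) a, new r a = mk (J r0 r a) := fun r h a => dif_pos h
  have new_self : ∀ a, new t a = a := by
    intro a
    show (if h : t < t then mk (J r0 t a) else if h' : t = t then h' ▸ a
      else Classical.arbitrary _) = a
    rw [dif_neg (lt_irrefl t), dif_pos rfl]
  let J' : ∀ t r, (S r).X → (S t).X := Function.update J t new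
  have hJt : J' t = new := Function.update_self _ _ _
  have hJr : ∀ r, r ≠ t → J' r = J r := fun r h => Function.update_of_ne h _ _
  have hlot : lo r0 ≤ lo t := hlo _ _ (by rw [hflo]; exact hr0.le)
  have hcomp : ∀ q r, q ≤ r → r ≤ t → ∀ a, J' t r (J' r q a) = J' t q a := by
    intro q r hqr hrt a
    rcases eq_or_lt_of_le hrt with rfl | hr
    · rw [hJt, new_self]
    · have hq : q < t := hqr.trans_lt hr
      rw [hJt, hJr r hr.ne, new_lt r hr, new_lt q hq, (hJ r0 hr0).comp q r hqr (hun r hr)]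
  have hisom : ∀ r, r ≤ t → ∀ a a', (S t).d (J' t r a) (J' t r a') = (S r).d a a' ⊔ lo t := by
    intro r hrt a a'
    rcases eq_or_lt_of_le hrt with rfl | hr
    · rw [hJt, new_self, new_self]
      exact (sup_eq_left.2 (hlo _ _ ((S _).fd _ _).ge)).symm
    · rw [hJt, new_lt r hr, new_lt r hr]
      have hft : f ((S r).d a a' ⊔ lo t) = t := by
        rw [map_sup, (S r).fd, hflo, sup_eq_right.2 hr.le]
      refine le_antisymm ?_ (sup_le ?_ (hlo _ _ ((S t).fd _ _).ge))
      · rw [hmk _ _ _ hft, (hJ r0 hr0).isom r (hun r hr)]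
        exact sup_le_sup_left hlot _
      · have h1 := (hmk _ _ _ ((S t).fd (mk (J r0 r a)) (mk (J r0 r a')))).1 le_rfl
        rw [(hJ r0 hr0).isom r (hun r hr)] at h1
        exact le_sup_left.trans h1
  refine ⟨J', hJr, ⟨fun a => by rw [hJt]; exact new_self a, hcomp, hisom, ?_,
    fun h => absurd htN h, ?_⟩⟩
  · -- interpolation
    intro hmax r r' hr hr' a a' l hl h
    rcases eq_or_lt_of_le hr with hreq | hrlt
    · subst hreq
      have hle : r' ≤ r ⊓ r' := le_inf hr' le_rfl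
      refine ⟨J' (r ⊓ r') r' a', ?_, ?_⟩
      · rw [hcomp _ _ hle inf_le_left]; exact h
      · rw [hcomp _ _ hle inf_le_left, ((S _).self _ _).2 rfl]
        exact hlo _ _ hl.ge
    rcases eq_or_lt_of_le hr' with hreq | hrlt'
    · subst hreq
      have hle : r ≤ r ⊓ r' := le_inf le_rfl hr
      refine ⟨J' (r ⊓ r') r a, ?_, ?_⟩
      · rw [hcomp _ _ hle inf_le_right, ((S _).self _ _).2 rfl]
        exact hlo _ _ hl.ge
      · rw [hcomp _ _ hle inf_le_right]; exact h
    have hp : r ⊓ r' < t := inf_le_left.trans_lt hrlt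
    rw [hJt, new_lt r hrlt, new_lt r' hrlt', hmk _ _ l hl] at h
    have hfl : f (l ⊓ hi r0) = r0 := by rw [map_inf, hl, hfhi, inf_eq_right.2 hr0.le]
    have h' : (S r0).d (J r0 r a) (J r0 r' a') ≤ l ⊓ hi r0 := by
      refine le_inf h ?_
      have := hhi ((S r0).d (J r0 r a) (J r0 r' a'))
      rwa [(S r0).fd] at this
    obtain ⟨e, h1, h2⟩ := (hJ r0 hr0).interp hmax0 r r' (hun r hrlt) (hun r' hrlt') a a' _ hfl h'
    refine ⟨e, ?_, ?_⟩
    · rw [hJt, new_lt r hrlt, new_lt _ hp, hmk _ _ l hl]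
      exact h1.trans inf_le_left
    · rw [hJt, new_lt r' hrlt', new_lt _ hp, hmk _ _ l hl]
      exact h2.trans inf_le_left
  · -- extension
    intro s g hg
    by_cases hs : s ≤ r0
    swap
    · exact ⟨1, (B t).one_mem, fun r hsr hrt => absurd (hsr.trans (hun r hrt)) hs⟩
    have hg0 := hg r0 hs hr0
    have hiso : ∀ x y, (S r0).d (g r0 x) (g r0 y) = (S r0).d x y := hB r0 hg0.1
    have hiso' : ∀ x y, (S r0).d ((g r0)⁻¹ x) ((g r0)⁻¹ y) = (S r0).d x y :=
      (isoSub (S r0)).inv_mem (hB r0 hg0.1)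
    have heq : ∀ x y, mk x = mk y ↔ (S r0).d x y ≤ lo t := by
      intro x y
      rw [← (S t).self, ← hmk x y _ (hflo t)]
      exact ⟨fun h => h.le, fun h => le_antisymm h (hlo _ _ ((S t).fd _ _).ge)⟩
    obtain ⟨γ, hγ⟩ := H330D.exists_perm_mk mk hmks (fun x => g r0 x) (fun x => (g r0)⁻¹ x) (by
      intro x y h
      rw [heq] at h ⊢
      rw [hiso]
      exact h) (by
      intro x y h
      rw [heq] at h ⊢
      rw [hiso']
      exact h) (fun x => (g r0).symm_apply_apply x) (fun x => (g r0).apply_symm_apply x)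
    refine ⟨γ, ?_, ?_⟩
    · rw [hBt]
      intro x y
      obtain ⟨v, rfl⟩ := hmks x
      obtain ⟨w, rfl⟩ := hmks y
      rw [hγ, hγ]
      refine le_antisymm ?_ ?_
      · rw [hmk _ _ _ ((S t).fd _ _), hiso, ← hmk _ _ _ ((S t).fd _ _)]
      · rw [hmk _ _ _ ((S t).fd _ _), ← hiso, ← hmk _ _ _ ((S t).fd _ _)]
    · intro r hsr hrt a
      rw [hJt, new_lt r hrt, new_lt r hrt, hγ]
      have h1 := hg0.2 r hsr (hun r hrt) a
      rw [hJr r0 hr0.ne] at h1
      rw [h1]

end Vale.Agent.P183.H238
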