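import Vale.Agent.P183.H238.WideCore
import Vale.Agent.P183.H330D.Reduce
import Vale.Agent.P183.H330M.Reduce

/-!
The extension theorem for fibres which are distributive or group intervals.
-/

set_option linter.all false

namespace Vale.Agent.P183.H238

open Vale.Agent.P183 Vale.Agent.P183.H330 Vale.Agent.P183.H330G Vale.Agent.P183.H330D
open Vale.Agent.P183.H330M (DistribOver AllBelow MixedFibres)

variable {L K : Type} [Lattice L] [Lattice K] {f : LatticeHom L K} {lo hi : K → L}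

/-- Distributive fibres are compatibly tight. -/
theorem compat_of_distrib [Finite L] (hflo : ∀ k, f (lo k) = k) (hlo : ∀ k l, k ≤ f l → lo k ≤ l)
    {t : K} (hd : DistribOver f t) : CompatTight f t := by
  classical
  have hlo2 : ∀ l, f l = t → lo t ≤ l := fun l hl => hlo _ _ hl.ge
  have hup : ∀ q z, q ≤ t → f z = q → f (z ⊔ lo t) = t := fun q z hq hz => by
    rw [map_sup, hz, hflo, sup_eq_right.2 hq]
  intro r x y hr hx hy hxy
  obtain ⟨p, hp1, hp2⟩ : ∃ p : JP f lo t, p.1 ≤ x ⊔ lo t ∧ ¬ p.1 ≤ y := by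
    by_contra hc
    push Not at hc
    exact hxy (le_sup_left.trans (jsep (lo := lo) hlo2 hd (hup r x hr.le hx) hy hc))
  have hmx : ∀ q, q < t → ∃ u, f u = q ∧ ∀ z, f z = q → (z ≤ u ↔ ¬ p.1 ≤ z ⊔ lo t) := by
    intro q hq
    obtain ⟨u, ⟨hu1, hu2⟩, hmax⟩ :=
      (Set.toFinite {z : L | f z = q ∧ ¬ p.1 ≤ z ⊔ lo t}).exists_maximal ⟨lo q, hflo q, fun h => by
        have h1 : lo q ≤ lo t := hlo _ _ (by rw [hflo]; exact hq.le)
        rw [sup_eq_right.2 h1] at h
        exact p.2.2.1 h⟩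
    refine ⟨u, hu1, fun z hz => ⟨fun h h' => hu2 (h'.trans (sup_le_sup_right h _)), fun h => ?_⟩⟩
    have h1 : u ⊔ z ∈ {z : L | f z = q ∧ ¬ p.1 ≤ z ⊔ lo t} := by
      refine ⟨by rw [map_sup, hu1, hz, sup_idem], fun h' => ?_⟩
      have h2 : u ⊔ z ⊔ lo t = (u ⊔ lo t) ⊔ (z ⊔ lo t) := sup_sup_distrib_right u z (lo t)
      rw [h2] at h'
      rcases p.2.2.2 _ _ (hup q u hq.le hu1) (hup q z hq.le hz) h' with h' | h'
      · exact hu2 h'
      · exact h h'
    exact le_sup_right.trans (hmax h1 le_sup_left)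
  have hLn : Nonempty L := ⟨lo t⟩
  choose! u hu1 hu2 using hmx
  refine ⟨u, p.1, p.2.1, hp2, fun h => (hu2 r hr.lt x hx).1 h hp1, hu1, ?_, ?_⟩
  · intro s q z hsq hq hz
    have hs : s < t := hsq.trans_lt hq
    rw [hu2 s hs z hz]
    have h1 : z ≤ u q ↔ z ⊔ lo q ≤ u q :=
      ⟨fun h => sup_le h (hlo _ _ (hu1 q hq).ge), fun h => le_sup_left.trans h⟩
    have h2 : z ⊔ lo q ⊔ lo t = z ⊔ lo t := by
      rw [sup_assoc, sup_eq_right.2 (hlo _ _ (by rw [hflo]; exact hq.le) : lo q ≤ lo t)]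
    rw [h1, hu2 q hq (z ⊔ lo q) (by rw [map_sup, hz, hflo, sup_eq_right.2 hsq]), h2]
  · intro q z hq hz
    by_cases h : p.1 ≤ z ⊔ lo t
    · right
      intro w hw hzw
      exact h.trans (sup_le hzw (hlo2 w hw))
    · exact Or.inl ((hu2 q hq z hz).2 h)

/-- Tight links are compatible when the fibres over the meets of the lower covers are below. -/
theorem compat_of_tight [Finite K] (hflo : ∀ k, f (lo k) = k) (hfhi : ∀ k, f (hi k) = k)
    (hlo : ∀ k l, k ≤ f l → lo k ≤ l) (hhi : ∀ l, l ≤ hi (f l)) {t : K}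
    (hT : ∀ r, r ⋖ t → TightLink f r t)
    (hm : ∀ r r', r ⋖ t → r' ⋖ t → r ≠ r' → ∀ x y, f x = r ⊓ r' → f y = t → x ≤ y) :
    CompatTight f t := by
  classical
  have hhi2 : ∀ q z, f z = q → z ≤ hi q := fun q z hz => by rw [← hz]; exact hhi z
  have hhimono : ∀ p q, p ≤ q → hi p ≤ hi q := by
    intro p q hpq
    have h1 : f (hi p ⊔ hi q) = q := by rw [map_sup, hfhi, hfhi, sup_eq_right.2 hpq]
    exact le_sup_left.trans (hhi2 _ _ h1)
  intro r x y hr hx hy hxy
  obtain ⟨u0, d, hu0, hd, hxu, hdy, hz⟩ := hT r hr x y hx hy hxy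
  have hlot : lo t ≤ y := hlo _ _ hy.ge
  have hlort : lo r ≤ lo t := hlo _ _ (by rw [hflo]; exact hr.le)
  refine ⟨fun q => if q ≤ r then u0 ⊓ hi q else hi q, d, hd, hdy, ?_, ?_, ?_, ?_⟩
  · show ¬ x ≤ if r ≤ r then u0 ⊓ hi r else hi r
    rw [if_pos le_rfl]
    exact fun h => hxu (h.trans inf_le_left)
  · intro q hq
    show f (if q ≤ r then u0 ⊓ hi q else hi q) = q
    by_cases h : q ≤ r
    · rw [if_pos h, map_inf, hu0, hfhi, inf_eq_right.2 h]
    · rw [if_neg h, hfhi]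
  · intro p q z hpq hq hzp
    show (z ≤ if q ≤ r then u0 ⊓ hi q else hi q) ↔ z ≤ if p ≤ r then u0 ⊓ hi p else hi p
    have hzhp : z ≤ hi p := hhi2 _ _ hzp
    have hzhq : z ≤ hi q := hzhp.trans (hhimono p q hpq)
    by_cases h : q ≤ r
    · rw [if_pos h, if_pos (hpq.trans h)]
      exact ⟨fun h1 => le_inf (h1.trans inf_le_left) hzhp,
        fun h1 => le_inf (h1.trans inf_le_left) hzhq⟩
    · rw [if_neg h]
      refine ⟨fun _ => ?_, fun _ => hzhq⟩
      by_cases h' : p ≤ r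
      · rw [if_pos h']
        obtain ⟨c, ⟨hc1, hc2⟩, hmax⟩ := (Set.toFinite {c : K | q ≤ c ∧ c < t}).exists_maximal
          ⟨q, le_rfl, hq⟩
        have hcov : c ⋖ t := ⟨hc2, fun e h1 h2 => absurd (hmax ⟨hc1.trans h1.le, h2⟩ h1.le)
          (not_le_of_gt h1)⟩
        have hne : r ≠ c := fun h2 => h (by rw [h2]; exact hc1)
        have h3 : hi (r ⊓ c) ≤ lo t := hm r c hr hcov hne _ _ (hfhi _) (hflo _)
        have h4 : z ≤ lo t := hzhp.trans ((hhimono p _ (le_inf h' (hpq.trans hc1))).trans h3)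
        have h5 : f (z ⊔ lo r) = r := by rw [map_sup, hzp, hflo, sup_eq_right.2 h']
        rcases hz (z ⊔ lo r) h5 with h6 | h6
        · exact le_inf (le_sup_left.trans h6) hzhp
        · exact absurd ((h6 (lo t) (hflo t) (sup_le h4 hlort)).trans hlot) hdy
      · rw [if_neg h']
        exact hzhp
  · intro q z hq hzq
    show (z ≤ if q ≤ r then u0 ⊓ hi q else hi q) ∨ _
    by_cases h : q ≤ r
    · rw [if_pos h]
      have h5 : f (z ⊔ lo r) = r := by rw [map_sup, hzq, hflo, sup_eq_right.2 h]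
      rcases hz (z ⊔ lo r) h5 with h6 | h6
      · exact Or.inl (le_inf (le_sup_left.trans h6) (hhi2 _ _ hzq))
      · right
        intro w hw hzw
        exact h6 w hw (sup_le hzw (hlort.trans (hlo _ _ hw.ge)))
    · rw [if_neg h]
      exact Or.inl (hhi2 _ _ hzq)

/-- **Extensions with tight fibres above.** -/
theorem ext_above [Finite L] (f : LatticeHom L K) (hf : Function.Surjective f)
    (hK : Representable K) (h : TightAbove f) : Representable L := by
  classical
  have hKf : Finite K := Finite.of_surjective f hf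
  have hKn : Nonempty K := hK.nonempty
  obtain ⟨b0, hb0⟩ := exists_least (K := K)
  obtain ⟨lo, hi, hflo, hfhi, hlo, hhi⟩ := exists_lo_hi_fin f hf
  have hlo' : ∀ k l, k ≤ f l → lo k ≤ l := by
    intro k l h
    have h1 : f (lo k ⊓ l) = k := by rw [map_inf, hflo, inf_eq_left.2 h]
    have h3 := hlo (lo k ⊓ l)
    rw [h1] at h3
    exact h3.trans inf_le_right
  have hlo2 : ∀ t l, f l = t → lo t ≤ l := fun t l hl => by rw [← hl]; exact hlo l
  have hhi2 : ∀ t l, f l = t → l ≤ hi t := fun t l hl => by rw [← hl]; exact hhi l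
  have hhimono : ∀ p q, p ≤ q → hi p ≤ hi q := by
    intro p q hpq
    have h1 : f (hi p ⊔ hi q) = q := by rw [map_sup, hfhi, hfhi, sup_eq_right.2 hpq]
    exact le_sup_left.trans (hhi2 _ _ h1)
  obtain ⟨N, hN, h1, h2, h3⟩ := h
  have hcov : ∀ s t : K, s < t → ∃ r, r ⋖ t ∧ s ≤ r := by
    intro s t hst
    obtain ⟨r, hr, hmax⟩ := (Set.toFinite {r : K | s ≤ r ∧ r < t}).exists_maximal ⟨s, le_rfl, hst⟩
    refine ⟨r, ⟨hr.2, fun c hrc hct => ?_⟩, hr.1⟩
    exact absurd (hmax ⟨hr.1.trans hrc.le, hct⟩ hrc.le) (not_le_of_gt hrc)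
  refine ext_wide_aux (lo := lo) (hi := hi) hf b0 hb0 hflo hfhi hlo hhi N
    (fun r t hrt hr => hN hrt hr) ?_ ?_ ?_ ?_ ?_ ?_ hK
  · intro t ht hd
    rcases h1 t ht with h | h
    · exact absurd h hd
    · exact h.1
  · intro t ht hd
    rcases h1 t ht with h | h
    · exact absurd h hd
    · exact h.2.1
  · intro r hr hd t ht hrt x y z hx hy hz k1 k2 k3 k4
    rcases h1 r hr with h | h
    · exact absurd h hd
    · refine h.2.2 (hi r) (hfhi r) (hhi2 r) x y z (by rw [hx]; exact ht) (by rw [hx]; exact hrt)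
        (hx.trans hy.symm) (hx.trans hz.symm) ?_ ?_ ?_ ?_
      · exact fun h => k1 (h.trans inf_le_left)
      · exact fun h => k2 (h.trans inf_le_left)
      · exact fun h => k3 (h.trans inf_le_left)
      · exact fun h => k4 (h.trans inf_le_left)
  · intro t ht
    rcases h2 t ht with h | h
    · exact exists_dl (groupInterval_of_distrib (hflo t) (hfhi t) (hlo2 t) (hhi2 t) h)
    · exact exists_dl h.1
  · intro t ht
    rcases h2 t ht with h | ⟨_, h | ⟨r, hrN, hrt, hun, hTr⟩⟩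
    · exact Or.inl (compat_of_distrib hflo hlo' h)
    · exact Or.inl h
    · refine Or.inr ⟨r, hrt.lt, fun q hq => ?_, hrN, hTr⟩
      obtain ⟨c, hc, hqc⟩ := hcov q t hq
      rw [← hun c hc]
      exact hqc
  · intro t ht hmax r r' hr hr' hn1 hn2
    have hch : ∀ r, r < t → ChainTrace f r t →
        ∀ y y', f y = t → f y' = t → y ⊓ hi r ≤ y' ∨ y' ⊓ hi r ≤ y := by
      intro r hrt hrc y y' hy hy'
      have e1 : ∀ y, f y = t → f (y ⊓ hi r) = r := fun y hy => by
        rw [map_inf, hy, hfhi, inf_eq_right.2 hrt.le]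
      rcases hrc y y' hy hy' with h | h
      · exact Or.inl (h _ (e1 y hy) inf_le_left)
      · exact Or.inr (h _ (e1 y' hy') inf_le_left)
    by_cases hrN : r ∈ N
    · rcases h3 t r r' ht hmax hr hr' hn1 hn2 hrN with h | ⟨hd, hc, hc'⟩
      · exact Or.inr (h _ _ (hfhi _) (hflo _))
      · refine Or.inl ⟨Or.inr ⟨hd, hch r hr hc⟩, ?_⟩
        by_cases hr'N : r' ∈ N
        · exact Or.inr ⟨hd, hch r' hr' (hc' hr'N)⟩
        · exact Or.inl hr'N
    · by_cases hr'N : r' ∈ N
      · rcases h3 t r' r ht hmax hr' hr hn2 hn1 hr'N with h | ⟨hd, hc, hc'⟩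
        · exact Or.inr (h _ _ (by rw [hfhi, inf_comm]) (hflo _))
        · exact Or.inl ⟨Or.inl hrN, Or.inr ⟨hd, hch r' hr' hc⟩⟩
      · exact Or.inl ⟨Or.inl hrN, Or.inl hr'N⟩

/-- The dual of the extension theorem. -/
theorem ext_above_dual [Finite L] (f : LatticeHom L K) (hf : Function.Surjective f)
    (hK : Representable K) (h : TightAbove (LatticeHom.dual f)) : Representable L := by
  have hLf : Finite Lᵒᵈ := inferInstanceAs (Finite L)
  have h1 : Representable Lᵒᵈ := ext_above (LatticeHom.dual f) (by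
    intro k
    obtain ⟨l, hl⟩ := hf (OrderDual.ofDual k)
    exact ⟨OrderDual.toDual l, congrArg OrderDual.toDual hl⟩) hK.dual h
  exact h1.dual

/-- Mixed fibres are the case of the empty up-set. -/
theorem above_of_mixed {f : LatticeHom L K} (h : MixedFibres f) : TightAbove f := by
  refine ⟨∅, fun _ _ _ h => h, fun t _ => ?_, fun t h => absurd h (Set.notMem_empty t),
    fun t _ _ h => absurd h (Set.notMem_empty t)⟩
  rcases h t with h1 | h1
  · exact Or.inl h1
  · exact Or.inr ⟨h1.1, h1.2.1, fun a ha hb x y z _ => h1.2.2 a ha hb x y z⟩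

end Vale.Agent.P183.H238
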