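import Vale.Agent.P183.H238.StepU
import Vale.Agent.P183.H238.CoreN
import Vale.Agent.P183.H238.Dist
import Vale.Agent.P183.H330M.Core

/-!
The extension theorem: mixed fibres outside an up-set, tight or transposed levels over it.
-/

set_option linter.all false

namespace Vale.Agent.P183.H238

open Vale.Agent.P183 Vale.Agent.P183.H330 Vale.Agent.P183.H330G Vale.Agent.P183.H330D
open Vale.Agent.P183.H330M (DistribOver exists_step_top exists_step5 tr_of_narrow tr_of_flag)

variable {L K : Type} [Lattice L] [Lattice K] {f : LatticeHom L K} {lo hi : K → L}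

/-- Distributive fibres are compatibly tight, with the traces of meet primes. -/
theorem compat_of_distrib' [Finite L] (hflo : ∀ k, f (lo k) = k) (hfhi : ∀ k, f (hi k) = k)
    (hlo : ∀ k l, k ≤ f l → lo k ≤ l) (hhi : ∀ l, l ≤ hi (f l))
    {t : K} (hd : DistribOver f t) {r : K} {x y : L} (hr : r < t) (hx : f x = r) (hy : f y = t)
    (hxy : ¬ x ≤ y) : ∃ (m d : L), f m = t ∧ f d = t ∧ ¬ d ≤ y ∧ ¬ x ≤ m ⊓ hi r ∧
      CF f t (fun q => m ⊓ hi q) ∧
      ∀ q z, q < t → f z = q → z ≤ m ⊓ hi q ∨ ∀ w, f w = t → z ≤ w → d ≤ w := by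
  have hlo2 : ∀ l, f l = t → lo t ≤ l := fun l hl => hlo _ _ hl.ge
  have hhi2 : ∀ q z, f z = q → z ≤ hi q := fun q z hz => by rw [← hz]; exact hhi z
  have hhimono : ∀ p q, p ≤ q → hi p ≤ hi q := by
    intro p q hpq
    have h1 : f (hi p ⊔ hi q) = q := by rw [map_sup, hfhi, hfhi, sup_eq_right.2 hpq]
    exact le_sup_left.trans (hhi2 _ _ h1)
  have hup : ∀ q z, q ≤ t → f z = q → f (z ⊔ lo t) = t := fun q z hq hz => by
    rw [map_sup, hz, hflo, sup_eq_right.2 hq]
  obtain ⟨p, hp1, hp2⟩ : ∃ p : JP f lo t, p.1 ≤ x ⊔ lo t ∧ ¬ p.1 ≤ y := by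
    by_contra hc
    push Not at hc
    exact hxy (le_sup_left.trans (jsep (lo := lo) hlo2 hd (hup r x hr.le hx) hy hc))
  obtain ⟨m, ⟨hm1, hm2⟩, hmax⟩ :=
    (Set.toFinite {z : L | f z = t ∧ ¬ p.1 ≤ z}).exists_maximal ⟨lo t, hflo t, p.2.2.1⟩
  have hm3 : ∀ z, f z = t → ¬ p.1 ≤ z → z ≤ m := by
    intro z hz hpz
    have h1 : m ⊔ z ∈ {z : L | f z = t ∧ ¬ p.1 ≤ z} := by
      refine ⟨by rw [map_sup, hm1, hz, sup_idem], fun h => ?_⟩
      rcases p.2.2.2 _ _ hm1 hz h with h | h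
      · exact hm2 h
      · exact hpz h
    exact le_sup_right.trans (hmax h1 le_sup_left)
  refine ⟨m, p.1, hm1, p.2.1, hp2, ?_, ⟨?_, ?_⟩, ?_⟩
  · intro h
    exact hm2 (hp1.trans (sup_le (h.trans inf_le_left) (hlo2 m hm1)))
  · intro q hq
    show f (m ⊓ hi q) = q
    rw [map_inf, hm1, hfhi, inf_eq_right.2 hq.le]
  · intro s q z hsq hq hz
    exact ⟨fun h => le_inf (h.trans inf_le_left) (hhi2 _ _ hz),
      fun h => le_inf (h.trans inf_le_left) ((hhi2 _ _ hz).trans (hhimono _ _ hsq))⟩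
  · intro q z hq hz
    by_cases h : p.1 ≤ z ⊔ lo t
    · right
      intro w hw hzw
      exact h.trans (sup_le hzw (hlo2 w hw))
    · left
      exact le_inf (le_sup_left.trans (hm3 _ (hup q z hq.le hz) h)) (hhi2 _ _ hz)

/-- **The extension theorem.** -/
theorem ext_wide_aux [Finite L] (hf : Function.Surjective f) (b0 : K) (hb0 : ∀ k, b0 ≤ k)
    (hflo : ∀ k, f (lo k) = k) (hfhi : ∀ k, f (hi k) = k)
    (hlo : ∀ l, lo (f l) ≤ l) (hhi : ∀ l, l ≤ hi (f l)) (N : Set K)
    (hN : ∀ r t, r ≤ t → r ∈ N → t ∈ N)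
    (hg : ∀ t, t ∉ N → ¬ DistribOver f t → IsGroupInterval {l : L // f l = t})
    (hb : ∀ t, t ∉ N → ¬ DistribOver f t → ∀ x y, f x < t → f y = t → x ≤ y)
    (hn : ∀ r, r ∉ N → ¬ DistribOver f r → ∀ t, t ∉ N → r < t → ∀ x y z, f x = t → f y = t →
      f z = t → ¬ x ⊓ hi r ≤ y → ¬ y ⊓ hi r ≤ x → ¬ x ⊓ hi r ≤ z → ¬ z ⊓ hi r ≤ x →
      y ⊓ hi r = z ⊓ hi r)
    (hD : ∀ t, t ∈ N → Nonempty (Dl f t))
    (hC : ∀ t, t ∈ N → CompatTight f t ∨ ∃ r0, r0 < t ∧ (∀ q, q < t → q ≤ r0) ∧ r0 ∈ N ∧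
      TransposedLink f r0 t)
    (hgl : ∀ t, t ∈ N → ¬ IsMax t → ∀ r r', r < t → r' < t → ¬ r ≤ r' → ¬ r' ≤ r →
      ((r ∉ N ∨ DistribOver f t ∧ ∀ y y', f y = t → f y' = t → y ⊓ hi r ≤ y' ∨ y' ⊓ hi r ≤ y) ∧
        (r' ∉ N ∨ DistribOver f t ∧
          ∀ y y', f y = t → f y' = t → y ⊓ hi r' ≤ y' ∨ y' ⊓ hi r' ≤ y)) ∨
        hi (r ⊓ r') ≤ lo t)
    (hK : Representable K) : Representable L := by
  classical
  have hKfin : Finite K := Finite.of_surjective f hf
  have hlo' : ∀ k l, k ≤ f l → lo k ≤ l := by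
    intro k l h
    have h1 : f (lo k ⊓ l) = k := by rw [map_inf, hflo, inf_eq_left.2 h]
    have h3 := hlo (lo k ⊓ l)
    rw [h1] at h3
    exact h3.trans inf_le_right
  have hlo2 : ∀ t l, f l = t → lo t ≤ l := fun t l hl => by rw [← hl]; exact hlo l
  have hhi2 : ∀ t l, f l = t → l ≤ hi t := fun t l hl => by rw [← hl]; exact hhi l
  obtain ⟨F, hF⟩ := exists_rec (K := K)
    (C := fun t => Σ S : Sp f lo t, Subgroup (Equiv.Perm S.X) × S.X)
    (fun t prev St => St.2.1 ≤ isoSub St.1 ∧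
      (t ∉ N → ¬ DistribOver f t → IntOK St.1 St.2.1 St.2.2) ∧
      (t ∉ N → DistribOver f t → (∀ ω, IntOK St.1 St.2.1 ω) ∧ FlagOK St.1 ∧
        LevF St.1 St.2.1 (Nat.card (Σ r : {r : K // r < t}, (prev r.1 r.2).1.X))) ∧
      (t ∈ N → CompatTight f t → St.2.1 = isoSub St.1 ∧ (∀ ω, IntOK St.1 (isoSub St.1) ω) ∧
        LvS St.1 ∧ ∃ (D : Dl f t)
          (mk : (D.A × Blk L t (fun r => (prev r.1 r.2).1.X) D.A → T5) → St.1.X),
          Function.Surjective mk ∧
            ∀ v w l, f l = t → (St.1.d (mk v) (mk w) ≤ l ↔ BE (D.κ l) v w)) ∧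
      (t ∈ N → ¬ CompatTight f t → ∀ r0 (hr0 : r0 < t), (∀ q, q < t → q ≤ r0) →
        TransposedLink f r0 t → LvS (prev r0 hr0).1 →
        St.2.1 = isoSub St.1 ∧ (∀ ω, IntOK St.1 (isoSub St.1) ω) ∧ LvS St.1 ∧
        ∃ mk : (prev r0 hr0).1.X → St.1.X, Function.Surjective mk ∧
          ∀ x y l, f l = t → (St.1.d (mk x) (mk y) ≤ l ↔ (prev r0 hr0).1.d x y ≤ l))) (by
    intro t prev
    by_cases ht : t ∈ N
    · by_cases hCT : CompatTight f t
      · obtain ⟨D⟩ := hD t ht
        have h1 : ∀ r : {r : K // r < t}, Finite (prev r.1 r.2).1.X := fun r => (prev r.1 r.2).1.fin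
        have h2 := D.fin
        have hΦf : Finite (Blk L t (fun r => (prev r.1 r.2).1.X) D.A) := by
          have h1' : ∀ r : {r : K // r < t}, Finite (Set (prev r.1 r.2).1.X) :=
            fun r => inferInstance
          exact inferInstanceAs (Finite ((∀ r : {r : K // r < t}, Set (prev r.1 r.2).1.X) ×
            (D.A → T5) × (K → L)))
        have hΦn : Nonempty (Blk L t (fun r => (prev r.1 r.2).1.X) D.A) :=
          ⟨(fun _ => ∅, fun _ => 1, lo)⟩
        obtain ⟨T, mk, hm1, hm2, hm3, hm4⟩ := exists_sp (lo := lo) (hi := hi)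
          (mkLv D (Blk L t (fun r => (prev r.1 r.2).1.X) D.A)) (hflo t) (hfhi t) (hlo2 t) (hhi2 t)
        obtain ⟨ω⟩ := T.ne
        exact ⟨⟨T, isoSub T, ω⟩, le_rfl, fun h => absurd ht h, fun h => absurd ht h,
          fun _ _ => ⟨rfl, hm3, hm4, D, mk, hm1, fun v w l hl => hm2 v w l hl⟩,
          fun _ h => absurd hCT h⟩
      · by_cases hr : ∃ (r0 : K) (hr0 : r0 < t), (∀ q, q < t → q ≤ r0) ∧
          TransposedLink f r0 t ∧ LvS (prev r0 hr0).1
        · obtain ⟨r0, hr0, hun, hTr, hLv⟩ := hr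
          obtain ⟨R, e0, he0, he0'⟩ := exists_lv (prev r0 hr0).1 (hlo2 r0) hLv
          obtain ⟨S', e1, he1, he1'⟩ := exists_lvT hr0.le hTr R (hfhi r0) (hhi2 r0)
          obtain ⟨T, mk, hm1, hm2, hm3, hm4⟩ := exists_sp (lo := lo) (hi := hi) S' (hflo t)
            (hfhi t) (hlo2 t) (hhi2 t)
          obtain ⟨ω⟩ := T.ne
          refine ⟨⟨T, isoSub T, ω⟩, le_rfl, fun h => absurd ht h, fun h => absurd ht h,
            fun _ h => absurd h hCT, ?_⟩
          intro _ _ r1 hr1 hun1 hTr1 hLv1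
          have hr01 : r0 = r1 := le_antisymm (hun1 r0 hr0) (hun r1 hr1)
          subst hr01
          refine ⟨rfl, hm3, hm4, fun x => mk (e1 (e0 x)), hm1.comp (he1.comp he0), ?_⟩
          intro x y l hl
          show T.d (mk (e1 (e0 x))) (mk (e1 (e0 y))) ≤ l ↔ _
          have hfl : f (l ⊓ hi r0) = r0 := by rw [map_inf, hl, hfhi, inf_eq_right.2 hr0.le]
          rw [hm2 _ _ l hl, he1' _ _ l hl, he0' _ _ _ hfl]
          exact ⟨fun h => h.trans inf_le_left,
            fun h => le_inf h (hhi2 r0 _ ((prev r0 hr0).1.fd x y))⟩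
        · let T : Sp f lo t :=
            { X := Unit
              fin := inferInstance
              ne := ⟨()⟩
              d := fun _ _ => lo t
              fd := fun _ _ => hflo t
              self := fun _ _ => ⟨fun _ => rfl, fun _ => rfl⟩
              symm := fun _ _ => rfl
              tri := fun _ _ _ => le_sup_left }
          refine ⟨⟨T, isoSub T, ()⟩, le_rfl, fun h => absurd ht h, fun h => absurd ht h,
            fun _ h => absurd h hCT, ?_⟩
          intro _ _ r1 hr1 hun1 hTr1 hLv1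
          exact absurd ⟨r1, hr1, hun1, hTr1, hLv1⟩ hr
    · by_cases hd : DistribOver f t
      · obtain ⟨St, Bt, h1, h2, h3, h4⟩ := goodF_distrib (lo := lo) (hi := hi) (hflo t) (hfhi t)
          (hlo2 t) (hhi2 t) hd (Nat.card (Σ r : {r : K // r < t}, (prev r.1 r.2).1.X))
        obtain ⟨ω⟩ := St.ne
        exact ⟨⟨St, Bt, ω⟩, h1, fun _ h => absurd hd h, fun _ _ => ⟨h2, h3, h4⟩,
          fun h => absurd h ht, fun h => absurd h ht⟩
      · obtain ⟨G, hG, hGf, H, ⟨θ⟩⟩ := hg t ht hd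
        obtain ⟨S0, B0, ω0, hB0, hI0, hG0⟩ := exists_bottom (f := f) hflo hfhi hlo hhi t G H θ
        exact ⟨⟨S0, B0, ω0⟩, hB0, fun _ _ => ⟨hI0, hG0⟩, fun _ h => absurd h hd,
          fun h => absurd h ht, fun h => absurd h ht⟩)
  let S : ∀ t, Sp f lo t := fun t => (F t).1
  let B : ∀ t, Subgroup (Equiv.Perm (S t).X) := fun t => (F t).2.1
  let ω : ∀ t, (S t).X := fun t => (F t).2.2
  have hBI : ∀ t, B t ≤ isoSub (S t) := fun t => (hF t).1
  have hne : ∀ t, Nonempty (∀ r, (S r).X → (S t).X) := fun t => by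
    have := (S t).ne
    exact ⟨fun _ _ => Classical.arbitrary _⟩
  have hnm : ∀ r t : K, r < t → ¬ IsMax r := fun r t h h' => absurd (h' h.le) (not_le_of_gt h)
  have wf : WellFounded (fun a b : K => a < b) := (inferInstance : WellFoundedLT K).wf
  have hLv : ∀ t, t ∈ N → LvS (S t) := by
    intro t
    induction t using wf.induction with
    | _ t ih =>
      intro ht
      by_cases hCT : CompatTight f t
      · exact ((hF t).2.2.2.1 ht hCT).2.2.1
      · rcases hC t ht with h | ⟨r0, hr0, hun, hr0N, hTr⟩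
        · exact absurd h hCT
        · exact ((hF t).2.2.2.2 ht hCT r0 hr0 hun hTr (ih r0 hr0 hr0N)).2.2.1
  have hNI : ∀ t, t ∈ N → B t = isoSub (S t) ∧ ∀ ω, IntOK (S t) (B t) ω := by
    intro t ht
    by_cases hCT : CompatTight f t
    · obtain ⟨h1, h2, _⟩ := (hF t).2.2.2.1 ht hCT
      exact ⟨h1, fun ω => by
        show IntOK (F t).1 (F t).2.1 ω
        rw [h1]
        exact h2 ω⟩
    · rcases hC t ht with h | ⟨r0, hr0, hun, hr0N, hTr⟩
      · exact absurd h hCT
      · obtain ⟨h1, h2, _⟩ := (hF t).2.2.2.2 ht hCT r0 hr0 hun hTr (hLv r0 hr0N)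
        exact ⟨h1, fun ω => by
          show IntOK (F t).1 (F t).2.1 ω
          rw [h1]
          exact h2 ω⟩
  obtain ⟨J, hJ⟩ := exists_family (C := fun t => ∀ r, (S r).X → (S t).X)
    (fun t J => GoodN N S B t J ∧
      (t ∉ N → ¬ DistribOver f t → ∀ r, r < t → ∀ a, J t r a = ω t))
    (fun t J J' h hg => ⟨hg.1.local h, fun ht hd r hr a => by
      rw [← h t le_rfl]; exact hg.2 ht hd r hr a⟩)
    (fun t J hJ => by
      by_cases ht : t ∈ N
      · by_cases hCT : CompatTight f t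
        · obtain ⟨h1, h2, h3, D, mk, hm1, hm2⟩ := (hF t).2.2.2.1 ht hCT
          obtain ⟨J', k1, k2⟩ := exists_stepT (S := S) (B := B) (hi := hi)
            (P := fun u => DistribOver f t → ∃ m, f m = t ∧ ∀ q, q < t → u q = m ⊓ hi q)
            hBI hlo' hflo hfhi hhi (fun r hr => (hJ r hr).1) D hCT mk hm1 hm2 h1 ht (by
              intro r x y hr hx hy hxy
              by_cases hd : DistribOver f t
              · obtain ⟨m, d, e1, e2, e3, e4, e5, e6⟩ := compat_of_distrib' hflo hfhi hlo' hhi hd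
                  hr hx hy hxy
                exact ⟨fun q => m ⊓ hi q, d, e2, e3, e4, e5, fun _ => ⟨m, e1, fun _ _ => rfl⟩, e6⟩
              · obtain ⟨u, d, e1, e2, e3, e4, e5⟩ := hCT.lt hflo hlo' hr hx hy hxy
                exact ⟨u, d, e1, e2, e3, e4, fun h => absurd h hd, e5⟩) (by
              intro hmax r r' hr hr' hn1 hn2
              have key : ∀ r, r < t → (r ∉ N ∨ DistribOver f t ∧
                  ∀ y y', f y = t → f y' = t → y ⊓ hi r ≤ y' ∨ y' ⊓ hi r ≤ y) →
                  (r ∉ N ∨ ∀ u u' : K → L,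
                    (DistribOver f t → ∃ m, f m = t ∧ ∀ q, q < t → u q = m ⊓ hi q) →
                    (DistribOver f t → ∃ m, f m = t ∧ ∀ q, q < t → u' q = m ⊓ hi q) →
                    u r ≤ u' r ∨ u' r ≤ u r) := by
                intro r hr h
                rcases h with h | ⟨hd, h⟩
                · exact Or.inl h
                · right
                  intro u u' hu hu'
                  obtain ⟨m, hm, hum⟩ := hu hd
                  obtain ⟨m', hm', hum'⟩ := hu' hd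
                  rw [hum r hr, hum' r hr]
                  rcases h m m' hm hm' with h1 | h1
                  · exact Or.inl (le_inf h1 inf_le_right)
                  · exact Or.inr (le_inf h1 inf_le_right)
              rcases hgl t ht hmax r r' hr hr' hn1 hn2 with ⟨h2, h3⟩ | h2
              · exact Or.inl ⟨key r hr h2, key r' hr' h3⟩
              · exact Or.inr h2)
          exact ⟨J', k1, k2, fun h => absurd ht h⟩
        · rcases hC t ht with h | ⟨r0, hr0, hun, hr0N, hTr⟩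
          · exact absurd h hCT
          · obtain ⟨h1, h2, h3, mk, hm1, hm2⟩ :=
              (hF t).2.2.2.2 ht hCT r0 hr0 hun hTr (hLv r0 hr0N)
            obtain ⟨J', k1, k2⟩ := exists_stepU (S := S) (B := B) (hi := hi) hBI hlo' hflo hfhi hhi
              (fun r hr => (hJ r hr).1) hr0 hun mk hm1 hm2 h1 ht
            exact ⟨J', k1, k2, fun h => absurd ht h⟩
      · have hrN : ∀ r, r < t → r ∉ N := fun r hr h => ht (hN r t hr.le h)
        have hJ3 : ∀ r, r < t → Good3 S B r J := fun r hr =>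
          (hJ r hr).1.to3 (hrN r hr) (hnm r t hr)
        by_cases hd : DistribOver f t
        · obtain ⟨J', h1, h2⟩ := exists_step5 (hi := hi) (fun s g hg => (hBI s) hg) hlo' hflo hfhi
            hhi hJ3 (fun r hr => by
              by_cases hdr : DistribOver f r
              · exact tr_of_flag hr.le hfhi hd ((hF r).2.2.1 (hrN r hr) hdr).2.1
              · exact tr_of_narrow hr.le hlo' hfhi hhi hd (hn r (hrN r hr) hdr t ht hr) (S r)) hd
            ((hF t).2.2.1 ht hd).2.2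
          exact ⟨J', h1, GoodN.of3 h2, fun _ h => absurd hd h⟩
        · obtain ⟨J', h1, h2, h3⟩ := exists_step_top hlo' (ω t) hJ3 (hb t ht hd) hflo
          exact ⟨J', h1, GoodN.of3 h2, fun _ _ => h3⟩)
  refine coreN (hi := hi) hf S J B (fun t => J t b0 (ω b0)) hlo hfhi hhi (fun t => (hJ t).1) hBI
    (fun r t hrt => (hJ t).1.comp _ _ (hb0 r) hrt (ω b0)) (fun s => ?_) hK
  by_cases hs : s ∈ N
  · exact (hNI s hs).2 _
  by_cases hd : DistribOver f s
  · exact ((hF s).2.2.1 hs hd).1 _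
  · have h1 : J s b0 (ω b0) = ω s := by
      rcases eq_or_lt_of_le (hb0 s) with h | h
      · subst h
        exact (hJ b0).1.refl _
      · exact (hJ s).2 hs hd b0 h _
    show IntOK (S s) (B s) (J s b0 (ω b0))
    rw [h1]
    exact (hF s).2.1 hs hd

end Vale.Agent.P183.H238
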